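import Vale.Agent.Lib.P328.Sparse.Defs

/-!
# P328, sparse margins: the shift identity
-/

namespace Vale.Agent.Lib.P328.Sparse

open Finset MeasureTheory Vale.Agent.Lib.P328.Cap
open scoped ENNReal Nat

variable {m n : ℕ}

theorem wt_pos {t : Fin n → Fin m → ℝ} (ht : ∀ j i, 0 < t j i) (T : Fin n → Fin m → ℕ) :
    0 < wt t T := by
  unfold wt
  refine Finset.prod_pos fun j _ => Finset.prod_pos fun i _ => ?_
  have := ht j i
  have h2 : (0 : ℝ) < ((T j i)! : ℝ) := by exact_mod_cast Nat.factorial_pos _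
  positivity

theorem entry_le_row {r : Fin m → ℕ} {c : Fin n → ℕ} {T : Fin n → Fin m → ℕ} (hT : T ∈ tabs r c)
    (j : Fin n) (i : Fin m) : T j i ≤ r i := by
  rw [← (mem_tabs.1 hT).2 i]
  exact Finset.single_le_sum (f := fun z => T z i) (fun _ _ => Nat.zero_le _) (mem_univ j)

theorem entry_le_col {r : Fin m → ℕ} {c : Fin n → ℕ} {T : Fin n → Fin m → ℕ} (hT : T ∈ tabs r c)
    (j : Fin n) (i : Fin m) : T j i ≤ c j := by
  rw [← (mem_tabs.1 hT).1 j]
  exact Finset.single_le_sum (f := fun z => T j z) (fun _ _ => Nat.zero_le _) (mem_univ i)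

theorem dec_apply {k : ℕ} (f : Fin k → ℕ) (a b : Fin k) :
    dec f a b = f b - if b = a then 1 else 0 := by
  unfold dec
  by_cases h : b = a
  · subst h
    simp
  · simp [Function.update_of_ne h, h]

theorem bump_apply (T : Fin n → Fin m → ℕ) (j : Fin n) (i : Fin m) (j' : Fin n) (i' : Fin m) :
    bump T j i j' i' = T j' i' + if j' = j ∧ i' = i then 1 else 0 := by
  unfold bump
  by_cases h : j' = j
  · subst h
    by_cases h2 : i' = i
    · subst h2
      simp
    · simp [Function.update_of_ne h2, h2]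
  · simp [Function.update_of_ne h, h]

/-- Remove one from a cell. -/
def unb (T : Fin n → Fin m → ℕ) (j : Fin n) (i : Fin m) : Fin n → Fin m → ℕ :=
  Function.update T j (Function.update (T j) i (T j i - 1))

theorem unb_apply (T : Fin n → Fin m → ℕ) (j : Fin n) (i : Fin m) (j' : Fin n) (i' : Fin m) :
    unb T j i j' i' = T j' i' - if j' = j ∧ i' = i then 1 else 0 := by
  unfold unb
  by_cases h : j' = j
  · subst h
    by_cases h2 : i' = i
    · subst h2
      simp
    · simp [Function.update_of_ne h2, h2]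
  · simp [Function.update_of_ne h, h]

theorem bump_unb {T : Fin n → Fin m → ℕ} {j : Fin n} {i : Fin m} (h : 1 ≤ T j i) :
    bump (unb T j i) j i = T := by
  funext j' i'
  rw [bump_apply, unb_apply]
  by_cases h2 : j' = j ∧ i' = i
  · obtain ⟨rfl, rfl⟩ := h2
    simp
    omega
  · simp [h2]

theorem unb_bump (T : Fin n → Fin m → ℕ) (j : Fin n) (i : Fin m) :
    unb (bump T j i) j i = T := by
  funext j' i'
  rw [unb_apply, bump_apply]
  by_cases h2 : j' = j ∧ i' = i
  · simp [h2]
  · simp [h2]

theorem sum_bump_col (T : Fin n → Fin m → ℕ) (j : Fin n) (i : Fin m) (j' : Fin n) :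
    ∑ i', bump T j i j' i' = ∑ i', T j' i' + if j' = j then 1 else 0 := by
  simp only [bump_apply, Finset.sum_add_distrib]
  congr 1
  by_cases h : j' = j
  · simp [h]
  · simp [h]

theorem sum_bump_row (T : Fin n → Fin m → ℕ) (j : Fin n) (i : Fin m) (i' : Fin m) :
    ∑ j', bump T j i j' i' = ∑ j', T j' i' + if i' = i then 1 else 0 := by
  simp only [bump_apply, Finset.sum_add_distrib]
  congr 1
  by_cases h : i' = i
  · simp [h]
  · simp [h]

/-- The bump of a table of the decreased margins is a table. -/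
theorem bump_mem {r : Fin m → ℕ} {c : Fin n → ℕ} {j : Fin n} {i : Fin m} (hi : 1 ≤ r i) (hj : 1 ≤ c j)
    {T : Fin n → Fin m → ℕ} (hT : T ∈ tabs (dec r i) (dec c j)) : bump T j i ∈ tabs r c := by
  rw [mem_tabs] at hT ⊢
  constructor
  · intro j'
    rw [sum_bump_col, hT.1 j', dec_apply]
    by_cases h : j' = j
    · subst h
      simp
      omega
    · simp [h]
  · intro i'
    rw [sum_bump_row, hT.2 i', dec_apply]
    by_cases h : i' = i
    · subst h
      simp
      omega
    · simp [h]

/-- Removing a unit from a positive cell gives a table of the decreased margins. -/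
theorem unb_mem {r : Fin m → ℕ} {c : Fin n → ℕ} {j : Fin n} {i : Fin m}
    {T : Fin n → Fin m → ℕ} (hT : T ∈ tabs r c) (h : 1 ≤ T j i) :
    unb T j i ∈ tabs (dec r i) (dec c j) := by
  have hb := bump_unb h
  have hT' := mem_tabs.1 hT
  rw [mem_tabs]
  constructor
  · intro j'
    have h1 := sum_bump_col (unb T j i) j i j'
    rw [hb, hT'.1 j'] at h1
    rw [dec_apply]
    omega
  · intro i'
    have h1 := sum_bump_row (unb T j i) j i i'
    rw [hb, hT'.2 i'] at h1
    rw [dec_apply]
    omega

/-- The weight of a bump. -/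
theorem wt_bump (t : Fin n → Fin m → ℝ) (T : Fin n → Fin m → ℕ) (j : Fin n) (i : Fin m) :
    wt t (bump T j i) = wt t T * (t j i / ((T j i : ℝ) + 1)) := by
  have h1 : ∀ j' i', t j' i' ^ bump T j i j' i' / ((bump T j i j' i')! : ℝ)
      = (t j' i' ^ T j' i' / ((T j' i')! : ℝ))
        * if j' = j then (if i' = i then t j i / ((T j i : ℝ) + 1) else 1) else 1 := by
    intro j' i'
    rw [bump_apply]
    by_cases h : j' = j ∧ i' = i
    · obtain ⟨rfl, rfl⟩ := h
      simp only [and_self, if_true]
      rw [Nat.factorial_succ, pow_succ]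
      have h2 : (0 : ℝ) < ((T j' i')! : ℝ) := by exact_mod_cast Nat.factorial_pos _
      have h3 : (0 : ℝ) < (T j' i' : ℝ) + 1 := by positivity
      push_cast
      field_simp
    · have h' : (if j' = j ∧ i' = i then 1 else 0) = 0 := if_neg h
      rw [h', add_zero]
      by_cases h3 : j' = j
      · have h4 : ¬ i' = i := fun h5 => h ⟨h3, h5⟩
        simp [h3, h4]
      · simp [h3]
  unfold wt
  simp only [h1, Finset.prod_mul_distrib]
  congr 1
  rw [Finset.prod_eq_single j]
  · rw [Finset.prod_eq_single i]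
    · simp
    · intro b _ hb
      simp [hb]
    · simp
  · intro b _ hb
    simp [hb]
  · simp

/-- The shift identity with a test function. -/
theorem shift_sum (t : Fin n → Fin m → ℝ) (r : Fin m → ℕ) (c : Fin n → ℕ) (j : Fin n) (i : Fin m)
    (hi : 1 ≤ r i) (hj : 1 ≤ c j) (g : (Fin n → Fin m → ℕ) → ℝ) :
    ∑ T ∈ tabs r c, (T j i : ℝ) * wt t T * g T
      = t j i * ∑ T ∈ tabs (dec r i) (dec c j), wt t T * g (bump T j i) := by
  have h0 : ∑ T ∈ tabs r c, (T j i : ℝ) * wt t T * g T
      = ∑ T ∈ (tabs r c).filter (fun T => 1 ≤ T j i), (T j i : ℝ) * wt t T * g T := by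
    rw [Finset.sum_filter_of_ne]
    intro T _ hT
    by_contra hlt
    apply hT
    have : T j i = 0 := by omega
    simp [this]
  rw [h0, Finset.mul_sum]
  refine Finset.sum_nbij' (fun T => unb T j i) (fun T => bump T j i) ?_ ?_ ?_ ?_ ?_
  · intro T hT
    rw [mem_filter] at hT
    exact unb_mem hT.1 hT.2
  · intro T hT
    rw [mem_filter]
    refine ⟨bump_mem hi hj hT, ?_⟩
    rw [bump_apply]
    simp
  · intro T hT
    rw [mem_filter] at hT
    exact bump_unb hT.2
  · intro T _
    exact unb_bump T j i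
  · intro T hT
    rw [mem_filter] at hT
    have hb := bump_unb hT.2
    have hw := wt_bump t (unb T j i) j i
    rw [hb] at hw
    have h1 : ((unb T j i j i : ℕ) : ℝ) + 1 = (T j i : ℝ) := by
      have : unb T j i j i + 1 = T j i := by
        rw [unb_apply]
        simp
        omega
      exact_mod_cast this
    rw [h1] at hw
    have h2 : (0 : ℝ) < (T j i : ℝ) := by exact_mod_cast hT.2
    rw [hw, hb]
    field_simp

/-- The sum of a decreased vector. -/
theorem sum_dec {k : ℕ} (f : Fin k → ℕ) (j : Fin k) (h : 1 ≤ f j) :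
    ∑ l, dec f j l + 1 = ∑ l, f l := by
  have h1 : ∑ l, dec f j l = dec f j j + ∑ l ∈ univ.erase j, dec f j l :=
    (Finset.add_sum_erase _ _ (mem_univ j)).symm
  have h2 : ∑ l, f l = f j + ∑ l ∈ univ.erase j, f l :=
    (Finset.add_sum_erase _ _ (mem_univ j)).symm
  have h3 : ∑ l ∈ univ.erase j, dec f j l = ∑ l ∈ univ.erase j, f l := by
    refine Finset.sum_congr rfl fun l hl => ?_
    rw [dec_apply, if_neg (Finset.ne_of_mem_erase hl)]
    simp
  have h4 : dec f j j = f j - 1 := by
    rw [dec_apply]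
    simp
  omega

/-- Tables exist when the totals agree. -/
theorem tabs_nonempty : ∀ (M : ℕ) (r : Fin m → ℕ) (c : Fin n → ℕ),
    ∑ i, r i = M → ∑ j, c j = M → (tabs r c).Nonempty := by
  intro M
  induction M with
  | zero =>
    intro r c hr hc
    refine ⟨fun _ _ => 0, ?_⟩
    rw [mem_tabs]
    constructor
    · intro j
      have h : c j = 0 := by
        have := Finset.single_le_sum (f := c) (fun _ _ => Nat.zero_le _) (mem_univ j)
        omega
      simp [h]
    · intro i
      have h : r i = 0 := by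
        have := Finset.single_le_sum (f := r) (fun _ _ => Nat.zero_le _) (mem_univ i)
        omega
      simp [h]
  | succ M ih =>
    intro r c hr hc
    obtain ⟨i, hi⟩ : ∃ i, 1 ≤ r i := by
      by_contra hne
      push Not at hne
      have : ∑ i, r i = 0 := Finset.sum_eq_zero fun i _ => by
        have := hne i
        omega
      omega
    obtain ⟨j, hj⟩ : ∃ j, 1 ≤ c j := by
      by_contra hne
      push Not at hne
      have : ∑ j, c j = 0 := Finset.sum_eq_zero fun i _ => by
        have := hne i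
        omega
      omega
    have h1 := sum_dec r i hi
    have h2 := sum_dec c j hj
    obtain ⟨T, hT⟩ := ih (dec r i) (dec c j) (by omega) (by omega)
    exact ⟨bump T j i, bump_mem hi hj hT⟩

/-- Positivity of the weighted count. -/
theorem FF_pos {t : Fin n → Fin m → ℝ} (ht : ∀ j i, 0 < t j i) (r : Fin m → ℕ) (c : Fin n → ℕ)
    (hsum : ∑ i, r i = ∑ j, c j) : 0 < FF r c t := by
  unfold FF
  exact Finset.sum_pos (fun T _ => wt_pos ht T) (tabs_nonempty _ r c rfl hsum.symm)

theorem am_eq {t : Fin n → Fin m → ℝ} (ht : ∀ j i, 0 < t j i) (r : Fin m → ℕ) (c : Fin n → ℕ)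
    (hsum : ∑ i, r i = ∑ j, c j) (j : Fin n) (i : Fin m) (hi : 1 ≤ r i) (hj : 1 ≤ c j) :
    FF r c t * am r c t j i = t j i * FF (dec r i) (dec c j) t := by
  have hF := FF_pos ht r c hsum
  unfold am
  rw [mul_div_cancel₀ _ hF.ne']
  have h := shift_sum t r c j i hi hj fun _ => 1
  simp only [mul_one] at h
  rw [h]
  rfl

theorem am_nonneg {t : Fin n → Fin m → ℝ} (ht : ∀ j i, 0 < t j i) (r : Fin m → ℕ) (c : Fin n → ℕ)
    (j : Fin n) (i : Fin m) : 0 ≤ am r c t j i := by
  unfold am
  refine div_nonneg (Finset.sum_nonneg fun T _ => mul_nonneg (Nat.cast_nonneg _) (wt_pos ht T).le) ?_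
  exact Finset.sum_nonneg fun T _ => (wt_pos ht T).le

theorem am_zero {t : Fin n → Fin m → ℝ} (r : Fin m → ℕ) (c : Fin n → ℕ)
    (j : Fin n) (i : Fin m) (h : r i = 0 ∨ c j = 0) : am r c t j i = 0 := by
  unfold am
  have : ∑ T ∈ tabs r c, (T j i : ℝ) * wt t T = 0 := by
    refine Finset.sum_eq_zero fun T hT => ?_
    have h0 : T j i = 0 := by
      rcases h with h | h
      · have := entry_le_row hT j i
        omega
      · have := entry_le_col hT j i
        omega
    simp [h0]
  rw [this, zero_div]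

/-- The mean row sums. -/
theorem sum_am_row {t : Fin n → Fin m → ℝ} (ht : ∀ j i, 0 < t j i) (r : Fin m → ℕ) (c : Fin n → ℕ)
    (hsum : ∑ i, r i = ∑ j, c j) (i : Fin m) : ∑ j, am r c t j i = r i := by
  have hF := FF_pos ht r c hsum
  unfold am
  rw [← Finset.sum_div, Finset.sum_comm, div_eq_iff hF.ne']
  unfold FF
  rw [Finset.mul_sum]
  refine Finset.sum_congr rfl fun T hT => ?_
  rw [← Finset.sum_mul, ← (mem_tabs.1 hT).2 i]
  push_cast
  rfl

/-- The mean column sums. -/
theorem sum_am_col {t : Fin n → Fin m → ℝ} (ht : ∀ j i, 0 < t j i) (r : Fin m → ℕ) (c : Fin n → ℕ)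
    (hsum : ∑ i, r i = ∑ j, c j) (j : Fin n) : ∑ i, am r c t j i = c j := by
  have hF := FF_pos ht r c hsum
  unfold am
  rw [← Finset.sum_div, Finset.sum_comm, div_eq_iff hF.ne']
  unfold FF
  rw [Finset.mul_sum]
  refine Finset.sum_congr rfl fun T hT => ?_
  rw [← Finset.sum_mul, ← (mem_tabs.1 hT).1 j]
  push_cast
  rfl

end Vale.Agent.Lib.P328.Sparse
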