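import Vale.Agent.Lib.P328.Sparse.Shift

/-!
# P328, sparse margins: the chain inequality for `log K`
-/

namespace Vale.Agent.Lib.P328.Sparse

open Finset MeasureTheory Vale.Agent.Lib.P328.Cap
open scoped ENNReal Nat

variable {m n : ℕ}

/-- The value of the capacity problem at `b`. -/
noncomputable def valB (r : Fin m → ℕ) (c : Fin n → ℕ) (t : Fin n → Fin m → ℝ) (b : Fin n → ℝ) : ℝ :=
  (∏ i, (∑ j, t j i * b j) ^ r i) / ∏ j, b j ^ c j

theorem valB_nonneg {t : Fin n → Fin m → ℝ} (ht : ∀ j i, 0 < t j i) (r : Fin m → ℕ) (c : Fin n → ℕ)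
    (b : Fin n → ℝ) (hb : ∀ j, 0 < b j) : 0 ≤ valB r c t b := by
  unfold valB
  refine div_nonneg (Finset.prod_nonneg fun i _ => pow_nonneg ?_ _)
    (Finset.prod_nonneg fun j _ => pow_nonneg (hb j).le _)
  exact Finset.sum_nonneg fun j _ => (mul_pos (ht j i) (hb j)).le

theorem capa_le_valB (t : Fin n → Fin m → ℝ) (r : Fin m → ℕ) (c : Fin n → ℕ)
    (b : Fin n → ℝ) (hb : ∀ j, 0 < b j) : capa r c t ≤ ENNReal.ofReal (valB r c t b) := by
  unfold capa valB
  exact iInf_le (fun b : {b : Fin n → ℝ // ∀ j, 0 < b j} =>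
    ENNReal.ofReal ((∏ i, (∑ j, t j i * b.1 j) ^ r i) / ∏ j, b.1 j ^ c j)) ⟨b, hb⟩

theorem capa_ne_top (t : Fin n → Fin m → ℝ) (r : Fin m → ℕ) (c : Fin n → ℕ) : capa r c t ≠ ⊤ :=
  ne_top_of_le_ne_top ENNReal.ofReal_ne_top (capa_le_valB t r c (fun _ => 1) fun _ => one_pos)

theorem capR_le_valB {t : Fin n → Fin m → ℝ} (ht : ∀ j i, 0 < t j i) (r : Fin m → ℕ) (c : Fin n → ℕ)
    (b : Fin n → ℝ) (hb : ∀ j, 0 < b j) : capR r c t ≤ valB r c t b := by
  unfold capR
  have h := ENNReal.toReal_mono ENNReal.ofReal_ne_top (capa_le_valB t r c b hb)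
  rwa [ENNReal.toReal_ofReal (valB_nonneg ht r c b hb)] at h

theorem le_capR {t : Fin n → Fin m → ℝ} (r : Fin m → ℕ) (c : Fin n → ℕ)
    (e : ℝ) (h : ∀ b : Fin n → ℝ, (∀ j, 0 < b j) → e ≤ valB r c t b) : e ≤ capR r c t := by
  unfold capR
  have h1 : ENNReal.ofReal e ≤ capa r c t := by
    unfold capa
    refine le_iInf fun b => ?_
    exact ENNReal.ofReal_le_ofReal (h b.1 b.2)
  have h2 := ENNReal.toReal_mono (capa_ne_top t r c) h1
  refine le_trans ?_ h2
  rw [ENNReal.toReal_ofReal']
  exact le_max_left _ _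

/-- `capa` is the real capacity. -/
theorem capa_eq_ofReal (t : Fin n → Fin m → ℝ) (r : Fin m → ℕ)
    (c : Fin n → ℕ) : capa r c t = ENNReal.ofReal (capR r c t) := by
  unfold capR
  rw [ENNReal.ofReal_toReal (capa_ne_top t r c)]

/-- Factoring one row out of a product of powers. -/
theorem prod_pow_dec (x : Fin m → ℝ) (r : Fin m → ℕ) (i : Fin m) (hi : 1 ≤ r i) :
    ∏ l, x l ^ r l = x i * ∏ l, x l ^ dec r i l := by
  rw [← Finset.mul_prod_erase univ (fun l => x l ^ r l) (mem_univ i),
    ← Finset.mul_prod_erase univ (fun l => x l ^ dec r i l) (mem_univ i)]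
  have h1 : dec r i i = r i - 1 := by
    rw [dec_apply]
    simp
  have h2 : ∏ l ∈ univ.erase i, x l ^ dec r i l = ∏ l ∈ univ.erase i, x l ^ r l := by
    refine Finset.prod_congr rfl fun l hl => ?_
    rw [dec_apply, if_neg (Finset.ne_of_mem_erase hl)]
    simp
  rw [h1, h2, ← mul_assoc, ← pow_succ']
  congr 2
  omega

/-- The factorial of a decreased vector. -/
theorem prod_fact_dec (r : Fin m → ℕ) (i : Fin m) (hi : 1 ≤ r i) :
    ∏ l, (((r l)! : ℕ) : ℝ) = (r i : ℝ) * ∏ l, (((dec r i l)! : ℕ) : ℝ) := by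
  rw [← Finset.mul_prod_erase univ (fun l => (((r l)! : ℕ) : ℝ)) (mem_univ i),
    ← Finset.mul_prod_erase univ (fun l => (((dec r i l)! : ℕ) : ℝ)) (mem_univ i)]
  have h1 : dec r i i = r i - 1 := by
    rw [dec_apply]
    simp
  have h2 : ∏ l ∈ univ.erase i, (((dec r i l)! : ℕ) : ℝ) = ∏ l ∈ univ.erase i, (((r l)! : ℕ) : ℝ) := by
    refine Finset.prod_congr rfl fun l hl => ?_
    rw [dec_apply, if_neg (Finset.ne_of_mem_erase hl)]
    simp
  rw [h1, h2, ← mul_assoc]
  congr 1
  have h3 : r i = (r i - 1) + 1 := by omega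
  have h4 : ((r i)! : ℕ) = r i * ((r i - 1)! : ℕ) := (Nat.mul_factorial_pred (by omega)).symm
  rw [h4]
  push_cast
  rfl

/-- Expanding `F` along one row. -/
theorem FF_row {t : Fin n → Fin m → ℝ} (r : Fin m → ℕ) (c : Fin n → ℕ)
    (i : Fin m) (hi : 1 ≤ r i) :
    (r i : ℝ) * FF r c t = ∑ j, if 1 ≤ c j then t j i * FF (dec r i) (dec c j) t else 0 := by
  have h1 : (r i : ℝ) * FF r c t = ∑ j, ∑ T ∈ tabs r c, (T j i : ℝ) * wt t T := by
    unfold FF
    rw [Finset.mul_sum, Finset.sum_comm]
    refine Finset.sum_congr rfl fun T hT => ?_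
    rw [← Finset.sum_mul, ← (mem_tabs.1 hT).2 i]
    push_cast
    rfl
  rw [h1]
  refine Finset.sum_congr rfl fun j _ => ?_
  by_cases hj : 1 ≤ c j
  · rw [if_pos hj]
    have h := shift_sum t r c j i hi hj fun _ => 1
    simp only [mul_one] at h
    rw [h]
    rfl
  · rw [if_neg hj]
    refine Finset.sum_eq_zero fun T hT => ?_
    have := entry_le_col hT j i
    have h0 : T j i = 0 := by omega
    simp [h0]

/-- The coefficient is at most the value of the capacity problem. -/
theorem coef_le_valB {t : Fin n → Fin m → ℝ} (ht : ∀ j i, 0 < t j i) (b : Fin n → ℝ)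
    (hb : ∀ j, 0 < b j) : ∀ (M : ℕ) (r : Fin m → ℕ) (c : Fin n → ℕ), ∑ i, r i = M → ∑ j, c j = M →
    (∏ i, (((r i)! : ℕ) : ℝ)) * FF r c t ≤ valB r c t b := by
  intro M
  induction M with
  | zero =>
    intro r c hr hc
    have h1 : ∀ i, r i = 0 := fun i => by
      have := Finset.single_le_sum (f := r) (fun _ _ => Nat.zero_le _) (mem_univ i)
      omega
    have h2 : ∀ j, c j = 0 := fun i => by
      have := Finset.single_le_sum (f := c) (fun _ _ => Nat.zero_le _) (mem_univ i)
      omega
    have h3 : tabs r c = {fun _ _ => 0} := by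
      ext T
      rw [mem_tabs, mem_singleton]
      constructor
      · intro h
        funext j i
        have := entry_le_row (mem_tabs.2 h) j i
        have h4 := h1 i
        omega
      · rintro rfl
        exact ⟨fun j => by simp [h2 j], fun i => by simp [h1 i]⟩
    unfold valB FF wt
    rw [h3]
    simp [h1, h2]
  | succ M ih =>
    intro r c hr hc
    obtain ⟨i, hi⟩ : ∃ i, 1 ≤ r i := by
      by_contra hne
      push Not at hne
      have : ∑ i, r i = 0 := Finset.sum_eq_zero fun i _ => by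
        have := hne i
        omega
      omega
    have hS : 0 < ∑ j, t j i * b j := by
      obtain ⟨j, hj⟩ : ∃ j, 1 ≤ c j := by
        by_contra hne
        push Not at hne
        have : ∑ j, c j = 0 := Finset.sum_eq_zero fun i _ => by
          have := hne i
          omega
        omega
      exact Finset.sum_pos (fun j _ => mul_pos (ht j i) (hb j)) ⟨j, mem_univ j⟩
    have hB : 0 < ∏ j, b j ^ c j := Finset.prod_pos fun j _ => pow_pos (hb j) _
    -- expand
    have h1 : (∏ l, (((r l)! : ℕ) : ℝ)) * FF r c t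
        = (∏ l, (((dec r i l)! : ℕ) : ℝ)) *
          ∑ j, if 1 ≤ c j then t j i * FF (dec r i) (dec c j) t else 0 := by
      rw [prod_fact_dec r i hi, ← FF_row r c i hi]
      ring
    rw [h1, Finset.mul_sum]
    unfold valB
    rw [prod_pow_dec _ r i hi, le_div_iff₀ hB, Finset.sum_mul]
    calc _ ≤ ∑ j, (t j i * b j) * ∏ l, (∑ j', t j' l * b j') ^ dec r i l := by
          refine Finset.sum_le_sum fun j _ => ?_
          by_cases hj : 1 ≤ c j
          · rw [if_pos hj]
            have h2 := sum_dec r i hi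
            have h3 := sum_dec c j hj
            have h4 := ih (dec r i) (dec c j) (by omega) (by omega)
            unfold valB at h4
            have hB' : 0 < ∏ j', b j' ^ dec c j j' := Finset.prod_pos fun j _ => pow_pos (hb j) _
            rw [le_div_iff₀ hB'] at h4
            have h5 : ∏ j', b j' ^ c j' = b j * ∏ j', b j' ^ dec c j j' :=
              prod_pow_dec b c j hj
            rw [h5]
            have h6 := mul_le_mul_of_nonneg_left h4 (mul_pos (ht j i) (hb j)).le
            calc _ = (t j i * b j) * ((∏ l, (((dec r i l)! : ℕ) : ℝ)) * FF (dec r i) (dec c j) t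
                  * ∏ j', b j' ^ dec c j j') := by ring
              _ ≤ _ := h6
          · rw [if_neg hj]
            simp only [mul_zero, zero_mul]
            refine mul_nonneg (mul_pos (ht j i) (hb j)).le (Finset.prod_nonneg fun l _ => ?_)
            exact pow_nonneg (Finset.sum_nonneg fun j' _ => (mul_pos (ht j' l) (hb j')).le) _
      _ = _ := by rw [Finset.sum_mul]

/-- The coefficient is at most the capacity. -/
theorem coef_le_capR {t : Fin n → Fin m → ℝ} (ht : ∀ j i, 0 < t j i) (r : Fin m → ℕ) (c : Fin n → ℕ)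
    (hsum : ∑ i, r i = ∑ j, c j) : (∏ i, (((r i)! : ℕ) : ℝ)) * FF r c t ≤ capR r c t :=
  le_capR r c _ fun b hb => coef_le_valB ht b hb _ r c rfl hsum.symm

theorem coef_pos {t : Fin n → Fin m → ℝ} (ht : ∀ j i, 0 < t j i) (r : Fin m → ℕ) (c : Fin n → ℕ)
    (hsum : ∑ i, r i = ∑ j, c j) : 0 < (∏ i, (((r i)! : ℕ) : ℝ)) * FF r c t := by
  refine mul_pos (Finset.prod_pos fun i _ => ?_) (FF_pos ht r c hsum)
  exact_mod_cast Nat.factorial_pos _

theorem capR_pos {t : Fin n → Fin m → ℝ} (ht : ∀ j i, 0 < t j i) (r : Fin m → ℕ) (c : Fin n → ℕ)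
    (hsum : ∑ i, r i = ∑ j, c j) : 0 < capR r c t :=
  lt_of_lt_of_le (coef_pos ht r c hsum) (coef_le_capR ht r c hsum)

/-- The function `x ^ x / x !`. -/
noncomputable def gp (x : ℕ) : ℝ := (x : ℝ) ^ x / ((x ! : ℕ) : ℝ)

theorem gp_pos (x : ℕ) : 0 < gp x := by
  unfold gp
  have h : (0 : ℝ) < ((x ! : ℕ) : ℝ) := by exact_mod_cast Nat.factorial_pos _
  refine div_pos ?_ h
  rcases Nat.eq_zero_or_pos x with rfl | hx
  · simp
  · have : (0 : ℝ) < x := by exact_mod_cast hx
    positivity

theorem betaC_eq (c : Fin n → ℕ) : betaC c = (gp (∑ j, c j))⁻¹ * ∏ j, gp (c j) := by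
  unfold betaC gp
  rw [inv_div]

theorem betaC_pos (c : Fin n → ℕ) : 0 < betaC c := by
  rw [betaC_eq]
  exact mul_pos (inv_pos.2 (gp_pos _)) (Finset.prod_pos fun j _ => gp_pos _)

/-- `l0 x = (x - 1) log ((x - 1) / x)`. -/
noncomputable def l0 (x : ℕ) : ℝ := ((x : ℝ) - 1) * Real.log (((x : ℝ) - 1) / (x : ℝ))

theorem log_gp_pred (x : ℕ) (hx : 1 ≤ x) : Real.log (gp (x - 1)) = Real.log (gp x) + l0 x := by
  obtain ⟨y, rfl⟩ : ∃ y, x = y + 1 := ⟨x - 1, by omega⟩
  simp only [Nat.add_sub_cancel]
  unfold l0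
  push_cast
  simp only [add_sub_cancel_right]
  rcases Nat.eq_zero_or_pos y with rfl | hy
  · simp [gp]
  · have hy' : (0 : ℝ) < y := by exact_mod_cast hy
    have hy1 : (0 : ℝ) < (y : ℝ) + 1 := by positivity
    have hf : (0 : ℝ) < ((y ! : ℕ) : ℝ) := by exact_mod_cast Nat.factorial_pos _
    have h1 : gp y = gp (y + 1) * ((y : ℝ) / ((y : ℝ) + 1)) ^ y := by
      unfold gp
      rw [Nat.factorial_succ]
      push_cast
      rw [pow_succ, div_pow]
      field_simp
    rw [h1, Real.log_mul (gp_pos _).ne' (pow_pos (by positivity) _).ne', Real.log_pow]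

theorem one_add_l0_nonneg (x : ℕ) (hx : 1 ≤ x) : 0 ≤ 1 + l0 x := by
  unfold l0
  rcases Nat.eq_or_lt_of_le hx with h | h
  · rw [← h]
    simp
  · have hx1 : (1 : ℝ) < x := by exact_mod_cast h
    have h1 : (0 : ℝ) < (x : ℝ) - 1 := by linarith
    have h2 : (0 : ℝ) < (x : ℝ) := by linarith
    have h3 := Real.one_sub_inv_le_log_of_pos (div_pos h1 h2)
    rw [inv_div] at h3
    have h4 : ((x : ℝ) - 1) * (1 - (x : ℝ) / ((x : ℝ) - 1))
        ≤ ((x : ℝ) - 1) * Real.log (((x : ℝ) - 1) / (x : ℝ)) :=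
      mul_le_mul_of_nonneg_left h3 h1.le
    have h5 : ((x : ℝ) - 1) * (1 - (x : ℝ) / ((x : ℝ) - 1)) = -1 := by
      field_simp
      ring
    linarith

/-- The change of `log betaC` when one unit leaves a column. -/
theorem log_betaC_dec (c : Fin n → ℕ) (j : Fin n) (hj : 1 ≤ c j) :
    Real.log (betaC (dec c j)) = Real.log (betaC c) + l0 (c j) - l0 (∑ k, c k) := by
  have hs := sum_dec c j hj
  have hM : 1 ≤ ∑ k, c k := by omega
  have hs' : ∑ k, dec c j k = (∑ k, c k) - 1 := by omega
  rw [betaC_eq, betaC_eq, hs',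
    Real.log_mul (inv_pos.2 (gp_pos _)).ne' (Finset.prod_pos fun j _ => gp_pos _).ne',
    Real.log_mul (inv_pos.2 (gp_pos _)).ne' (Finset.prod_pos fun j _ => gp_pos _).ne',
    Real.log_inv, Real.log_inv, log_gp_pred _ hM,
    Real.log_prod (fun j _ => (gp_pos _).ne'), Real.log_prod (fun j _ => (gp_pos _).ne')]
  have h1 : ∑ k, Real.log (gp (dec c j k)) = ∑ k, Real.log (gp (c k)) + l0 (c j) := by
    rw [← Finset.add_sum_erase univ (fun k => Real.log (gp (dec c j k))) (mem_univ j),
      ← Finset.add_sum_erase univ (fun k => Real.log (gp (c k))) (mem_univ j)]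
    have h2 : ∑ k ∈ univ.erase j, Real.log (gp (dec c j k)) = ∑ k ∈ univ.erase j, Real.log (gp (c k)) := by
      refine Finset.sum_congr rfl fun k hk => ?_
      rw [dec_apply, if_neg (Finset.ne_of_mem_erase hk)]
      simp
    have h3 : dec c j j = c j - 1 := by
      rw [dec_apply]
      simp
    rw [h2, h3, log_gp_pred _ hj]
    ring
  rw [h1]
  ring

/-- `ee a C = a - C - a log (a / C)`. -/
noncomputable def ee (a C : ℝ) : ℝ := a - C - a * Real.log (a / C)

theorem star (c : ℕ) (hc : 1 ≤ c) (p C : ℝ) (hp0 : 0 ≤ p) (hp1 : p ≤ 1) (hC : 0 ≤ C)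
    (hC0 : C = 0 → (c : ℝ) - p = 0) :
    p * ee ((c : ℝ) - 1) C + (1 - p) * ee (c : ℝ) C ≤ -(p * (1 + l0 c)) + p ^ 2 / (c : ℝ) := by
  have hx : (1 : ℝ) ≤ (c : ℝ) := by exact_mod_cast hc
  set x : ℝ := (c : ℝ) with hxdef
  rcases hC.eq_or_lt with h0 | hpos
  · have h1 := hC0 h0.symm
    have hp : p = x := by linarith
    have hx1 : x = 1 := by linarith
    have hc1 : c = 1 := by
      have : (c : ℝ) = 1 := hx1
      exact_mod_cast this
    subst h0
    rw [hp, hx1]
    unfold ee
    subst hc1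
    simp [l0]
  · have hA : x * Real.log (x / C) = x * (Real.log x - Real.log C) := by
      rw [Real.log_div (by linarith) hpos.ne']
    have hB : (x - 1) * Real.log ((x - 1) / C) = (x - 1) * Real.log (x - 1) - (x - 1) * Real.log C := by
      rcases eq_or_lt_of_le hx with h | h
      · rw [← h]
        simp
      · rw [Real.log_div (by linarith) hpos.ne']
        ring
    have hB2 : l0 c = (x - 1) * Real.log (x - 1) - (x - 1) * Real.log x := by
      unfold l0
      rw [← hxdef]
      rcases eq_or_lt_of_le hx with h | h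
      · rw [← h]
        simp
      · rw [Real.log_div (by linarith) (by linarith)]
        ring
    unfold ee
    rw [hA, hB, hB2]
    have hxpos : 0 < x := by linarith
    have key : 0 ≤ (x - p) * (Real.log x - Real.log C) - x + C + p ^ 2 / x := by
      rcases (sub_nonneg.2 (hp1.trans hx)).eq_or_lt with h | h
      · have h1 : x - p = 0 := h.symm
        have hp : p = x := by linarith
        rw [h1, hp]
        have : x ^ 2 / x = x := by
          field_simp
        rw [this]
        linarith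
      · have h1 := Real.one_sub_inv_le_log_of_pos (div_pos h hpos)
        rw [inv_div, Real.log_div h.ne' hpos.ne'] at h1
        have h2 := Real.one_sub_inv_le_log_of_pos (div_pos hxpos h)
        rw [inv_div, Real.log_div hxpos.ne' h.ne'] at h2
        have h3 := mul_le_mul_of_nonneg_left h1 h.le
        have h4 := mul_le_mul_of_nonneg_left h2 h.le
        have h5 : (x - p) * (1 - C / (x - p)) = (x - p) - C := by
          field_simp
        have h6 : (x - p) * (1 - (x - p) / x) = p - p ^ 2 / x := by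
          field_simp
          ring
        rw [h5] at h3
        rw [h6] at h4
        nlinarith
    have e1 : -(p * (1 + ((x - 1) * Real.log (x - 1) - (x - 1) * Real.log x))) + p ^ 2 / x
        - (p * ((x - 1) - C - ((x - 1) * Real.log (x - 1) - (x - 1) * Real.log C))
          + (1 - p) * (x - C - x * (Real.log x - Real.log C)))
        = (x - p) * (Real.log x - Real.log C) - x + C + p ^ 2 / x := by
      ring
    linarith

/-- The load of column `k`. -/
noncomputable def loadC (r : Fin m → ℕ) (t : Fin n → Fin m → ℝ) (b : Fin n → ℝ) (k : Fin n) : ℝ :=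
  ∑ l, (r l : ℝ) * (t k l * b k / ∑ j, t j l * b j)

theorem lin_pos {t : Fin n → Fin m → ℝ} (ht : ∀ j i, 0 < t j i) {b : Fin n → ℝ} (hb : ∀ j, 0 < b j)
    (k : Fin n) (l : Fin m) : 0 < ∑ j, t j l * b j :=
  Finset.sum_pos (fun j _ => mul_pos (ht j l) (hb j)) ⟨k, mem_univ k⟩

theorem loadC_nonneg {t : Fin n → Fin m → ℝ} (ht : ∀ j i, 0 < t j i) {b : Fin n → ℝ}
    (hb : ∀ j, 0 < b j) (r : Fin m → ℕ) (k : Fin n) : 0 ≤ loadC r t b k := by
  refine Finset.sum_nonneg fun l _ => mul_nonneg (Nat.cast_nonneg _) ?_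
  exact div_nonneg (mul_pos (ht k l) (hb k)).le (lin_pos ht hb k l).le

theorem loadC_pos {t : Fin n → Fin m → ℝ} (ht : ∀ j i, 0 < t j i) {b : Fin n → ℝ}
    (hb : ∀ j, 0 < b j) (r : Fin m → ℕ) (k : Fin n) (l : Fin m) (hl : 1 ≤ r l) :
    0 < loadC r t b k := by
  refine Finset.sum_pos' (fun l _ => mul_nonneg (Nat.cast_nonneg _) ?_) ⟨l, mem_univ l, ?_⟩
  · exact div_nonneg (mul_pos (ht k l) (hb k)).le (lin_pos ht hb k l).le
  · have h1 : (0 : ℝ) < (r l : ℝ) := by exact_mod_cast hl
    exact mul_pos h1 (div_pos (mul_pos (ht k l) (hb k)) (lin_pos ht hb k l))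

theorem log_valB {t : Fin n → Fin m → ℝ} (ht : ∀ j i, 0 < t j i) {b : Fin n → ℝ}
    (hb : ∀ j, 0 < b j) (k0 : Fin n) (r : Fin m → ℕ) (c : Fin n → ℕ) :
    Real.log (valB r c t b)
      = ∑ l, (r l : ℝ) * Real.log (∑ j, t j l * b j) - ∑ k, (c k : ℝ) * Real.log (b k) := by
  unfold valB
  rw [Real.log_div (Finset.prod_pos fun l _ => pow_pos (lin_pos ht hb k0 l) _).ne'
    (Finset.prod_pos fun j _ => pow_pos (hb j) _).ne',
    Real.log_prod (fun l _ => (pow_pos (lin_pos ht hb k0 l) _).ne'),
    Real.log_prod (fun j _ => (pow_pos (hb j) _).ne')]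
  simp only [Real.log_pow]

theorem valB_pos {t : Fin n → Fin m → ℝ} (ht : ∀ j i, 0 < t j i) {b : Fin n → ℝ}
    (hb : ∀ j, 0 < b j) (k0 : Fin n) (r : Fin m → ℕ) (c : Fin n → ℕ) : 0 < valB r c t b := by
  unfold valB
  exact div_pos (Finset.prod_pos fun l _ => pow_pos (lin_pos ht hb k0 l) _)
    (Finset.prod_pos fun j _ => pow_pos (hb j) _)

/-- One row under scaling of `b`. -/
theorem log_row_scale {t : Fin n → Fin m → ℝ} (ht : ∀ j i, 0 < t j i) {b : Fin n → ℝ}
    (hb : ∀ j, 0 < b j) (k0 : Fin n) (s : Fin n → ℝ) (hs : ∀ k, 0 < s k) (l : Fin m) :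
    Real.log (∑ k, t k l * (b k * s k)) ≤ Real.log (∑ j, t j l * b j)
      + ∑ k, (t k l * b k / ∑ j, t j l * b j) * (s k - 1) := by
  set S := ∑ j, t j l * b j with hS
  have hSpos : 0 < S := lin_pos ht hb k0 l
  have h1 : ∑ k, t k l * (b k * s k) = S * ∑ k, (t k l * b k / S) * s k := by
    rw [Finset.mul_sum]
    refine Finset.sum_congr rfl fun k _ => ?_
    field_simp
  have h2 : ∑ k, (t k l * b k / S) = 1 := by
    rw [← Finset.sum_div, ← hS]
    exact div_self hSpos.ne'
  have h3 : 0 < ∑ k, (t k l * b k / S) * s k :=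
    Finset.sum_pos (fun k _ => mul_pos (div_pos (mul_pos (ht k l) (hb k)) hSpos) (hs k))
      ⟨k0, mem_univ k0⟩
  rw [h1, Real.log_mul hSpos.ne' h3.ne']
  have h4 := Real.log_le_sub_one_of_pos h3
  have h5 : ∑ k, (t k l * b k / S) * (s k - 1) = ∑ k, (t k l * b k / S) * s k - 1 := by
    simp only [mul_sub, mul_one]
    rw [Finset.sum_sub_distrib, h2]
  rw [h5]
  linarith

/-- The bound for the capacity at a child, any positive scaling. -/
theorem log_capR_scale {t : Fin n → Fin m → ℝ} (ht : ∀ j i, 0 < t j i) {b : Fin n → ℝ}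
    (hb : ∀ j, 0 < b j) (k0 : Fin n) (r' : Fin m → ℕ) (c' : Fin n → ℕ)
    (hsum : ∑ i, r' i = ∑ j, c' j) (s : Fin n → ℝ) (hs : ∀ k, 0 < s k) :
    Real.log (capR r' c' t) ≤ ∑ l, (r' l : ℝ) * Real.log (∑ j, t j l * b j)
        - ∑ k, (c' k : ℝ) * Real.log (b k)
        + ∑ k, (loadC r' t b k * (s k - 1) - (c' k : ℝ) * Real.log (s k)) := by
  have hb' : ∀ k, 0 < b k * s k := fun k => mul_pos (hb k) (hs k)
  have h1 := capR_le_valB ht r' c' (fun k => b k * s k) hb'
  have h2 := Real.log_le_log (capR_pos ht r' c' hsum) h1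
  refine h2.trans ?_
  rw [log_valB ht hb' k0]
  have h3 : ∑ k, (c' k : ℝ) * Real.log (b k * s k)
      = ∑ k, (c' k : ℝ) * Real.log (b k) + ∑ k, (c' k : ℝ) * Real.log (s k) := by
    rw [← Finset.sum_add_distrib]
    refine Finset.sum_congr rfl fun k _ => ?_
    rw [Real.log_mul (hb k).ne' (hs k).ne']
    ring
  have h4 : ∑ l, (r' l : ℝ) * Real.log (∑ k, t k l * (b k * s k))
      ≤ ∑ l, (r' l : ℝ) * (Real.log (∑ j, t j l * b j)
        + ∑ k, (t k l * b k / ∑ j, t j l * b j) * (s k - 1)) :=
    Finset.sum_le_sum fun l _ => mul_le_mul_of_nonneg_left (log_row_scale ht hb k0 s hs l)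
      (Nat.cast_nonneg _)
  have h5 : ∑ l, (r' l : ℝ) * (Real.log (∑ j, t j l * b j)
        + ∑ k, (t k l * b k / ∑ j, t j l * b j) * (s k - 1))
      = ∑ l, (r' l : ℝ) * Real.log (∑ j, t j l * b j) + ∑ k, loadC r' t b k * (s k - 1) := by
    simp only [mul_add, Finset.sum_add_distrib]
    congr 1
    simp only [Finset.mul_sum]
    rw [Finset.sum_comm]
    refine Finset.sum_congr rfl fun k _ => ?_
    unfold loadC
    rw [Finset.sum_mul]
    refine Finset.sum_congr rfl fun l _ => ?_
    ring
  rw [h3, Finset.sum_sub_distrib]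
  linarith

/-- The bound for the capacity at a child. -/
theorem log_capR_child {t : Fin n → Fin m → ℝ} (ht : ∀ j i, 0 < t j i) {b : Fin n → ℝ}
    (hb : ∀ j, 0 < b j) (k0 : Fin n) (r' : Fin m → ℕ) (c' : Fin n → ℕ)
    (hsum : ∑ i, r' i = ∑ j, c' j) :
    Real.log (capR r' c' t) ≤ ∑ l, (r' l : ℝ) * Real.log (∑ j, t j l * b j)
        - ∑ k, (c' k : ℝ) * Real.log (b k) + ∑ k, ee (c' k : ℝ) (loadC r' t b k) := by
  have hCpos : ∀ k, 1 ≤ c' k → 0 < loadC r' t b k := by
    intro k hk
    obtain ⟨l, hl⟩ : ∃ l, 1 ≤ r' l := by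
      by_contra hne
      push Not at hne
      have h0 : ∑ i, r' i = 0 := Finset.sum_eq_zero fun i _ => by
        have := hne i
        omega
      have := Finset.single_le_sum (f := c') (fun _ _ => Nat.zero_le _) (mem_univ k)
      omega
    exact loadC_pos ht hb r' k l hl
  set B := ∑ k, loadC r' t b k with hB
  have hB0 : 0 ≤ B := Finset.sum_nonneg fun k _ => loadC_nonneg ht hb r' k
  refine le_of_forall_pos_le_add fun δ hδ => ?_
  set ε := δ / (B + 1) with hε
  have hεpos : 0 < ε := by positivity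
  set s : Fin n → ℝ := fun k => if c' k = 0 then ε else (c' k : ℝ) / loadC r' t b k with hsdef
  have hs : ∀ k, 0 < s k := by
    intro k
    simp only [hsdef]
    by_cases hk : c' k = 0
    · rw [if_pos hk]
      exact hεpos
    · rw [if_neg hk]
      have h1 : (0 : ℝ) < (c' k : ℝ) := by
        have : 0 < c' k := by omega
        exact_mod_cast this
      exact div_pos h1 (hCpos k (by omega))
  have h := log_capR_scale ht hb k0 r' c' hsum s hs
  have hterm : ∀ k, loadC r' t b k * (s k - 1) - (c' k : ℝ) * Real.log (s k)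
      ≤ ee (c' k : ℝ) (loadC r' t b k) + ε * loadC r' t b k := by
    intro k
    simp only [hsdef]
    by_cases hk : c' k = 0
    · rw [if_pos hk, hk]
      unfold ee
      simp
      nlinarith [loadC_nonneg ht hb r' k]
    · rw [if_neg hk]
      have hC := hCpos k (by omega)
      have : loadC r' t b k * ((c' k : ℝ) / loadC r' t b k - 1) = (c' k : ℝ) - loadC r' t b k := by
        field_simp
      rw [this]
      unfold ee
      nlinarith [mul_nonneg hεpos.le hC.le]
  have h2 : ∑ k, (loadC r' t b k * (s k - 1) - (c' k : ℝ) * Real.log (s k))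
      ≤ ∑ k, ee (c' k : ℝ) (loadC r' t b k) + ε * B := by
    rw [hB, Finset.mul_sum, ← Finset.sum_add_distrib]
    exact Finset.sum_le_sum fun k _ => hterm k
  have h3 : ε * B ≤ δ := by
    rw [hε, div_mul_eq_mul_div, div_le_iff₀ (by positivity)]
    nlinarith
  linarith

/-- Gibbs' inequality. -/
theorem gibbs (π x : Fin n → ℝ) (hπ0 : ∀ j, 0 ≤ π j) (hπ1 : ∑ j, π j = 1) (hx : ∀ j, 0 < x j) :
    ∑ j, π j * (Real.log (x j) - Real.log (π j)) ≤ Real.log (∑ j, x j) := by
  obtain ⟨k0, hk0⟩ : ∃ k, 0 < π k := by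
    by_contra hne
    push Not at hne
    have : ∑ j, π j = 0 := Finset.sum_eq_zero fun j _ => le_antisymm (hne j) (hπ0 j)
    linarith
  set S := ∑ j, x j with hS
  have hSpos : 0 < S := Finset.sum_pos (fun j _ => hx j) ⟨k0, mem_univ k0⟩
  have hterm : ∀ j, π j * (Real.log (x j) - Real.log (π j)) ≤ π j * Real.log S + (x j / S - π j) := by
    intro j
    rcases (hπ0 j).eq_or_lt with h | h
    · rw [← h]
      simp
      exact (div_pos (hx j) hSpos).le
    · have h1 := Real.log_le_sub_one_of_pos (div_pos (hx j) (mul_pos h hSpos))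
      rw [Real.log_div (hx j).ne' (mul_pos h hSpos).ne', Real.log_mul h.ne' hSpos.ne'] at h1
      have h2 := mul_le_mul_of_nonneg_left h1 h.le
      have h3 : π j * (x j / (π j * S) - 1) = x j / S - π j := by
        field_simp
      rw [h3] at h2
      nlinarith
  have h := Finset.sum_le_sum fun j (_ : j ∈ univ) => hterm j
  have h2 : ∑ j, (π j * Real.log S + (x j / S - π j)) = Real.log S := by
    rw [Finset.sum_add_distrib, Finset.sum_sub_distrib, ← Finset.sum_mul, hπ1, ← Finset.sum_div,
      ← hS, div_self hSpos.ne']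
    ring
  rw [h2] at h
  exact h

/-- The capacity step: a lower bound for the capacity by the capacities of the children. -/
theorem cap_step {t : Fin n → Fin m → ℝ} (ht : ∀ j i, 0 < t j i) (r : Fin m → ℕ) (c : Fin n → ℕ)
    (hsum : ∑ i, r i = ∑ j, c j) (i : Fin m) (hi : 1 ≤ r i) (π : Fin n → ℝ) (hπ0 : ∀ j, 0 ≤ π j)
    (hπ1 : ∑ j, π j = 1) (hπc : ∀ j, π j ≤ c j) :
    ∑ j, π j * (Real.log (capR (dec r i) (dec c j) t) + (1 + l0 (c j)) + Real.log (t j i)
        - Real.log (π j)) - ∑ k, π k ^ 2 / (c k : ℝ) ≤ Real.log (capR r c t) := by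
  obtain ⟨k0, hk0⟩ : ∃ k, 0 < π k := by
    by_contra hne
    push Not at hne
    have : ∑ j, π j = 0 := Finset.sum_eq_zero fun j _ => le_antisymm (hne j) (hπ0 j)
    linarith
  set LHS := ∑ j, π j * (Real.log (capR (dec r i) (dec c j) t) + (1 + l0 (c j)) + Real.log (t j i)
        - Real.log (π j)) - ∑ k, π k ^ 2 / (c k : ℝ) with hLHS
  have hc0 : ∀ j, c j = 0 → π j = 0 := fun j hj =>
    le_antisymm (by simpa [hj] using hπc j) (hπ0 j)
  have hπle : ∀ j, π j ≤ 1 := fun j => by
    rw [← hπ1]
    exact Finset.single_le_sum (f := π) (fun j _ => hπ0 j) (mem_univ j)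
  have hr1 := sum_dec r i hi
  have hpt : ∀ b : Fin n → ℝ, (∀ j, 0 < b j) → LHS ≤ Real.log (valB r c t b) := by
    intro b hb
    set Φ := ∑ l, (dec r i l : ℝ) * Real.log (∑ j, t j l * b j) with hΦ
    set C : Fin n → ℝ := loadC (dec r i) t b with hC
    -- the children
    have hchild : ∀ j, π j * Real.log (capR (dec r i) (dec c j) t)
        ≤ π j * (Φ - ∑ k, ((c k : ℝ) - if k = j then 1 else 0) * Real.log (b k)
          + ∑ k, ee ((c k : ℝ) - if k = j then 1 else 0) (C k)) := by
      intro j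
      by_cases hj : c j = 0
      · rw [hc0 j hj]
        simp
      · have hj1 : 1 ≤ c j := by omega
        have hs2 := sum_dec c j hj1
        have hcast : ∀ k, (dec c j k : ℝ) = (c k : ℝ) - if k = j then 1 else 0 := by
          intro k
          rw [dec_apply]
          by_cases hk : k = j
          · subst hk
            simp [Nat.cast_sub hj1]
          · simp [hk]
        refine mul_le_mul_of_nonneg_left ?_ (hπ0 j)
        have h := log_capR_child ht hb k0 (dec r i) (dec c j) (by omega)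
        simp only [hcast] at h
        exact h
    have hsplit : ∀ (k : Fin n) (g : ℝ → ℝ),
        ∑ j, π j * g ((c k : ℝ) - if k = j then 1 else 0)
          = π k * g ((c k : ℝ) - 1) + (1 - π k) * g (c k : ℝ) := by
      intro k g
      rw [← Finset.add_sum_erase univ _ (mem_univ k)]
      have h1 : ∑ j ∈ univ.erase k, π j * g ((c k : ℝ) - if k = j then 1 else 0)
          = ∑ j ∈ univ.erase k, π j * g (c k : ℝ) := by
        refine Finset.sum_congr rfl fun j hj => ?_
        rw [if_neg (Finset.ne_of_mem_erase hj).symm, sub_zero]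
      have h2 : ∑ j ∈ univ.erase k, π j = 1 - π k := by
        rw [← hπ1, ← Finset.add_sum_erase univ _ (mem_univ k)]
        ring
      rw [h1, ← Finset.sum_mul, h2]
      simp
    -- the sum over children of the linear terms
    have hlin : ∑ j, π j * ∑ k, ((c k : ℝ) - if k = j then 1 else 0) * Real.log (b k)
        = ∑ k, (c k : ℝ) * Real.log (b k) - ∑ k, π k * Real.log (b k) := by
      simp only [Finset.mul_sum]
      rw [Finset.sum_comm, ← Finset.sum_sub_distrib]
      refine Finset.sum_congr rfl fun k _ => ?_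
      have h : ∑ j, π j * (((c k : ℝ) - if k = j then 1 else 0) * Real.log (b k))
          = π k * (((c k : ℝ) - 1) * Real.log (b k)) + (1 - π k) * ((c k : ℝ) * Real.log (b k)) :=
        hsplit k (fun x => x * Real.log (b k))
      rw [h]
      ring
    have hee : ∑ j, π j * ∑ k, ee ((c k : ℝ) - if k = j then 1 else 0) (C k)
        = ∑ k, (π k * ee ((c k : ℝ) - 1) (C k) + (1 - π k) * ee (c k : ℝ) (C k)) := by
      simp only [Finset.mul_sum]
      rw [Finset.sum_comm]
      refine Finset.sum_congr rfl fun k _ => ?_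
      exact hsplit k (fun x => ee x (C k))
    have hstar : ∀ k, π k * ee ((c k : ℝ) - 1) (C k) + (1 - π k) * ee (c k : ℝ) (C k)
        ≤ -(π k * (1 + l0 (c k))) + π k ^ 2 / (c k : ℝ) := by
      intro k
      by_cases hk : c k = 0
      · rw [hc0 k hk, hk]
        unfold ee
        simp
        exact loadC_nonneg ht hb _ k
      · refine star (c k) (by omega) (π k) (C k) (hπ0 k) (hπle k)
          (loadC_nonneg ht hb _ k) ?_
        intro hCk
        have hzero : ∀ l, dec r i l = 0 := by
          intro l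
          by_contra hl
          have := loadC_pos ht hb (dec r i) k l (by omega)
          simp only [hC] at hCk
          linarith
        have hz : ∑ l, dec r i l = 0 := Finset.sum_eq_zero fun l _ => hzero l
        have hM1 : ∑ j, c j = 1 := by omega
        have h1 : ∑ j, π j = ∑ j, (c j : ℝ) := by
          rw [hπ1]
          exact_mod_cast hM1.symm
        have h2 := (Finset.sum_eq_sum_iff_of_le (fun j _ => hπc j)).1 h1 k (mem_univ k)
        linarith
    have h1 : ∑ j, π j * Real.log (capR (dec r i) (dec c j) t)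
        ≤ Φ - (∑ k, (c k : ℝ) * Real.log (b k) - ∑ k, π k * Real.log (b k))
          + ∑ k, (-(π k * (1 + l0 (c k))) + π k ^ 2 / (c k : ℝ)) := by
      have h2 := Finset.sum_le_sum fun j (_ : j ∈ univ) => hchild j
      have h3 : ∑ j, π j * (Φ - ∑ k, ((c k : ℝ) - if k = j then 1 else 0) * Real.log (b k)
          + ∑ k, ee ((c k : ℝ) - if k = j then 1 else 0) (C k))
          = Φ - (∑ k, (c k : ℝ) * Real.log (b k) - ∑ k, π k * Real.log (b k))
            + ∑ k, (π k * ee ((c k : ℝ) - 1) (C k) + (1 - π k) * ee (c k : ℝ) (C k)) := by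
        rw [← hlin, ← hee]
        simp only [mul_add, mul_sub, Finset.sum_add_distrib, Finset.sum_sub_distrib]
        rw [← Finset.sum_mul, hπ1, one_mul]
      rw [h3] at h2
      refine h2.trans ?_
      have h4 := Finset.sum_le_sum fun k (_ : k ∈ univ) => hstar k
      linarith
    have h2 := gibbs π (fun j => t j i * b j) hπ0 hπ1 (fun j => mul_pos (ht j i) (hb j))
    have h3 : ∑ j, π j * (Real.log (t j i * b j) - Real.log (π j))
        = ∑ j, π j * (Real.log (t j i) - Real.log (π j)) + ∑ k, π k * Real.log (b k) := by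
      rw [← Finset.sum_add_distrib]
      refine Finset.sum_congr rfl fun j _ => ?_
      rw [Real.log_mul (ht j i).ne' (hb j).ne']
      ring
    rw [h3] at h2
    have h4 : Real.log (valB r c t b)
        = Real.log (∑ j, t j i * b j) + Φ - ∑ k, (c k : ℝ) * Real.log (b k) := by
      rw [log_valB ht hb k0]
      congr 1
      rw [hΦ, ← Finset.add_sum_erase univ _ (mem_univ i), ← Finset.add_sum_erase univ
        (fun l => (dec r i l : ℝ) * Real.log (∑ j, t j l * b j)) (mem_univ i)]
      have h5 : ∑ l ∈ univ.erase i, (dec r i l : ℝ) * Real.log (∑ j, t j l * b j)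
          = ∑ l ∈ univ.erase i, (r l : ℝ) * Real.log (∑ j, t j l * b j) := by
        refine Finset.sum_congr rfl fun l hl => ?_
        rw [dec_apply, if_neg (Finset.ne_of_mem_erase hl)]
        simp
      have h6 : (dec r i i : ℝ) = (r i : ℝ) - 1 := by
        rw [dec_apply]
        simp [Nat.cast_sub hi]
      rw [h5, h6]
      ring
    have h5 : LHS = ∑ j, π j * Real.log (capR (dec r i) (dec c j) t)
        + ∑ j, π j * (1 + l0 (c j)) + ∑ j, π j * (Real.log (t j i) - Real.log (π j))
        - ∑ k, π k ^ 2 / (c k : ℝ) := by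
      rw [hLHS, ← Finset.sum_add_distrib, ← Finset.sum_add_distrib]
      congr 1
      refine Finset.sum_congr rfl fun j _ => ?_
      ring
    have h6 : ∑ k, (-(π k * (1 + l0 (c k))) + π k ^ 2 / (c k : ℝ))
        = -∑ k, π k * (1 + l0 (c k)) + ∑ k, π k ^ 2 / (c k : ℝ) := by
      rw [Finset.sum_add_distrib, Finset.sum_neg_distrib]
    rw [h6] at h1
    rw [h4, h5]
    linarith
  have hcap := capR_pos ht r c hsum
  rw [Real.le_log_iff_exp_le hcap]
  refine le_capR r c _ fun b hb => ?_
  have h := hpt b hb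
  rw [← Real.le_log_iff_exp_le (valB_pos ht hb k0 r c)]
  exact h

theorem am_le_col {t : Fin n → Fin m → ℝ} (ht : ∀ j i, 0 < t j i) (r : Fin m → ℕ) (c : Fin n → ℕ)
    (hsum : ∑ i, r i = ∑ j, c j) (j : Fin n) (i : Fin m) : am r c t j i ≤ c j := by
  rw [← sum_am_col ht r c hsum j]
  exact Finset.single_le_sum (f := fun i => am r c t j i) (fun i _ => am_nonneg ht r c j i)
    (mem_univ i)

theorem am_le_row {t : Fin n → Fin m → ℝ} (ht : ∀ j i, 0 < t j i) (r : Fin m → ℕ) (c : Fin n → ℕ)
    (hsum : ∑ i, r i = ∑ j, c j) (j : Fin n) (i : Fin m) : am r c t j i ≤ r i := by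
  rw [← sum_am_row ht r c hsum i]
  exact Finset.single_le_sum (f := fun j => am r c t j i) (fun j _ => am_nonneg ht r c j i)
    (mem_univ j)

/-- The chain inequality, peeling one unit of row `i`. -/
theorem LK_step_row {t : Fin n → Fin m → ℝ} (ht : ∀ j i, 0 < t j i) (r : Fin m → ℕ) (c : Fin n → ℕ)
    (hsum : ∑ i, r i = ∑ j, c j) (i : Fin m) (hi : 1 ≤ r i) :
    LK r c t ≤ ∑ j, if 1 ≤ c j then
      (am r c t j i / (r i : ℝ)) * LK (dec r i) (dec c j) t
        + (am r c t j i / (r i : ℝ)) ^ 2 / (c j : ℝ) else 0 := by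
  have hri : (1 : ℝ) ≤ (r i : ℝ) := by exact_mod_cast hi
  have hrpos : (0 : ℝ) < (r i : ℝ) := by linarith
  set π : Fin n → ℝ := fun j => am r c t j i / (r i : ℝ) with hπ
  have hπ0 : ∀ j, 0 ≤ π j := fun j => div_nonneg (am_nonneg ht r c j i) hrpos.le
  have hπ1 : ∑ j, π j = 1 := by
    simp only [hπ]
    rw [← Finset.sum_div, sum_am_row ht r c hsum i]
    exact div_self hrpos.ne'
  have hπc : ∀ j, π j ≤ c j := by
    intro j
    have h := am_le_col ht r c hsum j i
    have h2 := am_nonneg ht r c j i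
    simp only [hπ]
    rw [div_le_iff₀ hrpos]
    nlinarith [Nat.cast_nonneg (α := ℝ) (c j)]
  have hc0 : ∀ j, c j = 0 → π j = 0 := fun j hj =>
    le_antisymm (by simpa [hj] using hπc j) (hπ0 j)
  have hr1 := sum_dec r i hi
  have hstep := cap_step ht r c hsum i hi π hπ0 hπ1 hπc
  have hF := FF_pos ht r c hsum
  set X := Real.log ((∏ l, (((r l)! : ℕ) : ℝ)) * FF r c t) with hX
  -- the per-child identity
  have hchild : ∀ j, π j * X - π j * (Real.log (capR (dec r i) (dec c j) t) + (1 + l0 (c j))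
        + Real.log (t j i) - Real.log (π j)) - π j * Real.log (betaC c)
      = π j * LK (dec r i) (dec c j) t - π j * (1 + l0 (∑ k, c k)) := by
    intro j
    by_cases hj : c j = 0
    · rw [hc0 j hj]
      ring
    · have hj1 : 1 ≤ c j := by omega
      have hs2 := sum_dec c j hj1
      have hsumc : ∑ l, dec r i l = ∑ k, dec c j k := by omega
      have hFj := FF_pos ht (dec r i) (dec c j) hsumc
      have ham := am_eq ht r c hsum j i hi hj1
      have hπpos : 0 < π j := by
        simp only [hπ]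
        refine div_pos ?_ hrpos
        have h1 : 0 < FF r c t * am r c t j i := by
          rw [ham]
          exact mul_pos (ht j i) hFj
        exact (pos_iff_pos_of_mul_pos h1).1 hF
      have hfac : 0 < ∏ l, (((dec r i l)! : ℕ) : ℝ) :=
        Finset.prod_pos fun l _ => by exact_mod_cast Nat.factorial_pos _
      have h1 : (∏ l, (((r l)! : ℕ) : ℝ)) * FF r c t
          = (∏ l, (((dec r i l)! : ℕ) : ℝ)) * FF (dec r i) (dec c j) t * (t j i / π j) := by
        rw [prod_fact_dec r i hi]
        have h2 : π j * ((r i : ℝ) * FF r c t) = t j i * FF (dec r i) (dec c j) t := by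
          rw [← ham]
          simp only [hπ]
          field_simp
        have h3 : (r i : ℝ) * FF r c t = t j i * FF (dec r i) (dec c j) t / π j := by
          rw [eq_div_iff hπpos.ne']
          linarith
        calc _ = (∏ l, (((dec r i l)! : ℕ) : ℝ)) * ((r i : ℝ) * FF r c t) := by ring
          _ = _ := by
            rw [h3]
            ring
      have h4 : X = Real.log ((∏ l, (((dec r i l)! : ℕ) : ℝ)) * FF (dec r i) (dec c j) t)
          + Real.log (t j i) - Real.log (π j) := by
        rw [hX, h1, Real.log_mul (mul_pos hfac hFj).ne' (div_pos (ht j i) hπpos).ne',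
          Real.log_div (ht j i).ne' hπpos.ne']
        ring
      unfold LK
      rw [log_betaC_dec c j hj1, h4]
      ring
  have hsum1 := Finset.sum_congr (rfl : (univ : Finset (Fin n)) = univ) fun j _ => hchild j
  rw [Finset.sum_sub_distrib, Finset.sum_sub_distrib, Finset.sum_sub_distrib,
    ← Finset.sum_mul, ← Finset.sum_mul, ← Finset.sum_mul, hπ1] at hsum1
  have hM : 1 ≤ ∑ k, c k := by omega
  have hl := one_add_l0_nonneg _ hM
  have hcong : (∑ j, if 1 ≤ c j then π j * LK (dec r i) (dec c j) t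
        + π j ^ 2 / (c j : ℝ) else 0)
      = ∑ j, π j * LK (dec r i) (dec c j) t + ∑ j, π j ^ 2 / (c j : ℝ) := by
    rw [← Finset.sum_add_distrib]
    refine Finset.sum_congr rfl fun j _ => ?_
    by_cases hj : 1 ≤ c j
    · rw [if_pos hj]
    · rw [if_neg hj]
      have : c j = 0 := by omega
      rw [hc0 j this]
      simp
  rw [hcong]
  have hLK : LK r c t = X - Real.log (capR r c t) - Real.log (betaC c) := rfl
  rw [hLK]
  simp only [one_mul] at hsum1
  linarith

/-- The chain inequality averaged over the rows. -/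
theorem LK_step {t : Fin n → Fin m → ℝ} (ht : ∀ j i, 0 < t j i) (r : Fin m → ℕ) (c : Fin n → ℕ)
    (hsum : ∑ i, r i = ∑ j, c j) (hM : 0 < ∑ i, r i) :
    ((∑ i, r i : ℕ) : ℝ) * (FF r c t * LK r c t)
      ≤ (∑ j, ∑ i, if 1 ≤ r i ∧ 1 ≤ c j then
          t j i * (FF (dec r i) (dec c j) t * LK (dec r i) (dec c j) t) else 0)
        + FF r c t * DD r c t := by
  have hF := FF_pos ht r c hsum
  have hrow : ∀ i, (r i : ℝ) * (FF r c t * LK r c t)
      ≤ (∑ j, if 1 ≤ r i ∧ 1 ≤ c j then
          t j i * (FF (dec r i) (dec c j) t * LK (dec r i) (dec c j) t) else 0)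
        + FF r c t * ∑ j, am r c t j i ^ 2 / ((r i : ℝ) * (c j : ℝ)) := by
    intro i
    by_cases hi : 1 ≤ r i
    · have hrpos : (0 : ℝ) < (r i : ℝ) := by exact_mod_cast hi
      have h := LK_step_row ht r c hsum i hi
      have h2 := mul_le_mul_of_nonneg_left h (mul_pos hrpos hF).le
      have h3 : ((r i : ℝ) * FF r c t) * (∑ j, if 1 ≤ c j then
          (am r c t j i / (r i : ℝ)) * LK (dec r i) (dec c j) t
            + (am r c t j i / (r i : ℝ)) ^ 2 / (c j : ℝ) else 0)
          = (∑ j, if 1 ≤ r i ∧ 1 ≤ c j then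
              t j i * (FF (dec r i) (dec c j) t * LK (dec r i) (dec c j) t) else 0)
            + FF r c t * ∑ j, am r c t j i ^ 2 / ((r i : ℝ) * (c j : ℝ)) := by
        rw [Finset.mul_sum, Finset.mul_sum, ← Finset.sum_add_distrib]
        refine Finset.sum_congr rfl fun j _ => ?_
        by_cases hj : 1 ≤ c j
        · rw [if_pos hj, if_pos ⟨hi, hj⟩]
          have ham := am_eq ht r c hsum j i hi hj
          have hcpos : (0 : ℝ) < (c j : ℝ) := by exact_mod_cast hj
          have h4 : t j i * (FF (dec r i) (dec c j) t * LK (dec r i) (dec c j) t)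
              = FF r c t * am r c t j i * LK (dec r i) (dec c j) t := by
            rw [ham]
            ring
          rw [h4]
          field_simp
        · rw [if_neg hj, if_neg (fun h => hj h.2)]
          have : c j = 0 := by omega
          simp [this]
      calc _ = ((r i : ℝ) * FF r c t) * LK r c t := by ring
        _ ≤ _ := h2
        _ = _ := h3
    · have h0 : r i = 0 := by omega
      have h1 : (∑ j, if 1 ≤ r i ∧ 1 ≤ c j then
          t j i * (FF (dec r i) (dec c j) t * LK (dec r i) (dec c j) t) else 0) = 0 :=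
        Finset.sum_eq_zero fun j _ => if_neg fun h => hi h.1
      rw [h1, h0]
      simp
  have h := Finset.sum_le_sum fun i (_ : i ∈ univ) => hrow i
  have e1 : ∑ i, (r i : ℝ) * (FF r c t * LK r c t)
      = ((∑ i, r i : ℕ) : ℝ) * (FF r c t * LK r c t) := by
    rw [← Finset.sum_mul]
    push_cast
    rfl
  have e2 : ∑ i, ((∑ j, if 1 ≤ r i ∧ 1 ≤ c j then
          t j i * (FF (dec r i) (dec c j) t * LK (dec r i) (dec c j) t) else 0)
        + FF r c t * ∑ j, am r c t j i ^ 2 / ((r i : ℝ) * (c j : ℝ)))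
      = (∑ j, ∑ i, if 1 ≤ r i ∧ 1 ≤ c j then
          t j i * (FF (dec r i) (dec c j) t * LK (dec r i) (dec c j) t) else 0)
        + FF r c t * DD r c t := by
    rw [Finset.sum_add_distrib, Finset.sum_comm, ← Finset.mul_sum]
    congr 2
    unfold DD
    rw [Finset.sum_comm]
  rw [e1, e2] at h
  exact h

/-- At total zero, `log K = 0`. -/
theorem LK_zero {t : Fin n → Fin m → ℝ} (ht : ∀ j i, 0 < t j i) (r : Fin m → ℕ) (c : Fin n → ℕ)
    (hr : ∀ i, r i = 0) (hc : ∀ j, c j = 0) : LK r c t = 0 := by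
  have h3 : tabs r c = {fun _ _ => 0} := by
    ext T
    rw [mem_tabs, mem_singleton]
    constructor
    · intro h
      funext j i
      have := entry_le_row (mem_tabs.2 h) j i
      have h4 := hr i
      omega
    · rintro rfl
      exact ⟨fun j => by simp [hc j], fun i => by simp [hr i]⟩
  have hsum : ∑ i, r i = ∑ j, c j := by
    simp [hr, hc]
  have hF : FF r c t = 1 := by
    unfold FF wt
    rw [h3]
    simp
  have hcap : capR r c t = 1 := by
    have h1 := coef_le_capR ht r c hsum
    have h2 := capR_le_valB ht r c (fun _ => 1) (fun _ => one_pos)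
    have h4 : valB r c t (fun _ => 1) = 1 := by
      unfold valB
      simp [hr, hc]
    rw [h4] at h2
    rw [hF] at h1
    simp only [hr] at h1
    simp at h1
    linarith
  have hb : betaC c = 1 := by
    rw [betaC_eq]
    simp [hc, gp]
  unfold LK
  rw [hF, hcap, hb]
  simp [hr]

end Vale.Agent.Lib.P328.Sparse
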