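import Vale.Agent.Lib.P328.Sparse.Defs

/-!
# P328, sparse margins: Gamma integrals of the reciprocal partner sum
-/

namespace Vale.Agent.Lib.P328.Sparse

open Finset MeasureTheory Vale.Agent.Lib.P328.Cap
open scoped ENNReal Nat

variable {m n : ℕ}

theorem lintegral_pi_prod_gen {E : Type} [MeasureSpace E] [SigmaFinite (volume : Measure E)] :
    ∀ (n : ℕ) (f : Fin n → E → ℝ≥0∞), (∀ i, Measurable (f i)) →
    ∫⁻ x : Fin n → E, ∏ i, f i (x i) = ∏ i, ∫⁻ y, f i y := by
  intro n
  induction n with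
  | zero =>
    intro f _
    simp [volume_pi]
  | succ n ih =>
    intro f hf
    rw [lintegral_cons]
    simp only [Fin.prod_univ_succ, Fin.cons_zero, Fin.cons_succ]
    have hg : Measurable fun x : Fin n → E => ∏ i, f i.succ (x i) :=
      Finset.measurable_prod _ fun i _ => (hf i.succ).comp (measurable_pi_apply i)
    have h3 := lintegral_prod_mul (μ := (volume : Measure E)) (ν := (volume : Measure (Fin n → E)))
      (f := f 0) (g := fun x : Fin n → E => ∏ i, f i.succ (x i))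
      (hf 0).aemeasurable hg.aemeasurable
    rw [h3, ih _ fun i => hf i.succ]

theorem lintegral_cells (f : Fin n → Fin m → ℝ → ℝ≥0∞) (hf : ∀ j i, Measurable (f j i)) :
    ∫⁻ t : Fin n → Fin m → ℝ, ∏ j, ∏ i, f j i (t j i) = ∏ j, ∏ i, ∫⁻ x, f j i x := by
  have hm : ∀ j, Measurable fun u : Fin m → ℝ => ∏ i, f j i (u i) := fun j =>
    Finset.measurable_prod _ fun i _ => (hf j i).comp (measurable_pi_apply i)
  have h := lintegral_pi_prod_gen n (fun j (u : Fin m → ℝ) => ∏ i, f j i (u i)) hm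
  rw [h]
  exact Finset.prod_congr rfl fun j _ => lintegral_pi_prod m (f j) (hf j)

/-- The integrand of one cell. -/
noncomputable def gcell (T : ℕ) (g : ℝ → ℝ) (x : ℝ) : ℝ≥0∞ :=
  expDens x * ENNReal.ofReal (x ^ T / ((T ! : ℕ) : ℝ)) * ENNReal.ofReal (g x)

theorem measurable_gcell (T : ℕ) {g : ℝ → ℝ} (hg : Measurable g) : Measurable (gcell T g) := by
  unfold gcell
  refine (measurable_expDens.mul ?_).mul hg.ennreal_ofReal
  exact ((measurable_id.pow_const _).div_const _).ennreal_ofReal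

/-- The integral of one cell. -/
noncomputable def cellI (T : ℕ) (g : ℝ → ℝ) : ℝ≥0∞ := ∫⁻ x, gcell T g x

theorem expDens_of_nonpos {x : ℝ} (hx : ¬ 0 < x) : expDens x = 0 := by
  unfold expDens
  rw [if_neg hx]

theorem fact_pos_real (T : ℕ) : (0 : ℝ) < ((T ! : ℕ) : ℝ) := by
  exact_mod_cast Nat.factorial_pos _

theorem cell_pow (T k : ℕ) :
    cellI T (fun x => x ^ k) = ENNReal.ofReal ((((T + k)! : ℕ) : ℝ) / ((T ! : ℕ) : ℝ)) := by
  have h1 : ∀ x, gcell T (fun x => x ^ k) x
      = ENNReal.ofReal ((1 : ℝ) / ((T ! : ℕ) : ℝ)) * (expDens x * ENNReal.ofReal (x ^ (T + k))) := by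
    intro x
    unfold gcell
    by_cases hx : 0 < x
    · have hT := fact_pos_real T
      rw [mul_assoc, ← ENNReal.ofReal_mul (by positivity), mul_left_comm,
        ← ENNReal.ofReal_mul (by positivity)]
      congr 2
      rw [pow_add]
      field_simp
    · simp [expDens_of_nonpos hx]
  unfold cellI
  simp only [h1]
  rw [lintegral_const_mul' _ _ ENNReal.ofReal_ne_top, lintegral_expDens_pow]
  have hT := fact_pos_real T
  rw [← ENNReal.ofReal_natCast, ← ENNReal.ofReal_mul (by positivity)]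
  congr 1
  ring

theorem cell_one (T : ℕ) : cellI T (fun _ => 1) = 1 := by
  have h := cell_pow T 0
  simp only [pow_zero, add_zero] at h
  rw [h]
  have hT := fact_pos_real T
  rw [div_self hT.ne', ENNReal.ofReal_one]

theorem cell_id (T : ℕ) : cellI T (fun x => x) = ((T : ℝ≥0∞) + 1) := by
  have h := cell_pow T 1
  simp only [pow_one] at h
  rw [h, Nat.factorial_succ]
  have hT := fact_pos_real T
  push_cast
  rw [mul_div_assoc, div_self hT.ne', mul_one, ENNReal.ofReal_add (by positivity) (by positivity)]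
  simp

theorem gcell_nonneg_split (T : ℕ) (a b : ℝ) (g h : ℝ → ℝ) (ha : 0 ≤ a) (hb : 0 ≤ b)
    (hg : ∀ x, 0 < x → 0 ≤ g x) (hh : ∀ x, 0 < x → 0 ≤ h x) (x : ℝ) :
    gcell T (fun x => a * g x + b * h x) x
      = ENNReal.ofReal a * gcell T g x + ENNReal.ofReal b * gcell T h x := by
  unfold gcell
  by_cases hx : 0 < x
  · rw [ENNReal.ofReal_add (mul_nonneg ha (hg x hx)) (mul_nonneg hb (hh x hx)),
      ENNReal.ofReal_mul ha, ENNReal.ofReal_mul hb]
    ring
  · simp [expDens_of_nonpos hx]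

theorem cell_split (T : ℕ) (a b : ℝ) (g h : ℝ → ℝ) (ha : 0 ≤ a) (hb : 0 ≤ b)
    (hg : ∀ x, 0 < x → 0 ≤ g x) (hh : ∀ x, 0 < x → 0 ≤ h x) (mg : Measurable g) :
    cellI T (fun x => a * g x + b * h x)
      = ENNReal.ofReal a * cellI T g + ENNReal.ofReal b * cellI T h := by
  unfold cellI
  simp only [gcell_nonneg_split T a b g h ha hb hg hh]
  rw [lintegral_add_left ((measurable_gcell T mg).const_mul _),
    lintegral_const_mul' _ _ ENNReal.ofReal_ne_top, lintegral_const_mul' _ _ ENNReal.ofReal_ne_top]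

theorem cell_mono (T : ℕ) {g h : ℝ → ℝ} (hgh : ∀ x, 0 < x → g x ≤ h x) :
    cellI T g ≤ cellI T h := by
  unfold cellI
  refine lintegral_mono fun x => ?_
  unfold gcell
  by_cases hx : 0 < x
  · exact mul_le_mul_right (ENNReal.ofReal_le_ofReal (hgh x hx)) _
  · simp [expDens_of_nonpos hx]

/-- `E sqrt x ≤ sqrt (T + 1)`. -/
theorem cell_sqrt (T : ℕ) : cellI T Real.sqrt ≤ ENNReal.ofReal (Real.sqrt ((T : ℝ) + 1)) := by
  set l := Real.sqrt ((T : ℝ) + 1) with hl
  have hT : (0 : ℝ) < (T : ℝ) + 1 := by positivity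
  have hl0 : 0 < l := Real.sqrt_pos.2 hT
  have hl2 : l * l = (T : ℝ) + 1 := Real.mul_self_sqrt hT.le
  have h1 : ∀ x, 0 < x → Real.sqrt x ≤ (l / 2) * 1 + (1 / (2 * l)) * x := by
    intro x hx
    have hs := Real.mul_self_sqrt hx.le
    have h2 : 0 ≤ (Real.sqrt x - l) ^ 2 := sq_nonneg _
    have : (l / 2) * 1 + (1 / (2 * l)) * x - Real.sqrt x = (Real.sqrt x - l) ^ 2 / (2 * l) := by
      field_simp
      nlinarith
    have h3 : 0 ≤ (Real.sqrt x - l) ^ 2 / (2 * l) := by positivity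
    linarith
  refine (cell_mono T h1).trans ?_
  rw [cell_split T _ _ _ _ (by positivity) (by positivity) (fun _ _ => zero_le_one)
    (fun _ hx => hx.le) measurable_const, cell_one, cell_id, mul_one]
  have h4 : ((T : ℝ≥0∞) + 1) = ENNReal.ofReal ((T : ℝ) + 1) := by
    rw [ENNReal.ofReal_add (by positivity) (by positivity)]
    simp
  rw [h4, ← ENNReal.ofReal_mul (by positivity), ← ENNReal.ofReal_add (by positivity) (by positivity)]
  refine ENNReal.ofReal_le_ofReal ?_
  have h5 : 1 / (2 * l) * ((T : ℝ) + 1) = l / 2 := by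
    rw [← hl2]
    field_simp
  rw [h5]
  linarith

/-- The reciprocal moment. -/
theorem cell_inv (T : ℕ) : cellI (T + 1) (fun x => x⁻¹) = ENNReal.ofReal (1 / ((T : ℝ) + 1)) := by
  have h1 : ∀ x, gcell (T + 1) (fun x => x⁻¹) x
      = ENNReal.ofReal (1 / ((T : ℝ) + 1)) * gcell T (fun _ => 1) x := by
    intro x
    unfold gcell
    by_cases hx : 0 < x
    · rw [ENNReal.ofReal_one, mul_one, mul_assoc, ← ENNReal.ofReal_mul (by positivity),
        mul_left_comm, ← ENNReal.ofReal_mul (by positivity)]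
      congr 2
      rw [Nat.factorial_succ]
      have hT := fact_pos_real T
      have hT1 : (0 : ℝ) < (T : ℝ) + 1 := by positivity
      push_cast
      rw [pow_succ]
      field_simp
    · simp [expDens_of_nonpos hx]
  unfold cellI
  simp only [h1]
  rw [lintegral_const_mul' _ _ ENNReal.ofReal_ne_top]
  have := cell_one T
  unfold cellI at this
  rw [this, mul_one]

theorem cell_isqrt_succ (T : ℕ) : cellI (T + 1) (fun x => (Real.sqrt x)⁻¹) ≤ 2 := by
  have h1 : ∀ x, 0 < x → (Real.sqrt x)⁻¹ ≤ (1 / 2) * 1 + (1 / 2) * x⁻¹ := by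
    intro x hx
    have hs := Real.sqrt_pos.2 hx
    have hs2 := Real.mul_self_sqrt hx.le
    have h2 : x⁻¹ = (Real.sqrt x)⁻¹ * (Real.sqrt x)⁻¹ := by
      rw [← mul_inv, hs2]
    rw [h2]
    nlinarith [sq_nonneg ((Real.sqrt x)⁻¹ - 1)]
  refine (cell_mono _ h1).trans ?_
  rw [cell_split _ _ _ _ _ (by positivity) (by positivity) (fun _ _ => zero_le_one)
    (fun _ hx => (inv_pos.2 hx).le) measurable_const, cell_one, cell_inv, mul_one,
    ← ENNReal.ofReal_mul (by positivity), ← ENNReal.ofReal_add (by positivity) (by positivity)]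
  rw [show (2 : ℝ≥0∞) = ENNReal.ofReal 2 by simp]
  refine ENNReal.ofReal_le_ofReal ?_
  have hT : (1 : ℝ) ≤ (T : ℝ) + 1 := by
    have : (0 : ℝ) ≤ T := Nat.cast_nonneg _
    linarith
  have h3 : 1 / ((T : ℝ) + 1) ≤ 1 := by
    rw [div_le_one (by linarith)]
    exact hT
  linarith

theorem cell_isqrt_zero : cellI 0 (fun x => (Real.sqrt x)⁻¹) ≤ 2 := by
  have h1 : (fun y : ℝ => gcell 0 (fun x => (Real.sqrt x)⁻¹) y)
      = (Set.Ioi (0 : ℝ)).indicator fun y =>
          ENNReal.ofReal (Real.exp (-y) * y ^ (((1 / 2 : ℝ)) - 1)) := by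
    funext y
    by_cases hy : 0 < y
    · rw [Set.indicator_of_mem (Set.mem_Ioi.2 hy)]
      unfold gcell expDens
      rw [if_pos hy]
      simp only [pow_zero, Nat.factorial_zero, Nat.cast_one, div_one, ENNReal.ofReal_one, mul_one]
      rw [← ENNReal.ofReal_mul (Real.exp_pos _).le]
      congr 2
      rw [Real.sqrt_eq_rpow, show ((1 / 2 : ℝ)) - 1 = -(1 / 2 : ℝ) by norm_num, Real.rpow_neg hy.le]
    · rw [Set.indicator_of_notMem (by simpa using hy)]
      unfold gcell
      rw [expDens_of_nonpos hy, zero_mul, zero_mul]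
  unfold cellI
  rw [h1, lintegral_indicator measurableSet_Ioi]
  have hk : (0 : ℝ) < (1 / 2 : ℝ) := by norm_num
  have hint := Real.GammaIntegral_convergent hk
  rw [← ofReal_integral_eq_lintegral_ofReal hint]
  · rw [← Real.Gamma_eq_integral hk, Real.Gamma_one_half_eq]
    rw [show (2 : ℝ≥0∞) = ENNReal.ofReal 2 by simp]
    refine ENNReal.ofReal_le_ofReal ?_
    rw [Real.sqrt_le_left (by norm_num)]
    have := Real.pi_le_four
    norm_num
    linarith
  · filter_upwards [ae_restrict_mem measurableSet_Ioi] with y hy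
    have : (0 : ℝ) < y := hy
    positivity

theorem cell_isqrt (T : ℕ) : cellI T (fun x => (Real.sqrt x)⁻¹) ≤ 2 := by
  cases T with
  | zero => exact cell_isqrt_zero
  | succ T => exact cell_isqrt_succ T

/-- The density identity. -/
theorem density_prod (t : Fin n → Fin m → ℝ) (T : Fin n → Fin m → ℕ)
    (g : Fin n → Fin m → ℝ → ℝ) (hg : ∀ j i x, 0 < x → 0 ≤ g j i x) :
    wmat t * ENNReal.ofReal (wt t T) * ENNReal.ofReal (∏ j, ∏ i, g j i (t j i))
      = ∏ j, ∏ i, gcell (T j i) (g j i) (t j i) := by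
  by_cases h : wmat t = 0
  · rw [h, zero_mul, zero_mul]
    unfold gcell
    simp only [Finset.prod_mul_distrib]
    have h2 : (∏ j, ∏ i, expDens (t j i)) = wmat t := rfl
    rw [h2, h, zero_mul, zero_mul]
  · have hp := wmat_ne_zero_pos h
    unfold gcell
    simp only [Finset.prod_mul_distrib]
    have h2 : (∏ j, ∏ i, expDens (t j i)) = wmat t := rfl
    rw [h2]
    have h3 : ENNReal.ofReal (wt t T)
        = ∏ j, ∏ i, ENNReal.ofReal (t j i ^ T j i / (((T j i)! : ℕ) : ℝ)) := by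
      unfold wt
      rw [ENNReal.ofReal_prod_of_nonneg fun j _ => Finset.prod_nonneg fun i _ =>
        div_nonneg (pow_nonneg (hp j i).le _) (fact_pos_real _).le]
      refine Finset.prod_congr rfl fun j _ => ?_
      rw [ENNReal.ofReal_prod_of_nonneg fun i _ =>
        div_nonneg (pow_nonneg (hp j i).le _) (fact_pos_real _).le]
    have h4 : ENNReal.ofReal (∏ j, ∏ i, g j i (t j i))
        = ∏ j, ∏ i, ENNReal.ofReal (g j i (t j i)) := by
      rw [ENNReal.ofReal_prod_of_nonneg fun j _ => Finset.prod_nonneg fun i _ =>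
        hg j i _ (hp j i)]
      refine Finset.prod_congr rfl fun j _ => ?_
      rw [ENNReal.ofReal_prod_of_nonneg fun i _ => hg j i _ (hp j i)]
    rw [h3, h4]

/-- The integral of a product over all cells. -/
theorem lintegral_density_prod (T : Fin n → Fin m → ℕ) (g : Fin n → Fin m → ℝ → ℝ)
    (hg : ∀ j i x, 0 < x → 0 ≤ g j i x) (mg : ∀ j i, Measurable (g j i)) :
    ∫⁻ t, wmat t * ENNReal.ofReal (wt t T) * ENNReal.ofReal (∏ j, ∏ i, g j i (t j i))
      = ∏ j, ∏ i, cellI (T j i) (g j i) := by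
  simp only [density_prod _ T g hg]
  exact lintegral_cells (fun j i => gcell (T j i) (g j i)) fun j i => measurable_gcell _ (mg j i)

/-- Total mass of the product of Gamma laws. -/
theorem gamma_mass (T : Fin n → Fin m → ℕ) :
    ∫⁻ t, wmat t * ENNReal.ofReal (wt t T) = 1 := by
  have h := lintegral_density_prod T (fun _ _ _ => 1) (fun _ _ _ _ => zero_le_one)
    (fun _ _ => measurable_const)
  simp only [Finset.prod_const_one, ENNReal.ofReal_one, mul_one, cell_one] at h
  exact h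

theorem measurable_wt (T : Fin n → Fin m → ℕ) : Measurable fun t => wt t T := by
  unfold wt
  refine Finset.measurable_prod _ fun j _ => Finset.measurable_prod _ fun i _ => ?_
  exact ((measurable_pi_apply i |>.comp (measurable_pi_apply j)).pow_const _).div_const _

/-- A product over the cells with all factors trivial except on the image of an injection. -/
theorem prod_cells {α M K : Type*} [Fintype α] [DecidableEq α] [CommMonoid M] [Fintype K]
    (a : K → α) (ha : Function.Injective a) (v : K → ℝ → ℝ) (F : α → (ℝ → ℝ) → M)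
    (hF : ∀ y, F y (fun _ => 1) = 1) :
    ∏ y, F y (Function.extend a v (fun _ _ => 1) y) = ∏ r, F (a r) (v r) := by
  classical
  have h1 : ∏ y, F y (Function.extend a v (fun _ _ => 1) y)
      = ∏ y ∈ univ.image a, F y (Function.extend a v (fun _ _ => 1) y) := by
    symm
    apply Finset.prod_subset (subset_univ _)
    intro y _ hy
    have : ¬ ∃ r, a r = y := by simpa using hy
    rw [Function.extend_apply' _ _ _ this, hF]
  rw [h1, Finset.prod_image (fun _ _ _ _ h => ha h)]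
  exact Finset.prod_congr rfl fun r _ => by rw [ha.extend_apply]

/-- The integral of a monomial. -/
theorem lintegral_monomial {K : Type*} [Fintype K] (T : Fin n → Fin m → ℕ)
    (a : K → Fin n × Fin m) (ha : Function.Injective a) (v : K → ℝ → ℝ)
    (hv : ∀ r x, 0 < x → 0 ≤ v r x) (mv : ∀ r, Measurable (v r)) :
    ∫⁻ t, wmat t * ENNReal.ofReal (wt t T) * ENNReal.ofReal (∏ r, v r (t (a r).1 (a r).2))
      = ∏ r, cellI (T (a r).1 (a r).2) (v r) := by
  classical
  set G : Fin n × Fin m → ℝ → ℝ := Function.extend a v (fun _ _ => 1) with hG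
  have hG0 : ∀ y x, 0 < x → 0 ≤ G y x := by
    intro y x hx
    by_cases hy : ∃ r, a r = y
    · obtain ⟨r, rfl⟩ := hy
      rw [hG, ha.extend_apply]
      exact hv r x hx
    · rw [hG, Function.extend_apply' _ _ _ hy]
      exact zero_le_one
  have mG : ∀ y, Measurable (G y) := by
    intro y
    by_cases hy : ∃ r, a r = y
    · obtain ⟨r, rfl⟩ := hy
      rw [hG, ha.extend_apply]
      exact mv r
    · rw [hG, Function.extend_apply' _ _ _ hy]
      exact measurable_const
  have h1 := lintegral_density_prod T (fun j i => G (j, i)) (fun j i x hx => hG0 _ x hx)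
    (fun j i => mG _)
  have h2 : ∀ t : Fin n → Fin m → ℝ, ∏ j, ∏ i, G (j, i) (t j i) = ∏ r, v r (t (a r).1 (a r).2) := by
    intro t
    have h3 := prod_cells (M := ℝ) a ha v (fun y g => g (t y.1 y.2)) (fun _ => rfl)
    rw [← h3, Fintype.prod_prod_type]
  have h4 : ∏ j, ∏ i, cellI (T j i) (G (j, i)) = ∏ r, cellI (T (a r).1 (a r).2) (v r) := by
    have h3 := prod_cells (M := ℝ≥0∞) a ha v (fun y g => cellI (T y.1 y.2) g)
      (fun y => cell_one _)
    rw [← h3, Fintype.prod_prod_type]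
  simp only [h2, h4] at h1
  exact h1

/-- The monomial of the Jensen bound. -/
noncomputable def monN (t : Fin n → Fin m → ℝ) (k : Fin n) (i : Fin m) (j j' : Fin n) (l l' : Fin m) : ℝ :=
  t k i * Real.sqrt (t j l) * Real.sqrt (t j' l') * (Real.sqrt (t j i))⁻¹ * (Real.sqrt (t j' i))⁻¹ *
    (Real.sqrt (t k l))⁻¹ * (Real.sqrt (t k l'))⁻¹

theorem measurable_monN (k : Fin n) (i : Fin m) (j j' : Fin n) (l l' : Fin m) :
    Measurable fun t => monN t k i j j' l l' := by
  have h : ∀ (a : Fin n) (b : Fin m), Measurable fun t : Fin n → Fin m → ℝ => t a b :=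
    fun a b => (measurable_pi_apply b).comp (measurable_pi_apply a)
  unfold monN
  exact ((((((h k i).mul (h j l).sqrt).mul (h j' l').sqrt).mul (h j i).sqrt.inv).mul
    (h j' i).sqrt.inv).mul (h k l).sqrt.inv).mul (h k l').sqrt.inv

/-- The Gamma integral of the monomial. -/
theorem lintegral_monN (T : Fin n → Fin m → ℕ) {k : Fin n} {i : Fin m} {j j' : Fin n}
    {l l' : Fin m} (hjk : j ≠ k) (hjk' : j' ≠ k) (hjj : j ≠ j') (hli : l ≠ i) (hli' : l' ≠ i)
    (hll : l ≠ l') :
    ∫⁻ t, wmat t * ENNReal.ofReal (wt t T) * ENNReal.ofReal (monN t k i j j' l l')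
      ≤ ENNReal.ofReal (16 * (1 + (T k i : ℝ)) *
          (Real.sqrt (1 + (T j l : ℝ)) * Real.sqrt (1 + (T j' l' : ℝ)))) := by
  let a : Fin 7 → Fin n × Fin m := ![(k, i), (j, l), (j', l'), (j, i), (j', i), (k, l), (k, l')]
  let v : Fin 7 → ℝ → ℝ := ![fun x => x, Real.sqrt, Real.sqrt, fun x => (Real.sqrt x)⁻¹,
    fun x => (Real.sqrt x)⁻¹, fun x => (Real.sqrt x)⁻¹, fun x => (Real.sqrt x)⁻¹]
  have ha : Function.Injective a := by
    intro r s h
    have hjk2 := hjk.symm
    have hjk2' := hjk'.symm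
    have hjj2 := hjj.symm
    have hli2 := hli.symm
    have hli2' := hli'.symm
    have hll2 := hll.symm
    fin_cases r <;> fin_cases s <;> first | rfl | (exfalso; simp_all [a])
  have hv : ∀ r x, 0 < x → 0 ≤ v r x := by
    intro r x hx
    have h1 := Real.sqrt_nonneg x
    fin_cases r <;> simp [v]
    exact hx.le
  have mv : ∀ r, Measurable (v r) := by
    intro r
    have h1 : Measurable fun x : ℝ => (Real.sqrt x)⁻¹ := Real.continuous_sqrt.measurable.inv
    fin_cases r <;> simp [v] <;> first | exact measurable_id | exact Real.continuous_sqrt.measurable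
  have h := lintegral_monomial T a ha v hv mv
  have hprod : ∀ t : Fin n → Fin m → ℝ, ∏ r, v r (t (a r).1 (a r).2) = monN t k i j j' l l' := by
    intro t
    simp only [Fin.prod_univ_seven]
    simp [a, v, monN]
  simp only [hprod] at h
  rw [h]
  simp only [Fin.prod_univ_seven]
  have e1 : cellI (T k i) (fun x => x) = ENNReal.ofReal (1 + (T k i : ℝ)) := by
    rw [cell_id, ENNReal.ofReal_add (by positivity) (by positivity), add_comm]
    simp
  have e2 : cellI (T (a 0).1 (a 0).2) (v 0) = ENNReal.ofReal (1 + (T k i : ℝ)) := e1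
  have e3 : cellI (T (a 1).1 (a 1).2) (v 1) ≤ ENNReal.ofReal (Real.sqrt (1 + (T j l : ℝ))) := by
    have := cell_sqrt (T j l)
    rwa [add_comm (T j l : ℝ) 1] at this
  have e4 : cellI (T (a 2).1 (a 2).2) (v 2) ≤ ENNReal.ofReal (Real.sqrt (1 + (T j' l' : ℝ))) := by
    have := cell_sqrt (T j' l')
    rwa [add_comm (T j' l' : ℝ) 1] at this
  have e5 : cellI (T (a 3).1 (a 3).2) (v 3) ≤ 2 := cell_isqrt _
  have e6 : cellI (T (a 4).1 (a 4).2) (v 4) ≤ 2 := cell_isqrt _
  have e7 : cellI (T (a 5).1 (a 5).2) (v 5) ≤ 2 := cell_isqrt _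
  have e8 : cellI (T (a 6).1 (a 6).2) (v 6) ≤ 2 := cell_isqrt _
  rw [e2]
  refine (mul_le_mul' (mul_le_mul' (mul_le_mul' (mul_le_mul' (mul_le_mul' (mul_le_mul' le_rfl e3) e4)
    e5) e6) e7) e8).trans ?_
  have hT : (0 : ℝ) ≤ 1 + (T k i : ℝ) := by positivity
  have h2 : (2 : ℝ≥0∞) = ENNReal.ofReal 2 := by simp
  rw [h2, ← ENNReal.ofReal_mul hT, ← ENNReal.ofReal_mul (by positivity),
    ← ENNReal.ofReal_mul (by positivity), ← ENNReal.ofReal_mul (by positivity),
    ← ENNReal.ofReal_mul (by positivity), ← ENNReal.ofReal_mul (by positivity)]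
  refine le_of_eq ?_
  congr 1
  ring

/-- Measurability of the integrand. -/
theorem measurable_GGP (A : Finset (Fin n × Fin m)) (S : Fin n → Fin m → ℕ) :
    Measurable (GGP A S) := by
  have h : ∀ (a : Fin n) (b : Fin m), Measurable fun t : Fin n → Fin m → ℝ => t a b :=
    fun a b => (measurable_pi_apply b).comp (measurable_pi_apply a)
  have hX : ∀ k i, Measurable fun t => XiP A S t k i := by
    intro k i
    unfold XiP
    refine Finset.measurable_sum _ fun p _ => ?_
    by_cases hc : p.1 ≠ k ∧ p.2 ≠ i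
    · simp only [if_pos hc]
      exact (((h _ _).mul (h _ _)).div (h _ _)).const_mul _
    · simp only [if_neg hc]
      exact measurable_const
  unfold GGP GP
  refine Finset.measurable_sum _ fun k _ => Finset.measurable_sum _ fun i _ => ?_
  exact ((h k i).div ((hX k i).add ((h k i).const_mul _))).const_mul _

theorem XiP_nonneg {t : Fin n → Fin m → ℝ} (ht : ∀ j i, 0 < t j i) (A : Finset (Fin n × Fin m))
    (S : Fin n → Fin m → ℕ) (k : Fin n) (i : Fin m) : 0 ≤ XiP A S t k i := by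
  unfold XiP
  refine Finset.sum_nonneg fun p _ => ?_
  split_ifs
  · have h1 := ht p.1 i
    have h2 := ht k p.2
    have h3 := ht p.1 p.2
    positivity
  · exact le_rfl

theorem GP_nonneg {t : Fin n → Fin m → ℝ} (ht : ∀ j i, 0 < t j i) (A : Finset (Fin n × Fin m))
    (S : Fin n → Fin m → ℕ) (k : Fin n) (i : Fin m) : 0 ≤ GP A S t k i := by
  unfold GP
  have h1 := XiP_nonneg ht A S k i
  have h2 := ht k i
  positivity

theorem GGP_nonneg {t : Fin n → Fin m → ℝ} (ht : ∀ j i, 0 < t j i) (A : Finset (Fin n × Fin m))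
    (S : Fin n → Fin m → ℕ) : 0 ≤ GGP A S t := by
  unfold GGP
  refine Finset.sum_nonneg fun k _ => Finset.sum_nonneg fun i _ => ?_
  have := GP_nonneg ht A S k i
  positivity

theorem term_le {t : Fin n → Fin m → ℝ} (ht : ∀ j i, 0 < t j i) (A : Finset (Fin n × Fin m))
    (S : Fin n → Fin m → ℕ) (k : Fin n) (i : Fin m) :
    (S k i : ℝ) * GP A S t k i ≤ (S k i : ℝ) := by
  by_cases h0 : S k i = 0
  · simp [h0]
  · have h1 : 1 ≤ S k i := Nat.one_le_iff_ne_zero.2 h0
    have h2 : S k i ≤ rowS S i :=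
      Finset.single_le_sum (f := fun z => S z i) (fun _ _ => Nat.zero_le _) (mem_univ k)
    have h3 : (1 : ℝ) ≤ ((max (rowS S i) (colS S k) : ℕ) : ℝ) := by
      have : 1 ≤ max (rowS S i) (colS S k) := le_max_of_le_left (h1.trans h2)
      exact_mod_cast this
    have h4 : GP A S t k i ≤ 1 := by
      unfold GP
      have hX := XiP_nonneg ht A S k i
      have hT := ht k i
      rw [div_le_one (by nlinarith)]
      nlinarith
    have h5 : (0 : ℝ) ≤ S k i := Nat.cast_nonneg _
    nlinarith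

/-- The trivial bound on the positive orthant. -/
theorem GGP_le {t : Fin n → Fin m → ℝ} (ht : ∀ j i, 0 < t j i) (A : Finset (Fin n × Fin m))
    (S : Fin n → Fin m → ℕ) : GGP A S t ≤ totS S := by
  unfold GGP totS
  push_cast
  exact Finset.sum_le_sum fun k _ => Finset.sum_le_sum fun i _ => term_le ht A S k i

/-- The trivial bound for the integral. -/
theorem gamma_triv (T S : Fin n → Fin m → ℕ) (A : Finset (Fin n × Fin m)) :
    ∫⁻ t, wmat t * ENNReal.ofReal (wt t T) * ENNReal.ofReal (GGP A S t)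
      ≤ ENNReal.ofReal (totS S) := by
  calc ∫⁻ t, wmat t * ENNReal.ofReal (wt t T) * ENNReal.ofReal (GGP A S t)
      ≤ ∫⁻ t, wmat t * ENNReal.ofReal (wt t T) * ENNReal.ofReal (totS S) := by
        refine lintegral_mono fun t => ?_
        by_cases h : wmat t = 0
        · simp [h]
        · exact mul_le_mul_right (ENNReal.ofReal_le_ofReal (GGP_le (wmat_ne_zero_pos h) A S)) _
    _ = ENNReal.ofReal (totS S) := by
        rw [lintegral_mul_const' _ _ ENNReal.ofReal_ne_top, gamma_mass, one_mul]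

/-- The partner cells of the target `(k, i)`. -/
def Lp (A : Finset (Fin n × Fin m)) (k : Fin n) (i : Fin m) : Finset (Fin n × Fin m) :=
  A.filter fun c => c.1 ≠ k ∧ c.2 ≠ i

/-- The disjoint pairs of partner cells. -/
def PP (A : Finset (Fin n × Fin m)) (k : Fin n) (i : Fin m) :
    Finset ((Fin n × Fin m) × (Fin n × Fin m)) :=
  (Lp A k i ×ˢ Lp A k i).filter fun q => q.1.1 ≠ q.2.1 ∧ q.1.2 ≠ q.2.2

/-- The switching ratio of a partner cell. -/
noncomputable def bb (t : Fin n → Fin m → ℝ) (k : Fin n) (i : Fin m) (c : Fin n × Fin m) : ℝ :=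
  t c.1 i * t k c.2 / t c.1 c.2

/-- The entry as a real number. -/
noncomputable def Sc (S : Fin n → Fin m → ℕ) (c : Fin n × Fin m) : ℝ := S c.1 c.2

theorem Sc_nonneg (S : Fin n → Fin m → ℕ) (c : Fin n × Fin m) : 0 ≤ Sc S c := Nat.cast_nonneg _

theorem XiP_eq (A : Finset (Fin n × Fin m)) (S : Fin n → Fin m → ℕ) (t : Fin n → Fin m → ℝ)
    (k : Fin n) (i : Fin m) : XiP A S t k i = ∑ c ∈ Lp A k i, Sc S c * bb t k i c := by
  unfold XiP Lp
  rw [Finset.sum_filter]
  rfl

theorem one_var_jensen {u z : ℝ} (hu : 0 < u) (hz : 0 < z) :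
    (3 - u ^ 2 / z ^ 2) / (2 * z) ≤ u⁻¹ := by
  have h : u⁻¹ - (3 - u ^ 2 / z ^ 2) / (2 * z) = (z - u) ^ 2 * (2 * z + u) / (2 * z ^ 3 * u) := by
    field_simp
    ring
  have h2 : 0 ≤ (z - u) ^ 2 * (2 * z + u) / (2 * z ^ 3 * u) := by positivity
  linarith

/-- Jensen's inequality for the reciprocal square root, with explicit normalisation. -/
theorem abstract_jensen {ι : Type*} (s : Finset ι) (w a : ι → ℝ) (hw : ∀ y ∈ s, 0 ≤ w y)
    (ha : ∀ y ∈ s, 0 < a y) (hP : 0 < ∑ y ∈ s, w y) :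
    (Real.sqrt (∑ y ∈ s, w y * a y))⁻¹
      ≤ (∑ y ∈ s, w y * (Real.sqrt (a y))⁻¹) / ((∑ y ∈ s, w y) * Real.sqrt (∑ y ∈ s, w y)) := by
  set P := ∑ y ∈ s, w y with hPdef
  set Y := ∑ y ∈ s, w y * a y with hYdef
  have hY : 0 < Y := by
    obtain ⟨y, hy, hy2⟩ : ∃ y ∈ s, 0 < w y := by
      by_contra hcon
      push Not at hcon
      have : P ≤ 0 := Finset.sum_nonpos hcon
      linarith
    exact Finset.sum_pos' (fun z hz => mul_nonneg (hw z hz) (ha z hz).le)
      ⟨y, hy, mul_pos hy2 (ha y hy)⟩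
  set z := Real.sqrt (Y / P) with hz
  have hz0 : 0 < z := Real.sqrt_pos.2 (div_pos hY hP)
  have hz2 : z ^ 2 = Y / P := Real.sq_sqrt (div_pos hY hP).le
  have hsP : 0 < Real.sqrt P := Real.sqrt_pos.2 hP
  have hsum : P / z ≤ ∑ y ∈ s, w y * (Real.sqrt (a y))⁻¹ := by
    have h1 : ∀ y ∈ s, w y * ((3 - a y / z ^ 2) / (2 * z)) ≤ w y * (Real.sqrt (a y))⁻¹ := by
      intro y hy
      refine mul_le_mul_of_nonneg_left ?_ (hw y hy)
      have h2 := one_var_jensen (Real.sqrt_pos.2 (ha y hy)) hz0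
      rwa [Real.sq_sqrt (ha y hy).le] at h2
    refine le_trans (le_of_eq ?_) (Finset.sum_le_sum h1)
    have h3 : ∑ y ∈ s, w y * ((3 - a y / z ^ 2) / (2 * z))
        = (3 * P - Y / z ^ 2) / (2 * z) := by
      have h5 : ∀ y, w y * ((3 - a y / z ^ 2) / (2 * z))
          = (3 / (2 * z)) * w y - (1 / (z ^ 2 * (2 * z))) * (w y * a y) := by
        intro y
        field_simp
      simp only [h5]
      rw [Finset.sum_sub_distrib, ← Finset.mul_sum, ← Finset.mul_sum]
      field_simp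
      rfl
    rw [h3, hz2]
    have hY' : Y / (Y / P) = P := by
      field_simp
    rw [hY']
    field_simp
    ring
  have hsY : Real.sqrt Y = z * Real.sqrt P := by
    rw [hz, ← Real.sqrt_mul (div_pos hY hP).le, div_mul_cancel₀ _ hP.ne']
  rw [hsY, le_div_iff₀ (by positivity)]
  have h4 : P / z / (P * Real.sqrt P) = (z * Real.sqrt P)⁻¹ := by
    field_simp
  calc (z * Real.sqrt P)⁻¹ * (P * Real.sqrt P) = P / z := by
        field_simp
    _ ≤ _ := hsum

theorem monN_eq {t : Fin n → Fin m → ℝ} (ht : ∀ j i, 0 < t j i) (k : Fin n) (i : Fin m)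
    (c c' : Fin n × Fin m) :
    t k i * (Real.sqrt (bb t k i c * bb t k i c'))⁻¹ = monN t k i c.1 c'.1 c.2 c'.2 := by
  unfold bb monN
  have h1 := ht c.1 i
  have h2 := ht k c.2
  have h3 := ht c.1 c.2
  have h4 := ht c'.1 i
  have h5 := ht k c'.2
  have h6 := ht c'.1 c'.2
  have s1 := Real.sqrt_pos.2 h1
  have s2 := Real.sqrt_pos.2 h2
  have s3 := Real.sqrt_pos.2 h3
  have s4 := Real.sqrt_pos.2 h4
  have s5 := Real.sqrt_pos.2 h5
  have s6 := Real.sqrt_pos.2 h6
  rw [Real.sqrt_mul (by positivity), Real.sqrt_div (by positivity), Real.sqrt_div (by positivity),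
    Real.sqrt_mul h1.le, Real.sqrt_mul h4.le]
  field_simp

theorem monN_nonneg {t : Fin n → Fin m → ℝ} (ht : ∀ j i, 0 < t j i) (k : Fin n) (i : Fin m)
    (j j' : Fin n) (l l' : Fin m) : 0 ≤ monN t k i j j' l l' := by
  unfold monN
  have := ht k i
  positivity

/-- The pointwise Jensen bound. -/
theorem GP_le_jensen {t : Fin n → Fin m → ℝ} (ht : ∀ j i, 0 < t j i) (A : Finset (Fin n × Fin m))
    (S : Fin n → Fin m → ℕ) (k : Fin n) (i : Fin m)
    (hP : 0 < ∑ q ∈ PP A k i, Sc S q.1 * Sc S q.2) :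
    GP A S t k i ≤ (∑ q ∈ PP A k i, Sc S q.1 * Sc S q.2 * monN t k i q.1.1 q.2.1 q.1.2 q.2.2) /
      ((∑ q ∈ PP A k i, Sc S q.1 * Sc S q.2) * Real.sqrt (∑ q ∈ PP A k i, Sc S q.1 * Sc S q.2)) := by
  have hbb : ∀ c, 0 < bb t k i c := by
    intro c
    unfold bb
    have h1 := ht c.1 i
    have h2 := ht k c.2
    have h3 := ht c.1 c.2
    positivity
  set P := ∑ q ∈ PP A k i, Sc S q.1 * Sc S q.2 with hPd
  have hJ := abstract_jensen (PP A k i) (fun q => Sc S q.1 * Sc S q.2)
    (fun q => bb t k i q.1 * bb t k i q.2)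
    (fun q _ => mul_nonneg (Sc_nonneg _ _) (Sc_nonneg _ _)) (fun q _ => mul_pos (hbb _) (hbb _)) hP
  simp only [← hPd] at hJ
  set Y := ∑ q ∈ PP A k i, Sc S q.1 * Sc S q.2 * (bb t k i q.1 * bb t k i q.2) with hYd
  set X := XiP A S t k i with hXd
  have hX0 : 0 ≤ X := XiP_nonneg ht A S k i
  have hYX : Y ≤ X ^ 2 := by
    have h1 : X ^ 2 = ∑ q ∈ Lp A k i ×ˢ Lp A k i,
        Sc S q.1 * Sc S q.2 * (bb t k i q.1 * bb t k i q.2) := by
      rw [hXd, XiP_eq, sq, Finset.sum_mul_sum, ← Finset.sum_product']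
      refine Finset.sum_congr rfl fun q _ => ?_
      ring
    rw [h1, hYd]
    unfold PP
    refine Finset.sum_le_sum_of_subset_of_nonneg (Finset.filter_subset _ _) fun q _ _ => ?_
    have := hbb q.1
    have := hbb q.2
    have := Sc_nonneg S q.1
    have := Sc_nonneg S q.2
    positivity
  have hY0 : 0 < Y := by
    obtain ⟨y, hy, hy2⟩ : ∃ y ∈ PP A k i, 0 < Sc S y.1 * Sc S y.2 := by
      by_contra hcon
      push Not at hcon
      have : P ≤ 0 := Finset.sum_nonpos hcon
      linarith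
    exact Finset.sum_pos' (fun z _ => mul_nonneg (mul_nonneg (Sc_nonneg _ _) (Sc_nonneg _ _))
      (mul_pos (hbb _) (hbb _)).le) ⟨y, hy, mul_pos hy2 (mul_pos (hbb _) (hbb _))⟩
  have hsY : 0 < Real.sqrt Y := Real.sqrt_pos.2 hY0
  have hsX : Real.sqrt Y ≤ X := by
    rw [Real.sqrt_le_left hX0]
    exact hYX
  have hT := ht k i
  have h2 : GP A S t k i ≤ t k i * (Real.sqrt Y)⁻¹ := by
    unfold GP
    rw [← div_eq_mul_inv]
    refine div_le_div_of_nonneg_left hT.le hsY ?_
    have : 0 ≤ ((max (rowS S i) (colS S k) : ℕ) : ℝ) * t k i := by positivity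
    linarith
  refine h2.trans ?_
  have h3 := mul_le_mul_of_nonneg_left hJ hT.le
  refine h3.trans (le_of_eq ?_)
  rw [mul_div_assoc']
  congr 1
  rw [Finset.mul_sum]
  refine Finset.sum_congr rfl fun q _ => ?_
  rw [← monN_eq ht k i q.1 q.2]
  ring

theorem sum_cells_col (S : Fin n → Fin m → ℕ) (a : Fin n) :
    ∑ c : Fin n × Fin m, (if c.1 = a then Sc S c else 0) = (colS S a : ℝ) := by
  rw [Fintype.sum_prod_type]
  simp only [Sc]
  rw [Finset.sum_eq_single a]
  · simp [colS]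
  · intro b _ hb
    simp [hb]
  · simp

theorem sum_cells_row (S : Fin n → Fin m → ℕ) (b : Fin m) :
    ∑ c : Fin n × Fin m, (if c.2 = b then Sc S c else 0) = (rowS S b : ℝ) := by
  rw [Fintype.sum_prod_type]
  unfold rowS
  push_cast
  refine Finset.sum_congr rfl fun j _ => ?_
  simp [Sc]

theorem sum_cells_all (S : Fin n → Fin m → ℕ) :
    ∑ c : Fin n × Fin m, Sc S c = (totS S : ℝ) := by
  rw [Fintype.sum_prod_type]
  unfold totS Sc
  push_cast
  rfl

theorem sum_split (V : Finset (Fin n × Fin m)) (S : Fin n → Fin m → ℕ) (a : Fin n) (b : Fin m) :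
    ∑ c ∈ V, Sc S c
      ≤ (∑ c ∈ V, if c.1 ≠ a ∧ c.2 ≠ b then Sc S c else 0) + colS S a + rowS S b := by
  have h1 : ∑ c ∈ V, (if c.1 = a then Sc S c else 0) ≤ colS S a := by
    rw [← sum_cells_col]
    refine Finset.sum_le_sum_of_subset_of_nonneg (subset_univ _) fun c _ _ => ?_
    have := Sc_nonneg S c
    split_ifs <;> linarith
  have h2 : ∑ c ∈ V, (if c.2 = b then Sc S c else 0) ≤ rowS S b := by
    rw [← sum_cells_row]
    refine Finset.sum_le_sum_of_subset_of_nonneg (subset_univ _) fun c _ _ => ?_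
    have := Sc_nonneg S c
    split_ifs <;> linarith
  have h3 : ∀ c ∈ V, Sc S c ≤ (if c.1 ≠ a ∧ c.2 ≠ b then Sc S c else 0)
      + (if c.1 = a then Sc S c else 0) + (if c.2 = b then Sc S c else 0) := by
    intro c _
    have := Sc_nonneg S c
    by_cases h4 : c.1 = a
    · by_cases h5 : c.2 = b
      · simp [h4, h5]
        linarith
      · simp [h4, h5]
    · by_cases h5 : c.2 = b
      · simp [h4, h5]
      · simp [h4, h5]
  have h6 := Finset.sum_le_sum h3
  rw [Finset.sum_add_distrib, Finset.sum_add_distrib] at h6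
  linarith

theorem light_mass {T S : Fin n → Fin m → ℕ} {p : ℕ} (hS : S ∈ subLev T p) (hG : Good T S p) :
    (p : ℝ) / 2 ≤ ∑ c ∈ lightSet T p, Sc S c := by
  have htot : totS S = p := (Finset.mem_filter.1 hS).2
  have h1 := sum_cells_all S
  rw [htot] at h1
  have h2 : ∑ c : Fin n × Fin m, Sc S c = (∑ c ∈ lightSet T p, Sc S c)
      + ∑ c : Fin n × Fin m, if p ≤ T c.1 c.2 then Sc S c else 0 := by
    unfold lightSet
    rw [Finset.sum_filter, ← Finset.sum_add_distrib]
    refine Finset.sum_congr rfl fun c _ => ?_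
    by_cases h : T c.1 c.2 < p
    · simp [h, not_le.2 h]
    · simp [h, not_lt.1 h]
  have h3 : (∑ c : Fin n × Fin m, if p ≤ T c.1 c.2 then Sc S c else 0)
      = (((∑ j, ∑ i, if p ≤ T j i then S j i else 0) : ℕ) : ℝ) := by
    rw [Fintype.sum_prod_type]
    push_cast
    refine Finset.sum_congr rfl fun j _ => Finset.sum_congr rfl fun i _ => ?_
    simp [Sc]
  have h4 : (2 : ℝ) * (((∑ j, ∑ i, if p ≤ T j i then S j i else 0) : ℕ) : ℝ) ≤ p := by
    exact_mod_cast hG.1
  rw [h3] at h2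
  linarith

/-- Lower bound for the pair mass on the good event. -/
theorem P_lower {T S : Fin n → Fin m → ℕ} {p : ℕ} (hS : S ∈ subLev T p) (hG : Good T S p)
    (k : Fin n) (i : Fin m) :
    3 * (p : ℝ) ^ 2 / 32 ≤ ∑ q ∈ PP (lightSet T p) k i, Sc S q.1 * Sc S q.2 := by
  set A := lightSet T p with hA
  set U := Lp A k i with hU
  set N2 := ∑ c ∈ U, Sc S c with hN2
  have hp0 : (0 : ℝ) ≤ p := Nat.cast_nonneg _
  have hcol : ∀ a, (colS S a : ℝ) ≤ (p : ℝ) / 16 := by
    intro a
    have : (16 : ℝ) * colS S a ≤ p := by exact_mod_cast hG.2.2 a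
    linarith
  have hrow : ∀ a, (rowS S a : ℝ) ≤ (p : ℝ) / 16 := by
    intro a
    have : (16 : ℝ) * rowS S a ≤ p := by exact_mod_cast hG.2.1 a
    linarith
  have hN : 3 * (p : ℝ) / 8 ≤ N2 := by
    have h1 := light_mass hS hG
    have h2 := sum_split A S k i
    have h3 : (∑ c ∈ A, if c.1 ≠ k ∧ c.2 ≠ i then Sc S c else 0) = N2 := by
      rw [hN2, hU]
      unfold Lp
      rw [Finset.sum_filter]
    rw [h3] at h2
    have h4 := hcol k
    have h5 := hrow i
    linarith
  have hP : ∑ q ∈ PP A k i, Sc S q.1 * Sc S q.2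
      = ∑ c ∈ U, Sc S c * ∑ c' ∈ U, if c'.1 ≠ c.1 ∧ c'.2 ≠ c.2 then Sc S c' else 0 := by
    unfold PP
    rw [Finset.sum_filter, Finset.sum_product]
    refine Finset.sum_congr rfl fun c _ => ?_
    rw [Finset.mul_sum]
    refine Finset.sum_congr rfl fun c' _ => ?_
    by_cases h1 : c'.1 ≠ c.1 ∧ c'.2 ≠ c.2
    · have h2 : c.1 ≠ c'.1 ∧ c.2 ≠ c'.2 := ⟨h1.1.symm, h1.2.symm⟩
      simp only [if_pos h1, if_pos h2]
    · have h2 : ¬ (c.1 ≠ c'.1 ∧ c.2 ≠ c'.2) := fun h => h1 ⟨h.1.symm, h.2.symm⟩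
      simp only [if_neg h1, if_neg h2, mul_zero]
  rw [hP]
  have h6 : ∀ c ∈ U, Sc S c * (N2 - (p : ℝ) / 8)
      ≤ Sc S c * ∑ c' ∈ U, if c'.1 ≠ c.1 ∧ c'.2 ≠ c.2 then Sc S c' else 0 := by
    intro c _
    refine mul_le_mul_of_nonneg_left ?_ (Sc_nonneg _ _)
    have h2 := sum_split U S c.1 c.2
    have h4 := hcol c.1
    have h5 := hrow c.2
    linarith
  have h7 := Finset.sum_le_sum h6
  rw [← Finset.sum_mul] at h7
  refine le_trans ?_ h7
  have : 3 * (p : ℝ) ^ 2 / 32 = (3 * (p : ℝ) / 8) * (3 * (p : ℝ) / 8 - (p : ℝ) / 8) := by ring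
  rw [this]
  exact mul_le_mul hN (by linarith) (by linarith) (by linarith)

theorem div_P_le {P X : ℝ} {p : ℝ} (hp : 0 < p) (hP : 3 * p ^ 2 / 32 ≤ P) (hX : 0 ≤ X) :
    X / (P * Real.sqrt P) ≤ 36 / p ^ 3 * X := by
  have hP0 : 0 < P := lt_of_lt_of_le (by positivity) hP
  have h1 : 8 / 27 * p ≤ Real.sqrt P := by
    refine Real.le_sqrt_of_sq_le ?_
    nlinarith [sq_nonneg p]
  have h2 : p ^ 3 / 36 ≤ P * Real.sqrt P := by
    have : (3 * p ^ 2 / 32) * (8 / 27 * p) ≤ P * Real.sqrt P :=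
      mul_le_mul hP h1 (by positivity) hP0.le
    nlinarith
  have h3 : 36 / p ^ 3 * X = X / (p ^ 3 / 36) := by
    field_simp
  rw [h3]
  exact div_le_div_of_nonneg_left hX (by positivity) h2

/-- The weighted integral. -/
noncomputable def JJ (T : Fin n → Fin m → ℕ) (f : (Fin n → Fin m → ℝ) → ℝ) : ℝ≥0∞ :=
  ∫⁻ t, wmat t * ENNReal.ofReal (wt t T) * ENNReal.ofReal (f t)

theorem measurable_W (T : Fin n → Fin m → ℕ) :
    Measurable fun t : Fin n → Fin m → ℝ => wmat t * ENNReal.ofReal (wt t T) :=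
  measurable_wmat.mul (measurable_wt T).ennreal_ofReal

theorem JJ_mono (T : Fin n → Fin m → ℕ) {f g : (Fin n → Fin m → ℝ) → ℝ}
    (h : ∀ t : Fin n → Fin m → ℝ, (∀ j i, 0 < t j i) → f t ≤ g t) : JJ T f ≤ JJ T g := by
  refine lintegral_mono fun t => ?_
  by_cases h0 : wmat t = 0
  · simp [h0]
  · exact mul_le_mul_right (ENNReal.ofReal_le_ofReal (h t (wmat_ne_zero_pos h0))) _

theorem JJ_add_le (T : Fin n → Fin m → ℕ) {f g : (Fin n → Fin m → ℝ) → ℝ} (mf : Measurable f) :
    JJ T (fun t => f t + g t) ≤ JJ T f + JJ T g := by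
  unfold JJ
  have hm : Measurable fun t => wmat t * ENNReal.ofReal (wt t T) * ENNReal.ofReal (f t) :=
    (measurable_W T).mul mf.ennreal_ofReal
  rw [← lintegral_add_left hm]
  refine lintegral_mono fun t => ?_
  rw [← mul_add]
  exact mul_le_mul_right (ENNReal.ofReal_add_le) _

theorem JJ_sum_le {ι : Type*} (T : Fin n → Fin m → ℕ) (s : Finset ι)
    (f : ι → (Fin n → Fin m → ℝ) → ℝ) (hf : ∀ a, Measurable (f a)) :
    JJ T (fun t => ∑ a ∈ s, f a t) ≤ ∑ a ∈ s, JJ T (f a) := by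
  classical
  induction s using Finset.induction_on with
  | empty => simp [JJ]
  | insert a s ha ih =>
    simp only [Finset.sum_insert ha]
    exact (JJ_add_le T (hf a)).trans (add_le_add le_rfl ih)

theorem JJ_const_mul (T : Fin n → Fin m → ℕ) {c : ℝ} (hc : 0 ≤ c)
    {f : (Fin n → Fin m → ℝ) → ℝ} (mf : Measurable f) :
    JJ T (fun t => c * f t) = ENNReal.ofReal c * JJ T f := by
  unfold JJ
  have hm : Measurable fun t => wmat t * ENNReal.ofReal (wt t T) * ENNReal.ofReal (f t) :=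
    (measurable_W T).mul mf.ennreal_ofReal
  rw [← lintegral_const_mul _ hm]
  refine lintegral_congr fun t => ?_
  rw [ENNReal.ofReal_mul hc]
  ring

theorem JJ_const (T : Fin n → Fin m → ℕ) (c : ℝ) :
    JJ T (fun _ => c) = ENNReal.ofReal c := by
  unfold JJ
  rw [lintegral_mul_const' _ _ ENNReal.ofReal_ne_top, gamma_mass, one_mul]

/-- The real arithmetic of the main bound. -/
theorem arith_main {T S : Fin n → Fin m → ℕ} {p : ℕ} (hS : S ∈ subLev T p) (hp : 1 ≤ p) :
    ∑ k, ∑ i, ∑ q ∈ PP (lightSet T p) k i,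
      ((if T k i < p then (S k i : ℝ) * (36 / (p : ℝ) ^ 3 * (Sc S q.1 * Sc S q.2)) else 0) *
        (16 * (1 + (T k i : ℝ)) *
          (Real.sqrt (1 + (T q.1.1 q.1.2 : ℝ)) * Real.sqrt (1 + (T q.2.1 q.2.2 : ℝ)))))
      ≤ 576 * Wl T S p ^ 2 := by
  have hp0 : (0 : ℝ) < p := by exact_mod_cast hp
  set A := lightSet T p with hA
  set ww : Fin n × Fin m → ℝ := fun c => Real.sqrt (1 + (T c.1 c.2 : ℝ)) with hww
  have hww0 : ∀ c, 0 ≤ ww c := fun c => Real.sqrt_nonneg _
  have hww2 : ∀ c, ww c ^ 2 = 1 + (T c.1 c.2 : ℝ) := fun c =>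
    Real.sq_sqrt (by positivity)
  set Q := ∑ c ∈ A, Sc S c * ww c with hQ
  set B := ∑ c ∈ A, Sc S c * (1 + (T c.1 c.2 : ℝ)) with hB
  have hBW : B = (p : ℝ) * Wl T S p := by
    unfold Wl
    rw [mul_div_cancel₀ _ hp0.ne', hB, hA]
    unfold lightSet
    rw [Finset.sum_filter, Fintype.sum_prod_type]
    rfl
  have hSA : ∑ c ∈ A, Sc S c ≤ p := by
    have h1 := sum_cells_all S
    have htot : totS S = p := (Finset.mem_filter.1 hS).2
    rw [htot] at h1
    rw [← h1]
    exact Finset.sum_le_sum_of_subset_of_nonneg (subset_univ _) fun c _ _ => Sc_nonneg _ _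
  have hB0 : 0 ≤ B := Finset.sum_nonneg fun c _ =>
    mul_nonneg (Sc_nonneg _ _) (by positivity)
  have hQ2 : Q ^ 2 ≤ p * B := by
    have h1 : Q ^ 2 ≤ (∑ c ∈ A, Sc S c) * ∑ c ∈ A, Sc S c * (1 + (T c.1 c.2 : ℝ)) := by
      refine Finset.sum_sq_le_sum_mul_sum_of_sq_le_mul A (fun c _ => Sc_nonneg _ _)
        (fun c _ => mul_nonneg (Sc_nonneg _ _) (by positivity)) fun c _ => ?_
      rw [mul_pow, hww2]
      exact le_of_eq (by ring)
    exact h1.trans (mul_le_mul_of_nonneg_right hSA hB0)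
  have hinner : ∀ k i, ∑ q ∈ PP A k i, Sc S q.1 * Sc S q.2 * (ww q.1 * ww q.2) ≤ Q ^ 2 := by
    intro k i
    have h1 : Q ^ 2 = ∑ q ∈ A ×ˢ A, Sc S q.1 * Sc S q.2 * (ww q.1 * ww q.2) := by
      rw [hQ, sq, Finset.sum_mul_sum, ← Finset.sum_product']
      refine Finset.sum_congr rfl fun q _ => ?_
      ring
    rw [h1]
    refine Finset.sum_le_sum_of_subset_of_nonneg ?_ fun q _ _ => ?_
    · intro q hq
      have h2 := (Finset.mem_filter.1 hq).1
      have h3 := Finset.mem_product.1 h2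
      exact Finset.mem_product.2 ⟨(Finset.mem_filter.1 h3.1).1, (Finset.mem_filter.1 h3.2).1⟩
    · have := Sc_nonneg S q.1
      have := Sc_nonneg S q.2
      have := hww0 q.1
      have := hww0 q.2
      positivity
  have hterm : ∀ k i, ∑ q ∈ PP A k i,
      ((if T k i < p then (S k i : ℝ) * (36 / (p : ℝ) ^ 3 * (Sc S q.1 * Sc S q.2)) else 0) *
        (16 * (1 + (T k i : ℝ)) * (ww q.1 * ww q.2)))
      ≤ (if T k i < p then (S k i : ℝ) * (1 + (T k i : ℝ)) else 0) *
          (576 / (p : ℝ) ^ 3 * Q ^ 2) := by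
    intro k i
    by_cases hl : T k i < p
    · simp only [if_pos hl]
      have h1 : ∑ q ∈ PP A k i, ((S k i : ℝ) * (36 / (p : ℝ) ^ 3 * (Sc S q.1 * Sc S q.2)) *
          (16 * (1 + (T k i : ℝ)) * (ww q.1 * ww q.2)))
          = (S k i : ℝ) * (1 + (T k i : ℝ)) * (576 / (p : ℝ) ^ 3) *
            ∑ q ∈ PP A k i, Sc S q.1 * Sc S q.2 * (ww q.1 * ww q.2) := by
        rw [Finset.mul_sum]
        refine Finset.sum_congr rfl fun q _ => ?_
        ring
      rw [h1, mul_assoc ((S k i : ℝ) * (1 + (T k i : ℝ)))]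
      refine mul_le_mul_of_nonneg_left ?_ (by positivity)
      exact mul_le_mul_of_nonneg_left (hinner k i) (by positivity)
    · simp [if_neg hl]
  calc _ ≤ ∑ k, ∑ i, (if T k i < p then (S k i : ℝ) * (1 + (T k i : ℝ)) else 0) *
          (576 / (p : ℝ) ^ 3 * Q ^ 2) :=
        Finset.sum_le_sum fun k _ => Finset.sum_le_sum fun i _ => hterm k i
    _ = B * (576 / (p : ℝ) ^ 3 * Q ^ 2) := by
        rw [hB, hA]
        unfold lightSet
        rw [Finset.sum_filter, Fintype.sum_prod_type, Finset.sum_mul]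
        refine Finset.sum_congr rfl fun k _ => ?_
        rw [Finset.sum_mul]
        rfl
    _ ≤ B * (576 / (p : ℝ) ^ 3 * (p * B)) := by
        refine mul_le_mul_of_nonneg_left ?_ hB0
        exact mul_le_mul_of_nonneg_left hQ2 (by positivity)
    _ = 576 * Wl T S p ^ 2 := by
        rw [hBW]
        field_simp

/-- The main bound: on the good event the integral is at most quadratic in the light mean. -/
theorem gamma_good (T S : Fin n → Fin m → ℕ) (p : ℕ) (hS : S ∈ subLev T p) (hp : 1 ≤ p)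
    (hG : Good T S p) :
    ∫⁻ t, wmat t * ENNReal.ofReal (wt t T) * ENNReal.ofReal (GGP (lightSet T p) S t)
      ≤ ENNReal.ofReal (576 * Wl T S p ^ 2 + Hv T S p) := by
  have hp0 : (0 : ℝ) < p := by exact_mod_cast hp
  set A := lightSet T p with hA
  -- the coefficient
  let cf : Fin n → Fin m → (Fin n × Fin m) × (Fin n × Fin m) → ℝ := fun k i q =>
    if T k i < p then (S k i : ℝ) * (36 / (p : ℝ) ^ 3 * (Sc S q.1 * Sc S q.2)) else 0
  have hcf : ∀ k i q, 0 ≤ cf k i q := by
    intro k i q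
    by_cases hl : T k i < p
    · simp only [cf, if_pos hl]
      have := Sc_nonneg S q.1
      have := Sc_nonneg S q.2
      positivity
    · simp only [cf, if_neg hl]
      exact le_rfl
  let mq : Fin n → Fin m → (Fin n × Fin m) × (Fin n × Fin m) → (Fin n → Fin m → ℝ) → ℝ :=
    fun k i q t => monN t k i q.1.1 q.2.1 q.1.2 q.2.2
  have hmq : ∀ k i q, Measurable (mq k i q) := fun k i q => measurable_monN _ _ _ _ _ _
  -- the pointwise bound
  have hpt : ∀ t : Fin n → Fin m → ℝ, (∀ j i, 0 < t j i) →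
      GGP A S t ≤ Hv T S p + ∑ k, ∑ i, ∑ q ∈ PP A k i, cf k i q * mq k i q t := by
    intro t ht
    have hterm : ∀ k i, (S k i : ℝ) * GP A S t k i
        ≤ (if p ≤ T k i then (S k i : ℝ) else 0) + ∑ q ∈ PP A k i, cf k i q * mq k i q t := by
      intro k i
      by_cases hl : T k i < p
      · simp only [cf, if_pos hl, if_neg (not_le.2 hl), zero_add]
        have hP := P_lower hS hG k i
        have hP0 : 0 < ∑ q ∈ PP A k i, Sc S q.1 * Sc S q.2 :=
          lt_of_lt_of_le (by positivity) hP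
        have h1 := GP_le_jensen ht A S k i hP0
        have hX : 0 ≤ ∑ q ∈ PP A k i, Sc S q.1 * Sc S q.2 * monN t k i q.1.1 q.2.1 q.1.2 q.2.2 :=
          Finset.sum_nonneg fun q _ => mul_nonneg (mul_nonneg (Sc_nonneg _ _) (Sc_nonneg _ _))
            (monN_nonneg ht _ _ _ _ _ _)
        have h2 := div_P_le hp0 hP hX
        have h3 : GP A S t k i ≤ 36 / (p : ℝ) ^ 3 *
            ∑ q ∈ PP A k i, Sc S q.1 * Sc S q.2 * monN t k i q.1.1 q.2.1 q.1.2 q.2.2 := h1.trans h2
        refine (mul_le_mul_of_nonneg_left h3 (Nat.cast_nonneg _)).trans (le_of_eq ?_)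
        rw [Finset.mul_sum, Finset.mul_sum]
        refine Finset.sum_congr rfl fun q _ => ?_
        simp only [mq]
        ring
      · have h1 : p ≤ T k i := not_lt.1 hl
        simp only [cf, if_neg hl, if_pos h1, zero_mul, Finset.sum_const_zero, add_zero]
        exact term_le ht A S k i
    unfold GGP Hv
    rw [← Finset.sum_add_distrib]
    refine Finset.sum_le_sum fun k _ => ?_
    rw [← Finset.sum_add_distrib]
    exact Finset.sum_le_sum fun i _ => hterm k i
  -- integrate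
  have hstep1 : JJ T (GGP A S) ≤ JJ T fun t =>
      Hv T S p + ∑ k, ∑ i, ∑ q ∈ PP A k i, cf k i q * mq k i q t := JJ_mono T hpt
  have hmeas3 : ∀ k i q, Measurable fun t => cf k i q * mq k i q t :=
    fun k i q => (hmq k i q).const_mul _
  have hmeas2 : ∀ k i, Measurable fun t => ∑ q ∈ PP A k i, cf k i q * mq k i q t :=
    fun k i => Finset.measurable_sum _ fun q _ => hmeas3 k i q
  have hmeas1 : ∀ k, Measurable fun t => ∑ i, ∑ q ∈ PP A k i, cf k i q * mq k i q t :=
    fun k => Finset.measurable_sum _ fun i _ => hmeas2 k i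
  have hstep2 : JJ T (fun t => Hv T S p + ∑ k, ∑ i, ∑ q ∈ PP A k i, cf k i q * mq k i q t)
      ≤ ENNReal.ofReal (Hv T S p) + ∑ k, ∑ i, ∑ q ∈ PP A k i,
        ENNReal.ofReal (cf k i q * (16 * (1 + (T k i : ℝ)) *
          (Real.sqrt (1 + (T q.1.1 q.1.2 : ℝ)) * Real.sqrt (1 + (T q.2.1 q.2.2 : ℝ))))) := by
    refine (JJ_add_le T measurable_const).trans ?_
    rw [JJ_const]
    refine add_le_add le_rfl ?_
    refine (JJ_sum_le T univ _ hmeas1).trans (Finset.sum_le_sum fun k _ => ?_)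
    refine (JJ_sum_le T univ _ (hmeas2 k)).trans (Finset.sum_le_sum fun i _ => ?_)
    refine (JJ_sum_le T _ _ (hmeas3 k i)).trans (Finset.sum_le_sum fun q hq => ?_)
    rw [JJ_const_mul T (hcf k i q) (hmq k i q), ENNReal.ofReal_mul (hcf k i q)]
    refine mul_le_mul_right ?_ _
    have h1 := (Finset.mem_filter.1 hq).2
    have h2 := Finset.mem_product.1 (Finset.mem_filter.1 hq).1
    have h3 := (Finset.mem_filter.1 h2.1).2
    have h4 := (Finset.mem_filter.1 h2.2).2
    exact lintegral_monN T h3.1 h4.1 h1.1 h3.2 h4.2 h1.2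
  have hHv : 0 ≤ Hv T S p := by
    unfold Hv
    refine Finset.sum_nonneg fun j _ => Finset.sum_nonneg fun i _ => ?_
    split_ifs
    · exact Nat.cast_nonneg _
    · exact le_rfl
  have hnn : ∀ k i q, 0 ≤ cf k i q * (16 * (1 + (T k i : ℝ)) *
      (Real.sqrt (1 + (T q.1.1 q.1.2 : ℝ)) * Real.sqrt (1 + (T q.2.1 q.2.2 : ℝ)))) := by
    intro k i q
    have := hcf k i q
    positivity
  have hstep3 : ∑ k, ∑ i, ∑ q ∈ PP A k i,
        ENNReal.ofReal (cf k i q * (16 * (1 + (T k i : ℝ)) *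
          (Real.sqrt (1 + (T q.1.1 q.1.2 : ℝ)) * Real.sqrt (1 + (T q.2.1 q.2.2 : ℝ)))))
      ≤ ENNReal.ofReal (576 * Wl T S p ^ 2) := by
    have h1 : ∑ k, ∑ i, ∑ q ∈ PP A k i,
        ENNReal.ofReal (cf k i q * (16 * (1 + (T k i : ℝ)) *
          (Real.sqrt (1 + (T q.1.1 q.1.2 : ℝ)) * Real.sqrt (1 + (T q.2.1 q.2.2 : ℝ)))))
        = ENNReal.ofReal (∑ k, ∑ i, ∑ q ∈ PP A k i,
          (cf k i q * (16 * (1 + (T k i : ℝ)) *
          (Real.sqrt (1 + (T q.1.1 q.1.2 : ℝ)) * Real.sqrt (1 + (T q.2.1 q.2.2 : ℝ)))))) := by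
      rw [ENNReal.ofReal_sum_of_nonneg fun k _ => Finset.sum_nonneg fun i _ =>
        Finset.sum_nonneg fun q _ => hnn k i q]
      refine Finset.sum_congr rfl fun k _ => ?_
      rw [ENNReal.ofReal_sum_of_nonneg fun i _ => Finset.sum_nonneg fun q _ => hnn k i q]
      refine Finset.sum_congr rfl fun i _ => ?_
      rw [ENNReal.ofReal_sum_of_nonneg fun q _ => hnn k i q]
    rw [h1]
    exact ENNReal.ofReal_le_ofReal (arith_main hS hp)
  have hfinal : JJ T (GGP A S) ≤ ENNReal.ofReal (576 * Wl T S p ^ 2 + Hv T S p) := by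
    refine hstep1.trans (hstep2.trans ?_)
    have h5 : 0 ≤ 576 * Wl T S p ^ 2 := by positivity
    rw [add_comm (576 * Wl T S p ^ 2), ENNReal.ofReal_add hHv h5]
    exact add_le_add le_rfl hstep3
  exact hfinal

end Vale.Agent.Lib.P328.Sparse



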