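import Vale.Agent.Lib.P328.Sparse.Shift

/-!
# P328, sparse margins: the switching inequality and Cauchy-Schwarz
-/

namespace Vale.Agent.Lib.P328.Sparse

open Finset MeasureTheory Vale.Agent.Lib.P328.Cap
open scoped ENNReal Nat

variable {m n : ℕ}

/-- `dec` commutes on distinct coordinates. -/
theorem dec_comm {k : ℕ} (f : Fin k → ℕ) {a b : Fin k} (h : a ≠ b) :
    dec (dec f a) b = dec (dec f b) a := by
  funext x
  simp only [dec_apply]
  by_cases h1 : x = a
  · subst h1
    simp [h]
  · by_cases h2 : x = b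
    · subst h2
      simp [h1]
    · simp [h1, h2]

/-- A joint second moment for two cells differing in both coordinates. -/
theorem second_shift (t : Fin n → Fin m → ℝ) (r : Fin m → ℕ) (c : Fin n → ℕ)
    (k j : Fin n) (i l : Fin m) (hkj : j ≠ k) (hil : l ≠ i)
    (hi : 1 ≤ r i) (hl : 1 ≤ r l) (hk : 1 ≤ c k) (hj : 1 ≤ c j) :
    ∑ S ∈ tabs r c, (S k i : ℝ) * (S j l : ℝ) * wt t S
      = t k i * t j l * FF (dec (dec r i) l) (dec (dec c k) j) t := by
  have h1 := shift_sum t r c k i hi hk (fun S => (S j l : ℝ))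
  have h2 : ∑ S ∈ tabs r c, (S k i : ℝ) * (S j l : ℝ) * wt t S
      = ∑ S ∈ tabs r c, (S k i : ℝ) * wt t S * (S j l : ℝ) :=
    Finset.sum_congr rfl fun S _ => by ring
  rw [h2, h1]
  have h3 : ∀ S : Fin n → Fin m → ℕ, ((bump S k i j l : ℕ) : ℝ) = (S j l : ℝ) := by
    intro S
    rw [bump_apply, if_neg (fun h => hkj h.1), add_zero]
  simp only [h3]
  have h5 : ∑ x ∈ tabs (dec r i) (dec c k), wt t x * (x j l : ℝ)
      = ∑ x ∈ tabs (dec r i) (dec c k), (x j l : ℝ) * wt t x :=
    Finset.sum_congr rfl fun S _ => mul_comm _ _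
  rw [h5]
  have hl' : 1 ≤ dec r i l := by
    rw [dec_apply, if_neg hil]
    simpa using hl
  have hj' : 1 ≤ dec c k j := by
    rw [dec_apply, if_neg hkj]
    simpa using hj
  have h4 := shift_sum t (dec r i) (dec c k) j l hl' hj' (fun _ => 1)
  simp only [mul_one] at h4
  rw [h4]
  unfold FF
  ring

/-- The switching identity for the second moments. -/
theorem flux_pair (t : Fin n → Fin m → ℝ) (r : Fin m → ℕ) (c : Fin n → ℕ)
    (k j : Fin n) (i l : Fin m) (hkj : j ≠ k) (hil : l ≠ i) :
    t j i * t k l * ∑ S ∈ tabs r c, (S k i : ℝ) * (S j l : ℝ) * wt t S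
      = t k i * t j l * ∑ S ∈ tabs r c, (S j i : ℝ) * (S k l : ℝ) * wt t S := by
  by_cases hall : 1 ≤ r i ∧ 1 ≤ r l ∧ 1 ≤ c k ∧ 1 ≤ c j
  · obtain ⟨hi, hl, hk, hj⟩ := hall
    rw [second_shift t r c k j i l hkj hil hi hl hk hj,
      second_shift t r c j k i l hkj.symm hil hi hl hj hk, dec_comm c hkj.symm]
    ring
  · have hzero : ∀ S ∈ tabs r c, (S k i : ℝ) * (S j l : ℝ) = 0 ∧ (S j i : ℝ) * (S k l : ℝ) = 0 := by
      intro S hS
      have e1 := entry_le_row hS k i
      have e2 := entry_le_col hS k i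
      have e3 := entry_le_row hS j l
      have e4 := entry_le_col hS j l
      have e5 := entry_le_row hS j i
      have e6 := entry_le_col hS j i
      have e7 := entry_le_row hS k l
      have e8 := entry_le_col hS k l
      have h1 : S k i = 0 ∨ S j l = 0 := by omega
      have h2 : S j i = 0 ∨ S k l = 0 := by omega
      constructor
      · rcases h1 with h | h <;> simp [h]
      · rcases h2 with h | h <;> simp [h]
    have h1 : ∑ S ∈ tabs r c, (S k i : ℝ) * (S j l : ℝ) * wt t S = 0 :=
      Finset.sum_eq_zero fun S hS => by rw [(hzero S hS).1, zero_mul]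
    have h2 : ∑ S ∈ tabs r c, (S j i : ℝ) * (S k l : ℝ) * wt t S = 0 :=
      Finset.sum_eq_zero fun S hS => by rw [(hzero S hS).2, zero_mul]
    rw [h1, h2]
    ring

/-- The partner sum is nonnegative. -/
theorem XiP_nonneg {t : Fin n → Fin m → ℝ} (ht : ∀ j i, 0 < t j i) (A : Finset (Fin n × Fin m))
    (S : Fin n → Fin m → ℕ) (k : Fin n) (i : Fin m) : 0 ≤ XiP A S t k i := by
  unfold XiP
  refine Finset.sum_nonneg fun p _ => ?_
  split_ifs
  · have h1 := ht p.1 i
    have h2 := ht k p.2
    have h3 := ht p.1 p.2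
    positivity
  · exact le_rfl

/-- The partner sum over any set of cells is at most the partner sum over all cells. -/
theorem XiP_le_full {t : Fin n → Fin m → ℝ} (ht : ∀ j i, 0 < t j i) (A : Finset (Fin n × Fin m))
    (S : Fin n → Fin m → ℕ) (k : Fin n) (i : Fin m) :
    XiP A S t k i ≤ ∑ j, ∑ l, if j ≠ k ∧ l ≠ i then (S j l : ℝ) * (t j i * t k l / t j l) else 0 := by
  rw [← Finset.sum_product' (univ : Finset (Fin n)) (univ : Finset (Fin m))
    (fun j l => if j ≠ k ∧ l ≠ i then (S j l : ℝ) * (t j i * t k l / t j l) else 0)]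
  unfold XiP
  refine Finset.sum_le_sum_of_subset_of_nonneg (by simp) fun p _ _ => ?_
  split_ifs
  · have h1 := ht p.1 i
    have h2 := ht k p.2
    have h3 := ht p.1 p.2
    positivity
  · exact le_rfl

/-- The partner sum has mean at most `t k i * r i * c k` against `S k i`. -/
theorem flux_bound {t : Fin n → Fin m → ℝ} (ht : ∀ j i, 0 < t j i) (r : Fin m → ℕ) (c : Fin n → ℕ)
    (A : (Fin n → Fin m → ℕ) → Finset (Fin n × Fin m)) (k : Fin n) (i : Fin m) :
    ∑ S ∈ tabs r c, wt t S * ((S k i : ℝ) * XiP (A S) S t k i)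
      ≤ t k i * ((r i : ℝ) * (c k : ℝ)) * FF r c t := by
  have h1 : ∑ S ∈ tabs r c, wt t S * ((S k i : ℝ) * XiP (A S) S t k i)
      ≤ ∑ S ∈ tabs r c, wt t S * ((S k i : ℝ) *
          ∑ j, ∑ l, if j ≠ k ∧ l ≠ i then (S j l : ℝ) * (t j i * t k l / t j l) else 0) := by
    refine Finset.sum_le_sum fun S _ => ?_
    refine mul_le_mul_of_nonneg_left ?_ (wt_pos ht S).le
    exact mul_le_mul_of_nonneg_left (XiP_le_full ht _ S k i) (Nat.cast_nonneg _)
  refine h1.trans ?_
  have h2 : ∑ S ∈ tabs r c, wt t S * ((S k i : ℝ) *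
          ∑ j, ∑ l, if j ≠ k ∧ l ≠ i then (S j l : ℝ) * (t j i * t k l / t j l) else 0)
      = ∑ j, ∑ l, if j ≠ k ∧ l ≠ i then
          (t j i * t k l / t j l) * ∑ S ∈ tabs r c, (S k i : ℝ) * (S j l : ℝ) * wt t S else 0 := by
    simp only [Finset.mul_sum]
    rw [Finset.sum_comm]
    refine Finset.sum_congr rfl fun j _ => ?_
    rw [Finset.sum_comm]
    refine Finset.sum_congr rfl fun l _ => ?_
    by_cases h : j ≠ k ∧ l ≠ i
    · simp only [if_pos h]
      refine Finset.sum_congr rfl fun S _ => ?_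
      ring
    · simp [if_neg h]
  rw [h2]
  have h3 : ∀ j l, (if j ≠ k ∧ l ≠ i then
          (t j i * t k l / t j l) * ∑ S ∈ tabs r c, (S k i : ℝ) * (S j l : ℝ) * wt t S else 0)
      = t k i * ∑ S ∈ tabs r c, wt t S *
          (if j ≠ k ∧ l ≠ i then (S j i : ℝ) * (S k l : ℝ) else 0) := by
    intro j l
    by_cases h : j ≠ k ∧ l ≠ i
    · simp only [if_pos h]
      have h4 := flux_pair t r c k j i l h.1 h.2
      have h5 := (ht j l).ne'
      have h6 : ∑ S ∈ tabs r c, wt t S * ((S j i : ℝ) * (S k l : ℝ))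
          = ∑ S ∈ tabs r c, (S j i : ℝ) * (S k l : ℝ) * wt t S :=
        Finset.sum_congr rfl fun S _ => by ring
      rw [h6]
      field_simp
      linarith [h4]
    · simp [if_neg h]
  simp only [h3]
  have h7 : ∀ S ∈ tabs r c, ∑ j, ∑ l, wt t S *
        (if j ≠ k ∧ l ≠ i then (S j i : ℝ) * (S k l : ℝ) else 0)
      ≤ wt t S * ((r i : ℝ) * (c k : ℝ)) := by
    intro S hS
    have h8 : ∑ j, ∑ l, wt t S * (if j ≠ k ∧ l ≠ i then (S j i : ℝ) * (S k l : ℝ) else 0)
        = wt t S * ((∑ j, if j ≠ k then (S j i : ℝ) else 0)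
            * (∑ l, if l ≠ i then (S k l : ℝ) else 0)) := by
      rw [Finset.sum_mul_sum, Finset.mul_sum]
      refine Finset.sum_congr rfl fun j _ => ?_
      rw [Finset.mul_sum]
      refine Finset.sum_congr rfl fun l _ => ?_
      by_cases h1 : j ≠ k
      · by_cases h2 : l ≠ i
        · simp [h1, h2]
        · simp [h2]
      · simp [h1]
    rw [h8]
    refine mul_le_mul_of_nonneg_left ?_ (wt_pos ht S).le
    have hrow : (∑ j, if j ≠ k then (S j i : ℝ) else 0) ≤ (r i : ℝ) := by
      have h9 : (r i : ℝ) = ∑ j, (S j i : ℝ) := by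
        rw [← (mem_tabs.1 hS).2 i]
        push_cast
        rfl
      rw [h9]
      refine Finset.sum_le_sum fun j _ => ?_
      split_ifs
      · exact le_rfl
      · exact Nat.cast_nonneg _
    have hcol : (∑ l, if l ≠ i then (S k l : ℝ) else 0) ≤ (c k : ℝ) := by
      have h9 : (c k : ℝ) = ∑ l, (S k l : ℝ) := by
        rw [← (mem_tabs.1 hS).1 k]
        push_cast
        rfl
      rw [h9]
      refine Finset.sum_le_sum fun l _ => ?_
      split_ifs
      · exact le_rfl
      · exact Nat.cast_nonneg _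
    have h10 : 0 ≤ ∑ j, if j ≠ k then (S j i : ℝ) else 0 :=
      Finset.sum_nonneg fun j _ => by
        split_ifs
        · exact Nat.cast_nonneg _
        · exact le_rfl
    have h11 : 0 ≤ ∑ l, if l ≠ i then (S k l : ℝ) else 0 :=
      Finset.sum_nonneg fun j _ => by
        split_ifs
        · exact Nat.cast_nonneg _
        · exact le_rfl
    exact mul_le_mul hrow hcol h11 (Nat.cast_nonneg _)
  have h12 : ∑ j, ∑ l, (t k i * ∑ S ∈ tabs r c, wt t S *
        (if j ≠ k ∧ l ≠ i then (S j i : ℝ) * (S k l : ℝ) else 0))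
      = t k i * ∑ S ∈ tabs r c, ∑ j, ∑ l, wt t S *
        (if j ≠ k ∧ l ≠ i then (S j i : ℝ) * (S k l : ℝ) else 0) := by
    have h13 : ∑ S ∈ tabs r c, ∑ j, ∑ l, wt t S *
        (if j ≠ k ∧ l ≠ i then (S j i : ℝ) * (S k l : ℝ) else 0)
        = ∑ j, ∑ l, ∑ S ∈ tabs r c, wt t S *
        (if j ≠ k ∧ l ≠ i then (S j i : ℝ) * (S k l : ℝ) else 0) := by
      rw [Finset.sum_comm]
      exact Finset.sum_congr rfl fun j _ => Finset.sum_comm
    rw [h13, Finset.mul_sum]
    refine Finset.sum_congr rfl fun j _ => ?_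
    rw [Finset.mul_sum]
  rw [h12, mul_assoc (t k i)]
  refine mul_le_mul_of_nonneg_left ?_ (ht k i).le
  refine (Finset.sum_le_sum h7).trans (le_of_eq ?_)
  unfold FF
  rw [Finset.mul_sum]
  exact Finset.sum_congr rfl fun S _ => by ring

/-- The main inequality of this file: `D` against the partner sums. -/
theorem cauchy_flux {t : Fin n → Fin m → ℝ} (ht : ∀ j i, 0 < t j i) (r : Fin m → ℕ) (c : Fin n → ℕ)
    (hsum : ∑ i, r i = ∑ j, c j) (A : (Fin n → Fin m → ℕ) → Finset (Fin n × Fin m)) :
    FF r c t * DD r c t ≤ 2 * ∑ S ∈ tabs r c, wt t S * GGP (A S) S t := by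
  have hF := FF_pos ht r c hsum
  have hGP : ∀ (S : Fin n → Fin m → ℕ) k i, 0 ≤ GP (A S) S t k i := by
    intro S k i
    unfold GP
    have h1 := XiP_nonneg ht (A S) S k i
    have h2 := ht k i
    positivity
  have hcell : ∀ k i, FF r c t * (am r c t k i ^ 2 / ((r i : ℝ) * (c k : ℝ)))
      ≤ 2 * ∑ S ∈ tabs r c, wt t S * ((S k i : ℝ) * GP (A S) S t k i) := by
    intro k i
    by_cases hzero : r i = 0 ∨ c k = 0
    · have h0 : ((r i : ℝ) * (c k : ℝ)) = 0 := by
        rcases hzero with h | h <;> simp [h]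
      rw [h0, div_zero, mul_zero]
      refine mul_nonneg (by norm_num) (Finset.sum_nonneg fun S _ => ?_)
      exact mul_nonneg (wt_pos ht S).le (mul_nonneg (Nat.cast_nonneg _) (hGP S k i))
    · have hi : 1 ≤ r i := by
        by_contra h
        exact hzero (Or.inl (by omega))
      have hk : 1 ≤ c k := by
        by_contra h
        exact hzero (Or.inr (by omega))
      set a : ℝ := ∑ S ∈ tabs r c, (S k i : ℝ) * wt t S with ha
      have ham : am r c t k i = a / FF r c t := rfl
      set ρ : ℝ := ((max (r i) (c k) : ℕ) : ℝ) with hρ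
      have hρpos : 0 < ρ := by
        rw [hρ]
        have : 1 ≤ max (r i) (c k) := le_max_of_le_left hi
        exact_mod_cast this
      have htk := ht k i
      -- the weight of the Cauchy-Schwarz inequality
      let w : (Fin n → Fin m → ℕ) → ℝ := fun S => XiP (A S) S t k i + ρ * t k i
      have hw : ∀ S, 0 < w S := fun S => by
        have h1 := XiP_nonneg ht (A S) S k i
        have h2 : 0 < ρ * t k i := mul_pos hρpos htk
        show 0 < XiP (A S) S t k i + ρ * t k i
        linarith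
      have hGPeq : ∀ S ∈ tabs r c, GP (A S) S t k i = t k i / w S := by
        intro S hS
        unfold GP
        have h1 : rowS S i = r i := (mem_tabs.1 hS).2 i
        have h2 : colS S k = c k := (mem_tabs.1 hS).1 k
        rw [h1, h2]
      have hCS : a ^ 2 ≤ (∑ S ∈ tabs r c, (S k i : ℝ) * wt t S * w S)
          * (∑ S ∈ tabs r c, (S k i : ℝ) * wt t S / w S) := by
        refine Finset.sum_sq_le_sum_mul_sum_of_sq_le_mul _ ?_ ?_ ?_
        · intro S _
          exact mul_nonneg (mul_nonneg (Nat.cast_nonneg _) (wt_pos ht S).le) (hw S).le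
        · intro S _
          exact div_nonneg (mul_nonneg (Nat.cast_nonneg _) (wt_pos ht S).le) (hw S).le
        · intro S _
          have := (hw S).ne'
          refine le_of_eq ?_
          field_simp
      have hamin : a * ρ ≤ (r i : ℝ) * (c k : ℝ) * FF r c t := by
        have h1 : ∀ S ∈ tabs r c, (S k i : ℝ) * ρ ≤ (r i : ℝ) * (c k : ℝ) := by
          intro S hS
          have e1 := entry_le_row hS k i
          have e2 := entry_le_col hS k i
          have e3 : S k i * max (r i) (c k) ≤ r i * c k := by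
            rcases le_total (r i) (c k) with h | h
            · rw [max_eq_right h]
              exact Nat.mul_le_mul_right _ e1
            · rw [max_eq_left h, mul_comm (r i)]
              exact Nat.mul_le_mul_right _ e2
          rw [hρ]
          exact_mod_cast e3
        rw [ha, Finset.sum_mul]
        unfold FF
        rw [Finset.mul_sum]
        refine Finset.sum_le_sum fun S hS => ?_
        have h2 := mul_le_mul_of_nonneg_right (h1 S hS) (wt_pos ht S).le
        nlinarith [h2]
      have hfirst : ∑ S ∈ tabs r c, (S k i : ℝ) * wt t S * w S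
          ≤ 2 * (t k i * ((r i : ℝ) * (c k : ℝ)) * FF r c t) := by
        have h1 : ∑ S ∈ tabs r c, (S k i : ℝ) * wt t S * w S
            = ∑ S ∈ tabs r c, wt t S * ((S k i : ℝ) * XiP (A S) S t k i) + a * ρ * t k i := by
          rw [ha, Finset.sum_mul, Finset.sum_mul, ← Finset.sum_add_distrib]
          refine Finset.sum_congr rfl fun S _ => ?_
          show (S k i : ℝ) * wt t S * (XiP (A S) S t k i + ρ * t k i) = _
          ring
        rw [h1]
        have h2 := flux_bound ht r c A k i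
        have h3 := mul_le_mul_of_nonneg_right hamin htk.le
        nlinarith [h2, h3]
      have hsecond : ∑ S ∈ tabs r c, wt t S * ((S k i : ℝ) * GP (A S) S t k i)
          = t k i * ∑ S ∈ tabs r c, (S k i : ℝ) * wt t S / w S := by
        rw [Finset.mul_sum]
        refine Finset.sum_congr rfl fun S hS => ?_
        rw [hGPeq S hS]
        ring
      have hGsum : 0 ≤ ∑ S ∈ tabs r c, (S k i : ℝ) * wt t S / w S :=
        Finset.sum_nonneg fun S _ =>
          div_nonneg (mul_nonneg (Nat.cast_nonneg _) (wt_pos ht S).le) (hw S).le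
      have hrc : 0 < (r i : ℝ) * (c k : ℝ) := by
        have h1 : (0 : ℝ) < r i := by exact_mod_cast hi
        have h2 : (0 : ℝ) < c k := by exact_mod_cast hk
        positivity
      have hmain : a ^ 2 ≤ 2 * (t k i * ((r i : ℝ) * (c k : ℝ)) * FF r c t)
          * ∑ S ∈ tabs r c, (S k i : ℝ) * wt t S / w S :=
        hCS.trans (mul_le_mul_of_nonneg_right hfirst hGsum)
      rw [ham, hsecond]
      have h5 : FF r c t * ((a / FF r c t) ^ 2 / ((r i : ℝ) * (c k : ℝ)))
          = a ^ 2 / (FF r c t * ((r i : ℝ) * (c k : ℝ))) := by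
        field_simp
      rw [h5, div_le_iff₀ (mul_pos hF hrc)]
      nlinarith [hmain]
  unfold DD
  rw [Finset.mul_sum]
  have h1 : ∑ j, FF r c t * ∑ i, am r c t j i ^ 2 / ((r i : ℝ) * (c j : ℝ))
      = ∑ j, ∑ i, FF r c t * (am r c t j i ^ 2 / ((r i : ℝ) * (c j : ℝ))) :=
    Finset.sum_congr rfl fun j _ => Finset.mul_sum _ _ _
  rw [h1]
  refine (Finset.sum_le_sum fun k _ => Finset.sum_le_sum fun i _ => hcell k i).trans (le_of_eq ?_)
  have h2 : ∑ S ∈ tabs r c, wt t S * GGP (A S) S t
      = ∑ k, ∑ i, ∑ S ∈ tabs r c, wt t S * ((S k i : ℝ) * GP (A S) S t k i) := by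
    unfold GGP
    simp only [Finset.mul_sum]
    rw [Finset.sum_comm]
    exact Finset.sum_congr rfl fun j _ => Finset.sum_comm
  rw [h2, Finset.mul_sum]
  refine Finset.sum_congr rfl fun k _ => ?_
  rw [Finset.mul_sum]

end Vale.Agent.Lib.P328.Sparse
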