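import Vale.Agent.Lib.P328.Sparse.Defs

/-!
# P328, sparse margins: explicit bounds for the density parameter
-/

namespace Vale.Agent.Lib.P328.Sparse

open Finset

variable {k : ℕ}

/-- Fewer than `a + 1` coordinates have rank at most `a`. -/
theorem card_rk_le (f : Fin k → ℕ) (a : ℕ) : (univ.filter fun i => rk f i ≤ a).card ≤ a := by
  set S := univ.filter fun i => rk f i ≤ a with hS
  by_cases hne : S.Nonempty
  · obtain ⟨i1, hi1, hmin⟩ := S.exists_min_image f hne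
    have h1 : S ⊆ univ.filter fun b => f i1 ≤ f b := fun b hb =>
      mem_filter.2 ⟨mem_univ _, hmin b hb⟩
    refine (card_le_card h1).trans ?_
    exact (mem_filter.1 hi1).2
  · rw [not_nonempty_iff_eq_empty.1 hne]
    simp

/-- The rearrangement bound for rank functions. -/
theorem sum_rank_le (g : ℕ → ℝ) (hg : ∀ a b, 1 ≤ a → a ≤ b → g b ≤ g a)
    (rho : Fin k → ℕ) : ∀ (W : Finset (Fin k)),
      (∀ a, (W.filter fun i => rho i ≤ a).card ≤ a) →
      ∑ i ∈ W, g (rho i) ≤ ∑ a ∈ Finset.Icc 1 W.card, g a := by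
  intro W
  induction hc : W.card generalizing W with
  | zero =>
    intro _
    rw [Finset.card_eq_zero.1 hc]
    simp
  | succ s ih =>
    intro h
    have hne : W.Nonempty := by
      rw [← Finset.card_pos]
      omega
    obtain ⟨i0, hi0, hmax⟩ := W.exists_max_image rho hne
    have hrho : s + 1 ≤ rho i0 := by
      have h1 := h (rho i0)
      have h2 : W.filter (fun i => rho i ≤ rho i0) = W := Finset.filter_true_of_mem hmax
      rw [h2, hc] at h1
      exact h1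
    have hW' : (W.erase i0).card = s := by
      rw [Finset.card_erase_of_mem hi0, hc]
      rfl
    have hih := ih (W.erase i0) hW' (fun a => (Finset.card_le_card (by
      intro b hb
      rw [Finset.mem_filter] at hb ⊢
      exact ⟨Finset.mem_of_mem_erase hb.1, hb.2⟩)).trans (h a))
    rw [← Finset.add_sum_erase W _ hi0, Finset.sum_Icc_succ_top (by omega : 1 ≤ s + 1), add_comm]
    refine add_le_add hih (hg _ _ (by omega) hrho)

/-- The harmonic sum of the inverse shifted ranks. -/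
theorem sum_inv_rank (f : Fin k → ℕ) :
    ∑ i, (f i : ℝ) / ((max (rk f i - 2) 1 : ℕ) : ℝ)
      ≤ ((univ.sup f : ℕ) : ℝ) * (3 * (1 + Real.log ((∑ i, f i : ℕ) : ℝ))) := by
  set W : Finset (Fin k) := univ.filter fun i => 0 < f i with hW
  set g : ℕ → ℝ := fun a => 1 / ((max (a - 2) 1 : ℕ) : ℝ) with hgd
  have hg0 : ∀ a, 0 ≤ g a := fun a => by
    simp only [hgd]
    positivity
  have hg : ∀ a b, 1 ≤ a → a ≤ b → g b ≤ g a := by
    intro a b _ hab
    simp only [hgd]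
    refine one_div_le_one_div_of_le (by
      have : 0 < max (a - 2) 1 := by omega
      exact_mod_cast this) ?_
    exact_mod_cast (by omega : max (a - 2) 1 ≤ max (b - 2) 1)
  have h1 := sum_rank_le g hg (rk f) W (fun a => (Finset.card_le_card (by
    intro b hb
    rw [Finset.mem_filter] at hb ⊢
    exact ⟨mem_univ _, hb.2⟩)).trans (card_rk_le f a))
  have hcardN : W.card ≤ ∑ i, f i := by
    rw [Finset.card_eq_sum_ones]
    calc ∑ _i ∈ W, 1 ≤ ∑ i ∈ W, f i := Finset.sum_le_sum fun i hi => (mem_filter.1 hi).2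
      _ ≤ ∑ i, f i := Finset.sum_le_sum_of_subset (Finset.subset_univ _)
  have h3 : ∑ a ∈ Finset.Icc 1 W.card, g a ≤ 3 * (1 + Real.log ((∑ i, f i : ℕ) : ℝ)) := by
    have e : ∀ a ∈ Finset.Icc 1 W.card, g a ≤ 3 * ((1 : ℝ) / (a : ℝ)) := by
      intro a ha
      obtain ⟨ha1, _⟩ := Finset.mem_Icc.1 ha
      simp only [hgd]
      have ha0 : (0 : ℝ) < a := by exact_mod_cast ha1
      have hm0 : (0 : ℝ) < ((max (a - 2) 1 : ℕ) : ℝ) := by
        have : 0 < max (a - 2) 1 := by omega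
        exact_mod_cast this
      have : a ≤ 3 * max (a - 2) 1 := by omega
      have h2 : (a : ℝ) ≤ 3 * ((max (a - 2) 1 : ℕ) : ℝ) := by exact_mod_cast this
      rw [mul_one_div, div_le_div_iff₀ hm0 ha0]
      linarith
    refine (Finset.sum_le_sum e).trans ?_
    rw [← Finset.mul_sum]
    refine mul_le_mul_of_nonneg_left ?_ (by norm_num)
    have hH := harmonic_le_one_add_log W.card
    have eH : ((harmonic W.card : ℚ) : ℝ) = ∑ p ∈ Finset.Icc 1 W.card, (1 : ℝ) / (p : ℝ) := by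
      rw [harmonic_eq_sum_Icc]
      push_cast
      exact Finset.sum_congr rfl fun p _ => by rw [one_div]
    rw [eH] at hH
    refine hH.trans ?_
    have hlog : Real.log (W.card : ℝ) ≤ Real.log ((∑ i, f i : ℕ) : ℝ) := by
      rcases Nat.eq_zero_or_pos W.card with h0 | h0
      · rw [h0]
        simpa using Real.log_natCast_nonneg (∑ i, f i)
      · exact Real.log_le_log (by exact_mod_cast h0) (by exact_mod_cast hcardN)
    linarith
  have hD : (0 : ℝ) ≤ ((univ.sup f : ℕ) : ℝ) := Nat.cast_nonneg _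
  calc ∑ i, (f i : ℝ) / ((max (rk f i - 2) 1 : ℕ) : ℝ)
      = ∑ i ∈ W, (f i : ℝ) / ((max (rk f i - 2) 1 : ℕ) : ℝ) := by
        symm
        refine Finset.sum_subset (Finset.subset_univ _) fun i _ hi => ?_
        have : f i = 0 := by
          by_contra h
          exact hi (mem_filter.2 ⟨mem_univ _, by omega⟩)
        simp [this]
    _ ≤ ∑ i ∈ W, ((univ.sup f : ℕ) : ℝ) * g (rk f i) := by
        refine Finset.sum_le_sum fun i _ => ?_
        simp only [hgd]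
        rw [mul_one_div]
        refine div_le_div_of_nonneg_right ?_ (by positivity)
        exact_mod_cast Finset.le_sup (f := f) (mem_univ i)
    _ = ((univ.sup f : ℕ) : ℝ) * ∑ i ∈ W, g (rk f i) := by rw [Finset.mul_sum]
    _ ≤ ((univ.sup f : ℕ) : ℝ) * (3 * (1 + Real.log ((∑ i, f i : ℕ) : ℝ))) :=
        mul_le_mul_of_nonneg_left (h1.trans h3) hD

variable {m n : ℕ}

/-- `min x y ^ 2 ≤ x * y` for nonnegative numbers. -/
theorem min_sq_le {x y : ℝ} (hx : 0 ≤ x) (hy : 0 ≤ y) : min x y ^ 2 ≤ x * y := by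
  rcases le_total x y with h | h
  · rw [min_eq_left h]
    nlinarith
  · rw [min_eq_right h]
    nlinarith

theorem Sb_le_prod (r : Fin m → ℕ) (c : Fin n → ℕ) :
    Sb r c ≤ (∑ i, (r i : ℝ) / ((max (rk r i - 2) 1 : ℕ) : ℝ))
      * ∑ j, (c j : ℝ) / ((max (rk c j - 2) 1 : ℕ) : ℝ) := by
  unfold Sb sig
  rw [Finset.sum_mul_sum, Finset.sum_comm]
  refine Finset.sum_le_sum fun j _ => Finset.sum_le_sum fun i _ => ?_
  refine (min_sq_le (by positivity) (by positivity)).trans (le_of_eq ?_)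
  ring

/-- The density parameter in terms of the largest margins and the total. -/
theorem Kp_le_max (r : Fin m → ℕ) (c : Fin n → ℕ) (hsum : ∑ i, r i = ∑ j, c j)
    (hN : 0 < ∑ i, r i) :
    Kp r c ≤ 10 * ((univ.sup r : ℕ) : ℝ) * ((univ.sup c : ℕ) : ℝ)
        * (1 + Real.log ((∑ i, r i : ℕ) : ℝ)) ^ 2 / ((∑ i, r i : ℕ) : ℝ) := by
  unfold Kp
  have hN' : (0 : ℝ) < ((∑ i, r i : ℕ) : ℝ) := by exact_mod_cast hN
  refine div_le_div_of_nonneg_right ?_ hN'.le
  have h1 := Sb_le_prod r c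
  have h2 := sum_inv_rank r
  have h3 := sum_inv_rank c
  rw [← hsum] at h3
  set L := 1 + Real.log ((∑ i, r i : ℕ) : ℝ) with hL
  have hL1 : 1 ≤ L := by
    have := Real.log_natCast_nonneg (∑ i, r i)
    rw [hL]
    linarith
  set Dr : ℝ := ((univ.sup r : ℕ) : ℝ) with hDr
  set Dc : ℝ := ((univ.sup c : ℕ) : ℝ) with hDc
  have hDr0 : 0 ≤ Dr := Nat.cast_nonneg _
  have hDc0 : 0 ≤ Dc := Nat.cast_nonneg _
  have h4 : (∑ i, (r i : ℝ) / ((max (rk r i - 2) 1 : ℕ) : ℝ))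
      * ∑ j, (c j : ℝ) / ((max (rk c j - 2) 1 : ℕ) : ℝ) ≤ (Dr * (3 * L)) * (Dc * (3 * L)) :=
    mul_le_mul h2 h3 (Finset.sum_nonneg fun j _ => by positivity) (by positivity)
  have h5 : ((Dm r c : ℕ) : ℝ) ^ 2 ≤ Dr * Dc := by
    unfold Dm
    have hm1 : ((min (univ.sup r) (univ.sup c) : ℕ) : ℝ) ≤ Dr :=
      Nat.cast_le.2 (min_le_left _ _)
    have hm2 : ((min (univ.sup r) (univ.sup c) : ℕ) : ℝ) ≤ Dc :=
      Nat.cast_le.2 (min_le_right _ _)
    have hm0 : (0 : ℝ) ≤ ((min (univ.sup r) (univ.sup c) : ℕ) : ℝ) := Nat.cast_nonneg _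
    nlinarith
  have h6 : Dr * Dc ≤ Dr * Dc * L ^ 2 := by
    have : 0 ≤ Dr * Dc := mul_nonneg hDr0 hDc0
    have h7 : 1 ≤ L ^ 2 := by nlinarith
    nlinarith
  nlinarith

/-- The density parameter of regular margins. -/
theorem Kp_le_regular (r : Fin m → ℕ) (c : Fin n → ℕ) (hsum : ∑ i, r i = ∑ j, c j)
    (hr : ∀ i i', r i = r i') (hc : ∀ j j', c j = c j') (hm : 3 ≤ m) (hn : 3 ≤ n) :
    Kp r c ≤ 10 * ((∑ i, r i : ℕ) : ℝ) / ((m : ℝ) * (n : ℝ)) := by
  set i0 : Fin m := ⟨0, by omega⟩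
  set j0 : Fin n := ⟨0, by omega⟩
  set R : ℕ := r i0 with hR
  set C : ℕ := c j0 with hC
  have hrR : ∀ i, r i = R := fun i => hr i i0
  have hcC : ∀ j, c j = C := fun j => hc j j0
  have hsr : ∑ i, r i = m * R := by
    simp [hrR]
  have hsc : ∑ j, c j = n * C := by
    simp [hcC]
  have hrkr : ∀ i, rk r i = m := fun i => by
    unfold rk
    simp [hrR]
  have hrkc : ∀ j, rk c j = n := fun j => by
    unfold rk
    simp [hcC]
  have hm0 : (0 : ℝ) < (m : ℝ) := by exact_mod_cast (by omega : 0 < m)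
  have hn0 : (0 : ℝ) < (n : ℝ) := by exact_mod_cast (by omega : 0 < n)
  have hMm : ((max (m - 2) 1 : ℕ) : ℝ) * 3 ≥ (m : ℝ) := by
    have : m ≤ max (m - 2) 1 * 3 := by omega
    exact_mod_cast this
  have hMn : ((max (n - 2) 1 : ℕ) : ℝ) * 3 ≥ (n : ℝ) := by
    have : n ≤ max (n - 2) 1 * 3 := by omega
    exact_mod_cast this
  have hA0 : (0 : ℝ) < ((max (m - 2) 1 : ℕ) : ℝ) := by
    have : 0 < max (m - 2) 1 := by omega
    exact_mod_cast this
  have hB0 : (0 : ℝ) < ((max (n - 2) 1 : ℕ) : ℝ) := by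
    have : 0 < max (n - 2) 1 := by omega
    exact_mod_cast this
  set A : ℝ := ((max (m - 2) 1 : ℕ) : ℝ) with hA
  set B : ℝ := ((max (n - 2) 1 : ℕ) : ℝ) with hB
  have hR0 : (0 : ℝ) ≤ (R : ℝ) := Nat.cast_nonneg _
  have hC0 : (0 : ℝ) ≤ (C : ℝ) := Nat.cast_nonneg _
  have hMR : (m : ℝ) * (R : ℝ) = (n : ℝ) * (C : ℝ) := by
    have : m * R = n * C := by rw [← hsr, ← hsc, hsum]
    exact_mod_cast this
  -- the sum of the squares
  have hSb : Sb r c ≤ 9 * (R : ℝ) * (C : ℝ) := by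
    have h1 := Sb_le_prod r c
    have e1 : ∑ i, (r i : ℝ) / ((max (rk r i - 2) 1 : ℕ) : ℝ) = (m : ℝ) * ((R : ℝ) / A) := by
      simp [hrR, hrkr, hA]
    have e2 : ∑ j, (c j : ℝ) / ((max (rk c j - 2) 1 : ℕ) : ℝ) = (n : ℝ) * ((C : ℝ) / B) := by
      simp [hcC, hrkc, hB]
    rw [e1, e2] at h1
    refine h1.trans ?_
    have h2 : (m : ℝ) * ((R : ℝ) / A) ≤ 3 * (R : ℝ) := by
      rw [mul_div_assoc', div_le_iff₀ hA0]
      nlinarith
    have h3 : (n : ℝ) * ((C : ℝ) / B) ≤ 3 * (C : ℝ) := by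
      rw [mul_div_assoc', div_le_iff₀ hB0]
      nlinarith
    calc (m : ℝ) * ((R : ℝ) / A) * ((n : ℝ) * ((C : ℝ) / B)) ≤ (3 * (R : ℝ)) * (3 * (C : ℝ)) :=
          mul_le_mul h2 h3 (by positivity) (by positivity)
      _ = 9 * (R : ℝ) * (C : ℝ) := by ring
  have hDm : ((Dm r c : ℕ) : ℝ) ^ 2 ≤ (R : ℝ) * (C : ℝ) := by
    have h1 : Dm r c ≤ univ.sup r := min_le_left _ _
    have h2 : Dm r c ≤ univ.sup c := min_le_right _ _
    have h3 : univ.sup r ≤ R := Finset.sup_le fun i _ => (hrR i).le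
    have h4 : univ.sup c ≤ C := Finset.sup_le fun j _ => (hcC j).le
    have h5 : ((Dm r c : ℕ) : ℝ) ≤ (R : ℝ) := by exact_mod_cast h1.trans h3
    have h6 : ((Dm r c : ℕ) : ℝ) ≤ (C : ℝ) := by exact_mod_cast h2.trans h4
    have h7 : (0 : ℝ) ≤ ((Dm r c : ℕ) : ℝ) := Nat.cast_nonneg _
    nlinarith
  unfold Kp
  have hNr : ((∑ i, r i : ℕ) : ℝ) = (m : ℝ) * (R : ℝ) := by
    rw [hsr]
    push_cast
    rfl
  by_cases hR1 : (R : ℝ) = 0
  · -- all margins vanish
    have hC1 : (C : ℝ) = 0 := by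
      have : (n : ℝ) * (C : ℝ) = 0 := by rw [← hMR, hR1, mul_zero]
      exact (mul_eq_zero.1 this).resolve_left hn0.ne'
    have h1 : Sb r c ≤ 0 := by
      rw [hR1] at hSb
      simpa using hSb
    have h2 : ((Dm r c : ℕ) : ℝ) ^ 2 ≤ 0 := by
      rw [hR1] at hDm
      simpa using hDm
    rw [hNr, hR1]
    simp
  · have hRpos : (0 : ℝ) < (R : ℝ) := lt_of_le_of_ne hR0 (Ne.symm hR1)
    rw [hNr, div_le_div_iff₀ (by positivity) (by positivity)]
    have key : (Sb r c + ((Dm r c : ℕ) : ℝ) ^ 2) ≤ 10 * (R : ℝ) * (C : ℝ) := by linarith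
    have : (Sb r c + ((Dm r c : ℕ) : ℝ) ^ 2) * ((m : ℝ) * (n : ℝ))
        ≤ 10 * (R : ℝ) * (C : ℝ) * ((m : ℝ) * (n : ℝ)) :=
      mul_le_mul_of_nonneg_right key (by positivity)
    calc (Sb r c + ((Dm r c : ℕ) : ℝ) ^ 2) * ((m : ℝ) * (n : ℝ))
        ≤ 10 * (R : ℝ) * (C : ℝ) * ((m : ℝ) * (n : ℝ)) := this
      _ = 10 * ((m : ℝ) * (R : ℝ)) * ((m : ℝ) * (R : ℝ)) := by
          have : (n : ℝ) * (C : ℝ) = (m : ℝ) * (R : ℝ) := hMR.symm
          calc 10 * (R : ℝ) * (C : ℝ) * ((m : ℝ) * (n : ℝ))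
              = 10 * ((m : ℝ) * (R : ℝ)) * ((n : ℝ) * (C : ℝ)) := by ring
            _ = _ := by rw [this]

end Vale.Agent.Lib.P328.Sparse
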