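import Vale.Agent.Lib.P328.Cap.Sym

/-!
# P328, sparse margins: definitions

Tables are written by columns as in `Vale.Agent.Lib.P328.Cap`: `T j i` is the entry in column `j`
and row `i`, and `t j i` the matching entry of the coefficient matrix.
-/

namespace Vale.Agent.Lib.P328.Sparse

open Finset MeasureTheory Vale.Agent.Lib.P328.Cap
open scoped ENNReal Nat

variable {m n : ℕ}

/-- The weight `∏ t ^ T / T !` of a table. -/
noncomputable def wt (t : Fin n → Fin m → ℝ) (T : Fin n → Fin m → ℕ) : ℝ :=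
  ∏ j, ∏ i, (t j i ^ T j i / ((T j i)! : ℝ))

/-- The weighted count of tables. -/
noncomputable def FF (r : Fin m → ℕ) (c : Fin n → ℕ) (t : Fin n → Fin m → ℝ) : ℝ :=
  ∑ T ∈ tabs r c, wt t T

/-- Decrease one coordinate (natural subtraction). -/
def dec {k : ℕ} (f : Fin k → ℕ) (a : Fin k) : Fin k → ℕ := Function.update f a (f a - 1)

/-- Add one to a cell. -/
def bump (T : Fin n → Fin m → ℕ) (j : Fin n) (i : Fin m) : Fin n → Fin m → ℕ :=
  Function.update T j (Function.update (T j) i (T j i + 1))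

/-- The capacity as a real number. -/
noncomputable def capR (r : Fin m → ℕ) (c : Fin n → ℕ) (t : Fin n → Fin m → ℝ) : ℝ :=
  (capa r c t).toReal

/-- `log K`, `K = ∏ r_i ! F / (cap * beta)`. -/
noncomputable def LK (r : Fin m → ℕ) (c : Fin n → ℕ) (t : Fin n → Fin m → ℝ) : ℝ :=
  Real.log ((∏ i, (((r i)! : ℕ) : ℝ)) * FF r c t) - Real.log (capR r c t) - Real.log (betaC c)

/-- The mean table under the weights `wt t`. -/
noncomputable def am (r : Fin m → ℕ) (c : Fin n → ℕ) (t : Fin n → Fin m → ℝ) (j : Fin n) (i : Fin m) :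
    ℝ :=
  (∑ T ∈ tabs r c, (T j i : ℝ) * wt t T) / FF r c t

/-- `∑ abar ^ 2 / (r c)` (division by zero gives `0`). -/
noncomputable def DD (r : Fin m → ℕ) (c : Fin n → ℕ) (t : Fin n → Fin m → ℝ) : ℝ :=
  ∑ j, ∑ i, am r c t j i ^ 2 / ((r i : ℝ) * (c j : ℝ))

/-- The partner sum of the switching inequality, over the partner cells in `A`. -/
noncomputable def XiP (A : Finset (Fin n × Fin m)) (S : Fin n → Fin m → ℕ)
    (t : Fin n → Fin m → ℝ) (k : Fin n) (i : Fin m) : ℝ :=
  ∑ p ∈ A, if p.1 ≠ k ∧ p.2 ≠ i then (S p.1 p.2 : ℝ) * (t p.1 i * t k p.2 / t p.1 p.2) else 0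

/-- Row sum of a table. -/
def rowS (S : Fin n → Fin m → ℕ) (i : Fin m) : ℕ := ∑ j, S j i

/-- Column sum of a table. -/
def colS (S : Fin n → Fin m → ℕ) (k : Fin n) : ℕ := ∑ i, S k i

/-- The total of a table. -/
def totS (S : Fin n → Fin m → ℕ) : ℕ := ∑ j, ∑ i, S j i

/-- The regularised reciprocal of the partner sum. -/
noncomputable def GP (A : Finset (Fin n × Fin m)) (S : Fin n → Fin m → ℕ)
    (t : Fin n → Fin m → ℝ) (k : Fin n) (i : Fin m) : ℝ :=
  t k i / (XiP A S t k i + ((max (rowS S i) (colS S k) : ℕ) : ℝ) * t k i)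

/-- The sum over cells of `S * GP`. -/
noncomputable def GGP (A : Finset (Fin n × Fin m)) (S : Fin n → Fin m → ℕ)
    (t : Fin n → Fin m → ℝ) : ℝ :=
  ∑ k, ∑ i, (S k i : ℝ) * GP A S t k i

/-- The cells with entry below `p`. -/
def lightSet (T : Fin n → Fin m → ℕ) (p : ℕ) : Finset (Fin n × Fin m) :=
  univ.filter fun q => T q.1 q.2 < p

/-- The sub-tables of `T`. -/
def boxT (T : Fin n → Fin m → ℕ) : Finset (Fin n → Fin m → ℕ) :=
  Fintype.piFinset fun j => Fintype.piFinset fun i => range (T j i + 1)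

/-- The sub-tables of `T` with total `p`. -/
def subLev (T : Fin n → Fin m → ℕ) (p : ℕ) : Finset (Fin n → Fin m → ℕ) :=
  (boxT T).filter fun S => totS S = p

/-- The number of ways to choose the sub-table `S` out of the units of `T`. -/
def cp (T S : Fin n → Fin m → ℕ) : ℕ := ∏ j, ∏ i, (T j i).choose (S j i)

/-- Tables of total at most the margins, with total `q`: the removed part. -/
def Ylev (r : Fin m → ℕ) (c : Fin n → ℕ) (q : ℕ) : Finset (Fin n → Fin m → ℕ) :=
  (Fintype.piFinset fun _ => Fintype.piFinset fun i => range (r i + 1)).filter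
    fun Y => (∀ i, rowS Y i ≤ r i) ∧ (∀ j, colS Y j ≤ c j) ∧ totS Y = q

/-- Residual row sums. -/
def resR (r : Fin m → ℕ) (Y : Fin n → Fin m → ℕ) (i : Fin m) : ℕ := r i - rowS Y i

/-- Residual column sums. -/
def resC (c : Fin n → ℕ) (Y : Fin n → Fin m → ℕ) (j : Fin n) : ℕ := c j - colS Y j

/-- The event of the second moment argument. -/
def Good (T S : Fin n → Fin m → ℕ) (p : ℕ) : Prop :=
  2 * (∑ j, ∑ i, if p ≤ T j i then S j i else 0) ≤ p ∧ (∀ i, 16 * rowS S i ≤ p) ∧
    ∀ j, 16 * colS S j ≤ p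

instance (T S : Fin n → Fin m → ℕ) (p : ℕ) : Decidable (Good T S p) := by
  unfold Good
  infer_instance

/-- The mean of `1 + T` over the units of `S` in light cells (normalised by `p`). -/
noncomputable def Wl (T S : Fin n → Fin m → ℕ) (p : ℕ) : ℝ :=
  (∑ j, ∑ i, if T j i < p then (S j i : ℝ) * (1 + (T j i : ℝ)) else 0) / (p : ℝ)

/-- The mass of `S` in heavy cells. -/
noncomputable def Hv (T S : Fin n → Fin m → ℕ) (p : ℕ) : ℝ :=
  ∑ j, ∑ i, if p ≤ T j i then (S j i : ℝ) else 0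

/-- The quadratic mean statistic of a table, `∑ T (1 + T) / N`. -/
noncomputable def Qt (T : Fin n → Fin m → ℕ) : ℝ :=
  (∑ j, ∑ i, (T j i : ℝ) * (1 + (T j i : ℝ))) / (totS T : ℝ)

/-- The squared mass `∑ T ^ 2`. -/
noncomputable def f2 (T : Fin n → Fin m → ℕ) : ℝ := ∑ j, ∑ i, (T j i : ℝ) ^ 2

/-- Number of coordinates at least as large as coordinate `a`. -/
def rk {k : ℕ} (f : Fin k → ℕ) (a : Fin k) : ℕ := (univ.filter fun b => f a ≤ f b).card

/-- The cell scale: `min (c j / max (a i - 2) 1, r i / max (b j - 2) 1)`, where `a i`, `b j` are the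
ranks of the row `i` and of the column `j`. -/
noncomputable def sig (r : Fin m → ℕ) (c : Fin n → ℕ) (j : Fin n) (i : Fin m) : ℝ :=
  min ((c j : ℝ) / ((max (rk r i - 2) 1 : ℕ) : ℝ)) ((r i : ℝ) / ((max (rk c j - 2) 1 : ℕ) : ℝ))

/-- The sum of the squared cell scales. -/
noncomputable def Sb (r : Fin m → ℕ) (c : Fin n → ℕ) : ℝ := ∑ j, ∑ i, sig r c j i ^ 2

/-- `min (max r, max c)`: every entry of every table is at most this. -/
def Dm (r : Fin m → ℕ) (c : Fin n → ℕ) : ℕ :=
  min (univ.sup r) (univ.sup c)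

/-- The density parameter of the margins. -/
noncomputable def Kp (r : Fin m → ℕ) (c : Fin n → ℕ) : ℝ :=
  (Sb r c + (Dm r c : ℝ) ^ 2) / ((∑ i, r i : ℕ) : ℝ)

end Vale.Agent.Lib.P328.Sparse
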