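import Vale.Agent.Lib.P328.Sparse.Defs

/-!
# P328, sparse margins: moments of a random sub-table

The number of ways to pick a sub-table `S` of total `p` out of the units of `T` is `cp T S`, and the
sums of `cp T S` against polynomials in the entries of `S` are coefficients of products of powers
of `1 + X`.
-/

namespace Vale.Agent.Lib.P328.Sparse

open Finset MeasureTheory Vale.Agent.Lib.P328.Cap
open scoped ENNReal Nat

variable {m n : ℕ}

/-- The generating polynomial of one cell with a weight on the chosen number of units. -/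
noncomputable def gfH (t : ℕ) (w : ℕ → ℝ) : Polynomial ℝ :=
  ∑ k ∈ range (t + 1), Polynomial.C (((t.choose k : ℕ) : ℝ) * w k) * Polynomial.X ^ k

theorem coeff_gfH (t : ℕ) (w : ℕ → ℝ) (k : ℕ) :
    (gfH t w).coeff k = ((t.choose k : ℕ) : ℝ) * w k := by
  unfold gfH
  rw [Polynomial.finsetSum_coeff]
  simp only [Polynomial.coeff_C_mul_X_pow]
  rw [Finset.sum_ite_eq]
  by_cases hk : k ∈ range (t + 1)
  · rw [if_pos hk]
  · rw [if_neg hk]
    have : t < k := by
      simp only [mem_range, not_lt] at hk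
      omega
    rw [Nat.choose_eq_zero_of_lt this]
    simp

/-- The generating function of the whole table. -/
theorem prod_gfH (T : Fin n → Fin m → ℕ) (w : Fin n → Fin m → ℕ → ℝ) :
    ∏ j, ∏ i, gfH (T j i) (w j i)
      = ∑ S ∈ boxT T, Polynomial.C ((cp T S : ℝ) * ∏ j, ∏ i, w j i (S j i))
          * Polynomial.X ^ totS S := by
  unfold gfH boxT
  simp_rw [Finset.prod_univ_sum]
  refine Finset.sum_congr rfl fun S _ => ?_
  simp only [Finset.prod_mul_distrib, Polynomial.C_mul, map_prod, Finset.prod_pow_eq_pow_sum, cp,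
    totS]
  push_cast
  simp only [map_prod]

theorem sum_subLev_eq_coeff (T : Fin n → Fin m → ℕ) (p : ℕ) (w : Fin n → Fin m → ℕ → ℝ) :
    ∑ S ∈ subLev T p, (cp T S : ℝ) * ∏ j, ∏ i, w j i (S j i)
      = (∏ j, ∏ i, gfH (T j i) (w j i)).coeff p := by
  rw [prod_gfH, Polynomial.finsetSum_coeff]
  simp only [Polynomial.coeff_C_mul_X_pow]
  unfold subLev
  rw [Finset.sum_filter]
  refine Finset.sum_congr rfl fun S _ => ?_
  by_cases h : totS S = p
  · rw [if_pos h, if_pos h.symm]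
  · rw [if_neg h, if_neg (Ne.symm h)]

/-- `1 + X`. -/
noncomputable def rH : Polynomial ℝ := 1 + Polynomial.X

theorem rH_ne : rH ≠ 0 := by
  unfold rH
  intro h
  have := congrArg (fun P => Polynomial.coeff P 1) h
  simp [Polynomial.coeff_one] at this

theorem coeff_rH_pow (N k : ℕ) : (rH ^ N).coeff k = ((N.choose k : ℕ) : ℝ) := by
  unfold rH
  rw [Polynomial.coeff_one_add_X_pow]

theorem gfH_one (t : ℕ) : gfH t (fun _ => 1) = rH ^ t := by
  ext k
  rw [coeff_gfH, coeff_rH_pow, mul_one]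

theorem gfH_id (s : ℕ) :
    gfH (s + 1) (fun k => (k : ℝ)) = Polynomial.C ((s : ℝ) + 1) * Polynomial.X * rH ^ s := by
  ext k
  rw [coeff_gfH]
  cases k with
  | zero => simp [Polynomial.mul_coeff_zero]
  | succ k =>
    rw [mul_assoc (Polynomial.C _), Polynomial.coeff_C_mul, Polynomial.coeff_X_mul, coeff_rH_pow]
    have h := Nat.add_one_mul_choose_eq s k
    have h2 : (((s + 1 : ℕ) : ℝ)) * ((s.choose k : ℕ) : ℝ)
        = (((s + 1).choose (k + 1) : ℕ) : ℝ) * ((k + 1 : ℕ) : ℝ) := by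
      exact_mod_cast h
    push_cast at h2 ⊢
    linarith

theorem gfH_id_mul (t : ℕ) :
    gfH t (fun k => (k : ℝ)) * rH = Polynomial.C (t : ℝ) * Polynomial.X * rH ^ t := by
  cases t with
  | zero => simp [gfH]
  | succ s =>
    rw [gfH_id, pow_succ]
    push_cast
    ring

theorem gfH_fall (t : ℕ) :
    gfH t (fun k => (k : ℝ) * ((k : ℝ) - 1)) * rH ^ 2
      = Polynomial.C ((t : ℝ) * ((t : ℝ) - 1)) * Polynomial.X ^ 2 * rH ^ t := by
  match t with
  | 0 => simp [gfH]
  | 1 =>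
    simp [gfH, Finset.sum_range_succ]
  | s + 2 =>
    have h0 : gfH (s + 2) (fun k => (k : ℝ) * ((k : ℝ) - 1))
        = Polynomial.C (((s : ℝ) + 2) * ((s : ℝ) + 1)) * Polynomial.X ^ 2 * rH ^ s := by
      ext k
      rw [coeff_gfH]
      match k with
      | 0 => simp [Polynomial.mul_coeff_zero]
      | 1 =>
        have h9 : (Polynomial.X ^ 2 * rH ^ s : Polynomial ℝ).coeff 1 = 0 := by
          rw [pow_two, mul_assoc, Polynomial.coeff_X_mul, Polynomial.coeff_X_mul_zero]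
        rw [mul_assoc (Polynomial.C _), Polynomial.coeff_C_mul, h9]
        simp
      | k + 2 =>
        rw [mul_assoc (Polynomial.C _), Polynomial.coeff_C_mul, Polynomial.coeff_X_pow_mul,
          coeff_rH_pow]
        have h1 := Nat.add_one_mul_choose_eq (s + 1) (k + 1)
        have h2 := Nat.add_one_mul_choose_eq s k
        have h3 : (((s + 2 : ℕ) : ℝ)) * (((s + 1).choose (k + 1) : ℕ) : ℝ)
            = (((s + 2).choose (k + 2) : ℕ) : ℝ) * ((k + 2 : ℕ) : ℝ) := by
          exact_mod_cast h1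
        have h4 : (((s + 1 : ℕ) : ℝ)) * ((s.choose k : ℕ) : ℝ)
            = (((s + 1).choose (k + 1) : ℕ) : ℝ) * ((k + 1 : ℕ) : ℝ) := by
          exact_mod_cast h2
        push_cast at h3 h4 ⊢
        have h5 : (((s + 2).choose (k + 2) : ℕ) : ℝ) * ((k : ℝ) + 2) * ((k : ℝ) + 1)
            = ((s : ℝ) + 2) * (((s : ℝ) + 1) * ((s.choose k : ℕ) : ℝ)) := by
          rw [h4, ← mul_assoc, h3]
        linear_combination h5
    have h6 : ((s + 2 : ℕ) : ℝ) * (((s + 2 : ℕ) : ℝ) - 1) = ((s : ℝ) + 2) * ((s : ℝ) + 1) := by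
      push_cast
      ring
    rw [h0, h6, pow_add rH s 2]
    ring

/-! ### Products with few marked cells -/

theorem prod_double_eq (g : Fin n → Fin m → Polynomial ℝ) :
    ∏ j, ∏ i, g j i = ∏ q : Fin n × Fin m, g q.1 q.2 :=
  (Fintype.prod_prod_type' g).symm

theorem totS_eq_sum_cell (T : Fin n → Fin m → ℕ) : totS T = ∑ q : Fin n × Fin m, T q.1 q.2 :=
  (Fintype.sum_prod_type' T).symm

/-- A product in which only the cells of `A` carry a weight. -/
theorem prod_gfH_marked (T : Fin n → Fin m → ℕ) (w : Fin n × Fin m → ℕ → ℝ)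
    (A : Finset (Fin n × Fin m)) (hw : ∀ q, q ∉ A → w q = fun _ => 1) :
    (∏ q : Fin n × Fin m, gfH (T q.1 q.2) (w q)) * ∏ q ∈ A, rH ^ T q.1 q.2
      = (∏ q ∈ A, gfH (T q.1 q.2) (w q)) * rH ^ totS T := by
  have h1 : ∏ q : Fin n × Fin m, gfH (T q.1 q.2) (w q)
      = (∏ q ∈ A, gfH (T q.1 q.2) (w q)) * ∏ q ∈ Aᶜ, rH ^ T q.1 q.2 := by
    rw [← Finset.prod_mul_prod_compl A]
    congr 1
    refine Finset.prod_congr rfl fun q hq => ?_
    rw [hw q (by simpa using hq), gfH_one]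
  have h2 : rH ^ totS T = (∏ q ∈ A, rH ^ T q.1 q.2) * ∏ q ∈ Aᶜ, rH ^ T q.1 q.2 := by
    rw [Finset.prod_mul_prod_compl, Finset.prod_pow_eq_pow_sum, totS_eq_sum_cell]
  rw [h1, h2]
  ring

/-- Sum over sub-tables against a weight given by cells. -/
theorem sum_subLev_cell (T : Fin n → Fin m → ℕ) (p : ℕ) (w : Fin n × Fin m → ℕ → ℝ) :
    ∑ S ∈ subLev T p, (cp T S : ℝ) * ∏ q : Fin n × Fin m, w q (S q.1 q.2)
      = (∏ q : Fin n × Fin m, gfH (T q.1 q.2) (w q)).coeff p := by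
  have h := sum_subLev_eq_coeff T p (fun j i => w (j, i))
  simp only [prod_double_eq] at h
  have h2 : ∀ S : Fin n → Fin m → ℕ, ∏ j, ∏ i, w (j, i) (S j i)
      = ∏ q : Fin n × Fin m, w q (S q.1 q.2) := fun S =>
    (Fintype.prod_prod_type' (fun j i => w (j, i) (S j i))).symm
  simp only [h2] at h
  exact h

/-- Vandermonde, real form. -/
theorem sum_cp_real (T : Fin n → Fin m → ℕ) (p : ℕ) :
    ∑ S ∈ subLev T p, (cp T S : ℝ) = (((totS T).choose p : ℕ) : ℝ) := by
  have h := sum_subLev_cell T p (fun _ _ => 1)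
  simp only [Finset.prod_const_one, mul_one] at h
  rw [h]
  have h2 : ∏ q : Fin n × Fin m, gfH (T q.1 q.2) (fun _ => 1) = rH ^ totS T := by
    simp only [gfH_one]
    rw [Finset.prod_pow_eq_pow_sum, totS_eq_sum_cell]
  rw [h2, coeff_rH_pow]

/-- Vandermonde. -/
theorem sum_cp (T : Fin n → Fin m → ℕ) (p : ℕ) :
    ∑ S ∈ subLev T p, cp T S = (totS T).choose p := by
  have h := sum_cp_real T p
  exact_mod_cast h

/-- One marked cell: the sum is a coefficient of `t X (1 + X) ^ (N - 1)`. -/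
theorem coeff_one_mark (T : Fin n → Fin m → ℕ) (hT : 0 < totS T) (c : Fin n × Fin m) :
    (∏ q : Fin n × Fin m, gfH (T q.1 q.2) (fun k => if q = c then (k : ℝ) else 1))
      = Polynomial.C (T c.1 c.2 : ℝ) * Polynomial.X * rH ^ (totS T - 1) := by
  have h := prod_gfH_marked T (fun q k => if q = c then (k : ℝ) else 1) {c} (by
    intro q hq
    funext k
    have : q ≠ c := by simpa using hq
    simp [this])
  simp only [Finset.prod_singleton, if_true] at h
  have h3 : rH ^ totS T = rH ^ (totS T - 1) * rH := by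
    rw [← pow_succ]
    congr 1
    omega
  have h4 := gfH_id_mul (T c.1 c.2)
  have hne : rH ^ T c.1 c.2 * rH ≠ 0 := mul_ne_zero (pow_ne_zero _ rH_ne) rH_ne
  refine mul_right_cancel₀ hne ?_
  calc _ = ((∏ q : Fin n × Fin m, gfH (T q.1 q.2) (fun k => if q = c then (k : ℝ) else 1))
          * rH ^ T c.1 c.2) * rH := by ring
    _ = gfH (T c.1 c.2) (fun k => (k : ℝ)) * rH ^ totS T * rH := by rw [h]
    _ = (gfH (T c.1 c.2) (fun k => (k : ℝ)) * rH) * rH ^ totS T := by ring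
    _ = _ := by
      rw [h4, h3]
      ring

theorem coeff_CXpow (a : ℝ) (M p : ℕ) :
    (Polynomial.C a * Polynomial.X * rH ^ M).coeff (p + 1) = a * ((M.choose p : ℕ) : ℝ) := by
  rw [mul_assoc, Polynomial.coeff_C_mul, Polynomial.coeff_X_mul, coeff_rH_pow]

theorem coeff_CXpow_zero (a : ℝ) (M : ℕ) :
    (Polynomial.C a * Polynomial.X * rH ^ M).coeff 0 = 0 := by
  rw [mul_assoc, Polynomial.coeff_C_mul, Polynomial.coeff_X_mul_zero, mul_zero]

theorem prod_mark_eq (S : Fin n → Fin m → ℕ) (c : Fin n × Fin m) :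
    ∏ q : Fin n × Fin m, (if q = c then (S q.1 q.2 : ℝ) else 1) = (S c.1 c.2 : ℝ) := by
  rw [Finset.prod_ite_eq' univ c]
  simp

/-- First moment. -/
theorem sum_cp_one (T : Fin n → Fin m → ℕ) (p : ℕ) (hT : 0 < totS T) (j : Fin n) (i : Fin m) :
    ∑ S ∈ subLev T p, (cp T S : ℝ) * (S j i : ℝ)
      = (((totS T).choose p : ℕ) : ℝ) * ((p : ℝ) / (totS T : ℝ) * (T j i : ℝ)) := by
  have h := sum_subLev_cell T p (fun q k => if q = (j, i) then (k : ℝ) else 1)
  simp only [prod_mark_eq] at h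
  rw [h, coeff_one_mark T hT (j, i)]
  cases p with
  | zero =>
    rw [coeff_CXpow_zero]
    simp
  | succ p =>
    rw [coeff_CXpow]
    obtain ⟨N, hN⟩ : ∃ N, totS T = N + 1 := ⟨totS T - 1, by omega⟩
    rw [hN]
    simp only [Nat.add_sub_cancel]
    have h1 := Nat.add_one_mul_choose_eq N p
    have h2 : (((N + 1 : ℕ) : ℝ)) * ((N.choose p : ℕ) : ℝ)
        = (((N + 1).choose (p + 1) : ℕ) : ℝ) * ((p + 1 : ℕ) : ℝ) := by
      exact_mod_cast h1
    have hN0 : ((N + 1 : ℕ) : ℝ) ≠ 0 := by positivity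
    field_simp
    linear_combination (T j i : ℝ) * h2

/-- The coefficient bound used for the second moments. -/
theorem coeff_fall_bound (a : ℝ) (ha : 0 ≤ a) (N p : ℕ) (hp : p ≤ N) (hN : 0 < N)
    (P : Polynomial ℝ)
    (hP : P * rH ^ 2 = Polynomial.C a * Polynomial.X ^ 2 * rH ^ N) (hN2 : N < 2 → a = 0) :
    P.coeff p ≤ ((N.choose p : ℕ) : ℝ) * (((p : ℝ) / (N : ℝ)) ^ 2 * a) := by
  have hNpos : (0 : ℝ) < (N : ℝ) := by exact_mod_cast hN
  by_cases h2 : N < 2
  · have ha0 := hN2 h2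
    subst ha0
    have h0 : P = 0 := by
      have h3 : P * rH ^ 2 = 0 := by rw [hP]; simp
      rcases mul_eq_zero.1 h3 with h4 | h4
      · exact h4
      · exact absurd h4 (pow_ne_zero _ rH_ne)
    rw [h0]
    simp
  · obtain ⟨M, rfl⟩ : ∃ M, N = M + 2 := ⟨N - 2, by omega⟩
    have h3 : P = Polynomial.C a * Polynomial.X ^ 2 * rH ^ M := by
      refine mul_right_cancel₀ (pow_ne_zero 2 rH_ne) ?_
      rw [hP, pow_add rH M 2]
      ring
    rw [h3, mul_assoc (Polynomial.C a), Polynomial.coeff_C_mul]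
    match p, hp with
    | 0, _ =>
      have : (Polynomial.X ^ 2 * rH ^ M : Polynomial ℝ).coeff 0 = 0 := by
        rw [pow_two, mul_assoc, Polynomial.coeff_X_mul_zero]
      rw [this, mul_zero]
      positivity
    | 1, _ =>
      have : (Polynomial.X ^ 2 * rH ^ M : Polynomial ℝ).coeff 1 = 0 := by
        rw [pow_two, mul_assoc, Polynomial.coeff_X_mul, Polynomial.coeff_X_mul_zero]
      rw [this, mul_zero]
      positivity
    | q + 2, hq =>
      rw [Polynomial.coeff_X_pow_mul, coeff_rH_pow]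
      have hq' : q ≤ M := by omega
      have h1 := Nat.add_one_mul_choose_eq (M + 1) (q + 1)
      have h4 := Nat.add_one_mul_choose_eq M q
      have h5 : (((M + 2 : ℕ) : ℝ)) * (((M + 1).choose (q + 1) : ℕ) : ℝ)
          = (((M + 2).choose (q + 2) : ℕ) : ℝ) * ((q + 2 : ℕ) : ℝ) := by
        exact_mod_cast h1
      have h6 : (((M + 1 : ℕ) : ℝ)) * ((M.choose q : ℕ) : ℝ)
          = (((M + 1).choose (q + 1) : ℕ) : ℝ) * ((q + 1 : ℕ) : ℝ) := by
        exact_mod_cast h4
      push_cast at h5 h6 ⊢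
      have hqM : (q : ℝ) ≤ (M : ℝ) := by exact_mod_cast hq'
      set C1 : ℝ := ((M.choose q : ℕ) : ℝ) with hC1
      set C2 : ℝ := (((M + 1).choose (q + 1) : ℕ) : ℝ) with hC2
      set C3 : ℝ := (((M + 2).choose (q + 2) : ℕ) : ℝ) with hC3
      have hC1n : 0 ≤ C1 := by positivity
      have hC3n : 0 ≤ C3 := by positivity
      have hM1 : (0 : ℝ) < (M : ℝ) + 1 := by positivity
      have hM2 : (0 : ℝ) < (M : ℝ) + 2 := by positivity
      -- `C3 (q+2) (q+1) = (M+2) (M+1) C1`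
      have h7 : C3 * ((q : ℝ) + 2) * ((q : ℝ) + 1) = ((M : ℝ) + 2) * (((M : ℝ) + 1) * C1) := by
        rw [h6, ← mul_assoc, h5]
      have h8 : C1 ≤ C3 * (((q : ℝ) + 2) / ((M : ℝ) + 2)) ^ 2 := by
        have h9 : C1 = C3 * ((q : ℝ) + 2) * ((q : ℝ) + 1) / (((M : ℝ) + 2) * ((M : ℝ) + 1)) := by
          rw [h7]
          field_simp
        rw [h9]
        rw [div_pow, mul_div_assoc', mul_assoc C3, div_le_div_iff₀ (by positivity) (by positivity)]
        have h10 : ((q : ℝ) + 2) * ((q : ℝ) + 1) * ((M : ℝ) + 2) ^ 2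
            ≤ ((q : ℝ) + 2) ^ 2 * (((M : ℝ) + 2) * ((M : ℝ) + 1)) := by
          have : ((q : ℝ) + 1) * ((M : ℝ) + 2) ≤ ((q : ℝ) + 2) * ((M : ℝ) + 1) := by nlinarith
          have hh : (0 : ℝ) ≤ ((q : ℝ) + 2) * ((M : ℝ) + 2) := by positivity
          nlinarith [mul_le_mul_of_nonneg_left this hh]
        calc C3 * (((q : ℝ) + 2) * ((q : ℝ) + 1)) * ((M : ℝ) + 2) ^ 2
            = C3 * (((q : ℝ) + 2) * ((q : ℝ) + 1) * ((M : ℝ) + 2) ^ 2) := by ring
          _ ≤ C3 * (((q : ℝ) + 2) ^ 2 * (((M : ℝ) + 2) * ((M : ℝ) + 1))) :=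
            mul_le_mul_of_nonneg_left h10 hC3n
          _ = _ := by ring
      calc a * C1 ≤ a * (C3 * (((q : ℝ) + 2) / ((M : ℝ) + 2)) ^ 2) :=
            mul_le_mul_of_nonneg_left h8 ha
        _ = _ := by ring

theorem prod_mark_two (S : Fin n → Fin m → ℕ) (c c' : Fin n × Fin m) (hne : c ≠ c') :
    ∏ q : Fin n × Fin m, (if q = c ∨ q = c' then (S q.1 q.2 : ℝ) else 1)
      = (S c.1 c.2 : ℝ) * (S c'.1 c'.2 : ℝ) := by
  have h : ∏ q : Fin n × Fin m, (if q = c ∨ q = c' then (S q.1 q.2 : ℝ) else 1)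
      = ∏ q ∈ ({c, c'} : Finset (Fin n × Fin m)),
        (if q = c ∨ q = c' then (S q.1 q.2 : ℝ) else 1) := by
    refine (Finset.prod_subset (subset_univ _) fun q _ hq => ?_).symm
    have : ¬ (q = c ∨ q = c') := by simpa using hq
    rw [if_neg this]
  rw [h, Finset.prod_pair hne]
  simp

/-- Second moment, two different cells. -/
theorem sum_cp_two_ne (T : Fin n → Fin m → ℕ) (p : ℕ) (hT : 0 < totS T) (hp : p ≤ totS T)
    (j j' : Fin n) (i i' : Fin m) (hne : (j, i) ≠ (j', i')) :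
    ∑ S ∈ subLev T p, (cp T S : ℝ) * ((S j i : ℝ) * (S j' i' : ℝ))
      ≤ (((totS T).choose p : ℕ) : ℝ) *
        (((p : ℝ) / (totS T : ℝ)) ^ 2 * ((T j i : ℝ) * (T j' i' : ℝ))) := by
  have h := sum_subLev_cell T p
    (fun q k => if q = (j, i) ∨ q = (j', i') then (k : ℝ) else 1)
  simp only [prod_mark_two _ _ _ hne] at h
  rw [h]
  refine coeff_fall_bound _ (by positivity) _ _ hp hT _ ?_ ?_
  · have h1 := prod_gfH_marked T
      (fun q k => if q = (j, i) ∨ q = (j', i') then (k : ℝ) else 1) {(j, i), (j', i')} (by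
      intro q hq
      funext k
      have : ¬ (q = (j, i) ∨ q = (j', i')) := by simpa using hq
      simp only [if_neg this])
    rw [Finset.prod_pair hne, Finset.prod_pair hne] at h1
    simp only [true_or, or_true, if_true] at h1
    have h4 := gfH_id_mul (T j i)
    have h5 := gfH_id_mul (T j' i')
    refine mul_right_cancel₀ (mul_ne_zero (pow_ne_zero (T j i) rH_ne)
      (pow_ne_zero (T j' i') rH_ne)) ?_
    set P := ∏ q : Fin n × Fin m,
      gfH (T q.1 q.2) (fun k => if q = (j, i) ∨ q = (j', i') then (k : ℝ) else 1) with hP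
    calc P * rH ^ 2 * (rH ^ T j i * rH ^ T j' i')
        = (P * (rH ^ T j i * rH ^ T j' i')) * rH ^ 2 := by ring
      _ = (gfH (T j i) (fun k => (k : ℝ)) * rH) * (gfH (T j' i') (fun k => (k : ℝ)) * rH)
          * rH ^ totS T := by
        rw [h1]
        ring
      _ = _ := by
        rw [h4, h5, Polynomial.C_mul]
        ring
  · intro hN2
    have h6 : T j i + T j' i' ≤ totS T := by
      rw [totS_eq_sum_cell]
      have := Finset.sum_le_sum_of_subset (f := fun q : Fin n × Fin m => T q.1 q.2)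
        (subset_univ ({(j, i), (j', i')} : Finset (Fin n × Fin m)))
      rwa [Finset.sum_pair hne] at this
    have h7 : T j i = 0 ∨ T j' i' = 0 := by omega
    rcases h7 with h7 | h7 <;> simp [h7]

/-- Second moment, one cell, falling factorial form. -/
theorem sum_cp_fall (T : Fin n → Fin m → ℕ) (p : ℕ) (hT : 0 < totS T) (hp : p ≤ totS T)
    (j : Fin n) (i : Fin m) :
    ∑ S ∈ subLev T p, (cp T S : ℝ) * ((S j i : ℝ) * ((S j i : ℝ) - 1))
      ≤ (((totS T).choose p : ℕ) : ℝ) *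
        (((p : ℝ) / (totS T : ℝ)) ^ 2 * ((T j i : ℝ) * ((T j i : ℝ) - 1))) := by
  have h := sum_subLev_cell T p
    (fun q k => if q = (j, i) then (k : ℝ) * ((k : ℝ) - 1) else 1)
  have h2 : ∀ S : Fin n → Fin m → ℕ,
      ∏ q : Fin n × Fin m, (if q = (j, i) then (S q.1 q.2 : ℝ) * ((S q.1 q.2 : ℝ) - 1) else 1)
        = (S j i : ℝ) * ((S j i : ℝ) - 1) := by
    intro S
    rw [Finset.prod_ite_eq' univ (j, i)]
    simp
  simp only [h2] at h
  rw [h]
  have hTn : 0 ≤ (T j i : ℝ) * ((T j i : ℝ) - 1) := by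
    rcases Nat.eq_zero_or_pos (T j i) with h0 | h0
    · simp [h0]
    · have : (1 : ℝ) ≤ (T j i : ℝ) := by exact_mod_cast h0
      exact mul_nonneg (by positivity) (by linarith)
  refine coeff_fall_bound _ hTn _ _ hp hT _ ?_ ?_
  · have h1 := prod_gfH_marked T
      (fun q k => if q = (j, i) then (k : ℝ) * ((k : ℝ) - 1) else 1) {(j, i)} (by
      intro q hq
      funext k
      have : q ≠ (j, i) := by simpa using hq
      simp only [if_neg this])
    rw [Finset.prod_singleton, Finset.prod_singleton] at h1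
    simp only [if_true] at h1
    have h4 := gfH_fall (T j i)
    refine mul_right_cancel₀ (pow_ne_zero (T j i) rH_ne) ?_
    set P := ∏ q : Fin n × Fin m,
      gfH (T q.1 q.2) (fun k => if q = (j, i) then (k : ℝ) * ((k : ℝ) - 1) else 1) with hP
    calc P * rH ^ 2 * rH ^ T j i = (P * rH ^ T j i) * rH ^ 2 := by ring
      _ = (gfH (T j i) (fun k => (k : ℝ) * ((k : ℝ) - 1)) * rH ^ 2) * rH ^ totS T := by
        rw [h1]
        ring
      _ = _ := by
        rw [h4]
        ring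
  · intro hN2
    have h6 : T j i ≤ totS T := by
      rw [totS_eq_sum_cell]
      exact Finset.single_le_sum (f := fun q : Fin n × Fin m => T q.1 q.2)
        (fun _ _ => Nat.zero_le _) (mem_univ (j, i))
    have h7 : T j i = 0 ∨ T j i = 1 := by omega
    rcases h7 with h7 | h7 <;> simp [h7]

/-- Second moment, one cell. -/
theorem sum_cp_two_eq (T : Fin n → Fin m → ℕ) (p : ℕ) (hT : 0 < totS T) (hp : p ≤ totS T)
    (j : Fin n) (i : Fin m) :
    ∑ S ∈ subLev T p, (cp T S : ℝ) * (S j i : ℝ) ^ 2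
      ≤ (((totS T).choose p : ℕ) : ℝ) *
        (((p : ℝ) / (totS T : ℝ)) ^ 2 * (T j i : ℝ) ^ 2 + (p : ℝ) / (totS T : ℝ) * (T j i : ℝ)) := by
  have h1 := sum_cp_fall T p hT hp j i
  have h2 := sum_cp_one T p hT j i
  have h3 : ∑ S ∈ subLev T p, (cp T S : ℝ) * (S j i : ℝ) ^ 2
      = ∑ S ∈ subLev T p, (cp T S : ℝ) * ((S j i : ℝ) * ((S j i : ℝ) - 1))
        + ∑ S ∈ subLev T p, (cp T S : ℝ) * (S j i : ℝ) := by
    rw [← Finset.sum_add_distrib]
    refine Finset.sum_congr rfl fun S _ => ?_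
    ring
  rw [h3, h2]
  have hC : (0 : ℝ) ≤ (((totS T).choose p : ℕ) : ℝ) := by positivity
  have h4 : ((p : ℝ) / (totS T : ℝ)) ^ 2 * ((T j i : ℝ) * ((T j i : ℝ) - 1))
      ≤ ((p : ℝ) / (totS T : ℝ)) ^ 2 * (T j i : ℝ) ^ 2 := by
    refine mul_le_mul_of_nonneg_left ?_ (by positivity)
    nlinarith [(Nat.cast_nonneg (T j i) : (0 : ℝ) ≤ (T j i : ℝ))]
  have h5 := mul_le_mul_of_nonneg_left h4 hC
  nlinarith

/-! ### Linear statistics of the sub-table -/

/-- A linear statistic of a table. -/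
noncomputable def linH (u : Fin n × Fin m → ℝ) (S : Fin n → Fin m → ℕ) : ℝ :=
  ∑ q : Fin n × Fin m, u q * (S q.1 q.2 : ℝ)

theorem mean_linH (T : Fin n → Fin m → ℕ) (p : ℕ) (hT : 0 < totS T) (u : Fin n × Fin m → ℝ) :
    ∑ S ∈ subLev T p, (cp T S : ℝ) * linH u S
      = (((totS T).choose p : ℕ) : ℝ) * ((p : ℝ) / (totS T : ℝ) * linH u T) := by
  unfold linH
  simp only [Finset.mul_sum]
  rw [Finset.sum_comm]
  refine Finset.sum_congr rfl fun q _ => ?_
  have h := sum_cp_one T p hT q.1 q.2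
  calc ∑ S ∈ subLev T p, (cp T S : ℝ) * (u q * (S q.1 q.2 : ℝ))
      = u q * ∑ S ∈ subLev T p, (cp T S : ℝ) * (S q.1 q.2 : ℝ) := by
        rw [Finset.mul_sum]
        refine Finset.sum_congr rfl fun S _ => ?_
        ring
    _ = _ := by
      rw [h]
      ring

theorem quad_linH (T : Fin n → Fin m → ℕ) (p : ℕ) (hT : 0 < totS T) (hp : p ≤ totS T)
    (u : Fin n × Fin m → ℝ) (hu : ∀ q, 0 ≤ u q) :
    ∑ S ∈ subLev T p, (cp T S : ℝ) * linH u S ^ 2
      ≤ (((totS T).choose p : ℕ) : ℝ) *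
        (((p : ℝ) / (totS T : ℝ)) ^ 2 * linH u T ^ 2
          + (p : ℝ) / (totS T : ℝ) * ∑ q : Fin n × Fin m, u q ^ 2 * (T q.1 q.2 : ℝ)) := by
  set a : ℝ := (p : ℝ) / (totS T : ℝ) with ha
  set C : ℝ := (((totS T).choose p : ℕ) : ℝ) with hC
  have hC0 : 0 ≤ C := by positivity
  have ha0 : 0 ≤ a := by positivity
  have h1 : ∀ S : Fin n → Fin m → ℕ, linH u S ^ 2
      = ∑ q : Fin n × Fin m, ∑ q' : Fin n × Fin m,
        u q * u q' * ((S q.1 q.2 : ℝ) * (S q'.1 q'.2 : ℝ)) := by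
    intro S
    unfold linH
    rw [pow_two, Finset.sum_mul_sum]
    refine Finset.sum_congr rfl fun q _ => Finset.sum_congr rfl fun q' _ => ?_
    ring
  have h2 : ∑ S ∈ subLev T p, (cp T S : ℝ) * linH u S ^ 2
      = ∑ q : Fin n × Fin m, ∑ q' : Fin n × Fin m, u q * u q' *
        ∑ S ∈ subLev T p, (cp T S : ℝ) * ((S q.1 q.2 : ℝ) * (S q'.1 q'.2 : ℝ)) := by
    simp only [h1, Finset.mul_sum]
    rw [Finset.sum_comm]
    refine Finset.sum_congr rfl fun q _ => ?_
    rw [Finset.sum_comm]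
    refine Finset.sum_congr rfl fun q' _ => Finset.sum_congr rfl fun S _ => ?_
    ring
  have h3 : ∀ q q' : Fin n × Fin m, u q * u q' *
        ∑ S ∈ subLev T p, (cp T S : ℝ) * ((S q.1 q.2 : ℝ) * (S q'.1 q'.2 : ℝ))
      ≤ C * (a ^ 2 * ((u q * (T q.1 q.2 : ℝ)) * (u q' * (T q'.1 q'.2 : ℝ)))
        + (if q = q' then a * (u q ^ 2 * (T q.1 q.2 : ℝ)) else 0)) := by
    intro q q'
    have huu : 0 ≤ u q * u q' := mul_nonneg (hu q) (hu q')
    by_cases hq : q = q'
    · subst hq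
      rw [if_pos rfl]
      have h4 := sum_cp_two_eq T p hT hp q.1 q.2
      have h5 : ∑ S ∈ subLev T p, (cp T S : ℝ) * ((S q.1 q.2 : ℝ) * (S q.1 q.2 : ℝ))
          = ∑ S ∈ subLev T p, (cp T S : ℝ) * (S q.1 q.2 : ℝ) ^ 2 := by
        refine Finset.sum_congr rfl fun S _ => ?_
        ring
      rw [h5]
      calc u q * u q * ∑ S ∈ subLev T p, (cp T S : ℝ) * (S q.1 q.2 : ℝ) ^ 2
          ≤ u q * u q * (C * (a ^ 2 * (T q.1 q.2 : ℝ) ^ 2 + a * (T q.1 q.2 : ℝ))) :=
            mul_le_mul_of_nonneg_left h4 huu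
        _ = _ := by ring
    · rw [if_neg hq]
      have h4 := sum_cp_two_ne T p hT hp q.1 q'.1 q.2 q'.2 (by simpa using hq)
      calc u q * u q' *
            ∑ S ∈ subLev T p, (cp T S : ℝ) * ((S q.1 q.2 : ℝ) * (S q'.1 q'.2 : ℝ))
          ≤ u q * u q' * (C * (a ^ 2 * ((T q.1 q.2 : ℝ) * (T q'.1 q'.2 : ℝ)))) :=
            mul_le_mul_of_nonneg_left h4 huu
        _ = _ := by ring
  rw [h2]
  calc _ ≤ ∑ q : Fin n × Fin m, ∑ q' : Fin n × Fin m,
        C * (a ^ 2 * ((u q * (T q.1 q.2 : ℝ)) * (u q' * (T q'.1 q'.2 : ℝ)))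
        + (if q = q' then a * (u q ^ 2 * (T q.1 q.2 : ℝ)) else 0)) :=
        Finset.sum_le_sum fun q _ => Finset.sum_le_sum fun q' _ => h3 q q'
    _ = _ := by
      have h6 : ∀ q : Fin n × Fin m, ∑ q' : Fin n × Fin m,
          C * (a ^ 2 * ((u q * (T q.1 q.2 : ℝ)) * (u q' * (T q'.1 q'.2 : ℝ)))
          + (if q = q' then a * (u q ^ 2 * (T q.1 q.2 : ℝ)) else 0))
          = C * (a ^ 2 * (u q * (T q.1 q.2 : ℝ)) * linH u T + a * (u q ^ 2 * (T q.1 q.2 : ℝ))) := by
        intro q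
        rw [← Finset.mul_sum, Finset.sum_add_distrib, Finset.sum_ite_eq]
        simp only [mem_univ, if_true]
        congr 2
        unfold linH
        rw [Finset.mul_sum]
        refine Finset.sum_congr rfl fun q' _ => ?_
        ring
      simp only [h6]
      rw [← Finset.mul_sum, Finset.sum_add_distrib, ← Finset.sum_mul, ← Finset.mul_sum,
        ← Finset.mul_sum]
      unfold linH
      ring

/-- The variance bound for a statistic with weights in `{0, 1}`. -/
theorem dev_linH (T : Fin n → Fin m → ℕ) (p : ℕ) (hT : 0 < totS T) (hp : p ≤ totS T)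
    (u : Fin n × Fin m → ℝ) (hu : ∀ q, 0 ≤ u q) (hu2 : ∀ q, u q ^ 2 = u q) :
    ∑ S ∈ subLev T p, (cp T S : ℝ) * (linH u S - (p : ℝ) / (totS T : ℝ) * linH u T) ^ 2
      ≤ (((totS T).choose p : ℕ) : ℝ) * ((p : ℝ) / (totS T : ℝ) * linH u T) := by
  set a : ℝ := (p : ℝ) / (totS T : ℝ) with ha
  set C : ℝ := (((totS T).choose p : ℕ) : ℝ) with hC
  have h1 := quad_linH T p hT hp u hu
  have h2 := mean_linH T p hT u
  have h3 := sum_cp_real T p
  rw [← ha, ← hC] at h1 h2
  rw [← hC] at h3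
  have h4 : ∑ q : Fin n × Fin m, u q ^ 2 * (T q.1 q.2 : ℝ) = linH u T := by
    unfold linH
    refine Finset.sum_congr rfl fun q _ => ?_
    rw [hu2]
  rw [h4] at h1
  have h5 : ∑ S ∈ subLev T p, (cp T S : ℝ) * (linH u S - a * linH u T) ^ 2
      = ∑ S ∈ subLev T p, (cp T S : ℝ) * linH u S ^ 2
        - 2 * (a * linH u T) * ∑ S ∈ subLev T p, (cp T S : ℝ) * linH u S
        + (a * linH u T) ^ 2 * ∑ S ∈ subLev T p, (cp T S : ℝ) := by
    rw [Finset.mul_sum, Finset.mul_sum, ← Finset.sum_sub_distrib, ← Finset.sum_add_distrib]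
    refine Finset.sum_congr rfl fun S _ => ?_
    ring
  rw [h5, h2, h3]
  nlinarith [h1]

/-- The row indicator. -/
noncomputable def uRow (i0 : Fin m) : Fin n × Fin m → ℝ := fun q => if q.2 = i0 then 1 else 0

/-- The column indicator. -/
noncomputable def uCol (j0 : Fin n) : Fin n × Fin m → ℝ := fun q => if q.1 = j0 then 1 else 0

theorem linH_uRow (i0 : Fin m) (S : Fin n → Fin m → ℕ) : linH (uRow i0) S = (rowS S i0 : ℝ) := by
  unfold linH uRow rowS
  rw [Fintype.sum_prod_type]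
  push_cast
  refine Finset.sum_congr rfl fun j _ => ?_
  simp

theorem linH_uCol (j0 : Fin n) (S : Fin n → Fin m → ℕ) : linH (uCol j0) S = (colS S j0 : ℝ) := by
  unfold linH uCol colS
  rw [Fintype.sum_prod_type]
  push_cast
  simp

theorem sum_rowS (T : Fin n → Fin m → ℕ) : ∑ i, rowS T i = totS T := by
  unfold rowS totS
  rw [Finset.sum_comm]

theorem sum_colS (T : Fin n → Fin m → ℕ) : ∑ j, colS T j = totS T := rfl

/-- The total deviation of the row and column sums. -/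
noncomputable def devH (T S : Fin n → Fin m → ℕ) (p : ℕ) : ℝ :=
  ∑ i, ((rowS S i : ℝ) - (p : ℝ) / (totS T : ℝ) * (rowS T i : ℝ)) ^ 2
    + ∑ j, ((colS S j : ℝ) - (p : ℝ) / (totS T : ℝ) * (colS T j : ℝ)) ^ 2

theorem devH_nonneg (T S : Fin n → Fin m → ℕ) (p : ℕ) : 0 ≤ devH T S p := by
  unfold devH
  positivity

theorem sum_devH (T : Fin n → Fin m → ℕ) (p : ℕ) (hT : 0 < totS T) (hp : p ≤ totS T) :
    ∑ S ∈ subLev T p, (cp T S : ℝ) * devH T S p
      ≤ (((totS T).choose p : ℕ) : ℝ) * (2 * (p : ℝ)) := by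
  set a : ℝ := (p : ℝ) / (totS T : ℝ) with ha
  set C : ℝ := (((totS T).choose p : ℕ) : ℝ) with hC
  have hN : (totS T : ℝ) ≠ 0 := by
    have : (0 : ℝ) < (totS T : ℝ) := by exact_mod_cast hT
    exact this.ne'
  have hr : ∀ i0 : Fin m, ∑ S ∈ subLev T p, (cp T S : ℝ) * ((rowS S i0 : ℝ) - a * (rowS T i0 : ℝ)) ^ 2
      ≤ C * (a * (rowS T i0 : ℝ)) := by
    intro i0
    have h := dev_linH T p hT hp (uRow i0) (fun q => by unfold uRow; split_ifs <;> simp)
      (fun q => by unfold uRow; split_ifs <;> simp)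
    simpa only [linH_uRow] using h
  have hc : ∀ j0 : Fin n, ∑ S ∈ subLev T p, (cp T S : ℝ) * ((colS S j0 : ℝ) - a * (colS T j0 : ℝ)) ^ 2
      ≤ C * (a * (colS T j0 : ℝ)) := by
    intro j0
    have h := dev_linH T p hT hp (uCol j0) (fun q => by unfold uCol; split_ifs <;> simp)
      (fun q => by unfold uCol; split_ifs <;> simp)
    simpa only [linH_uCol] using h
  have h1 : ∑ S ∈ subLev T p, (cp T S : ℝ) * devH T S p
      = ∑ i0, ∑ S ∈ subLev T p, (cp T S : ℝ) * ((rowS S i0 : ℝ) - a * (rowS T i0 : ℝ)) ^ 2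
        + ∑ j0, ∑ S ∈ subLev T p, (cp T S : ℝ) * ((colS S j0 : ℝ) - a * (colS T j0 : ℝ)) ^ 2 := by
    unfold devH
    rw [Finset.sum_comm, Finset.sum_comm (s := univ (α := Fin n)), ← Finset.sum_add_distrib]
    refine Finset.sum_congr rfl fun S _ => ?_
    rw [mul_add, Finset.mul_sum, Finset.mul_sum]
  rw [h1]
  have h2 : ∑ i0, C * (a * (rowS T i0 : ℝ)) = C * (p : ℝ) := by
    rw [← Finset.mul_sum, ← Finset.mul_sum]
    have : ∑ i0, (rowS T i0 : ℝ) = (totS T : ℝ) := by exact_mod_cast sum_rowS T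
    rw [this, ha]
    field_simp
  have h3 : ∑ j0, C * (a * (colS T j0 : ℝ)) = C * (p : ℝ) := by
    rw [← Finset.mul_sum, ← Finset.mul_sum]
    have : ∑ j0, (colS T j0 : ℝ) = (totS T : ℝ) := by exact_mod_cast sum_colS T
    rw [this, ha]
    field_simp
  have h4 := Finset.sum_le_sum (s := univ) fun i0 _ => hr i0
  have h5 := Finset.sum_le_sum (s := univ) fun j0 _ => hc j0
  rw [h2] at h4
  rw [h3] at h5
  linarith

/-- The weights of the light statistic. -/
noncomputable def uW (T : Fin n → Fin m → ℕ) (p : ℕ) : Fin n × Fin m → ℝ :=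
  fun q => if T q.1 q.2 < p then (1 + (T q.1 q.2 : ℝ)) / (p : ℝ) else 0

/-- The weights of the heavy statistic. -/
noncomputable def uH (T : Fin n → Fin m → ℕ) (p : ℕ) : Fin n × Fin m → ℝ :=
  fun q => if p ≤ T q.1 q.2 then 1 else 0

theorem Wl_eq_linH (T S : Fin n → Fin m → ℕ) (p : ℕ) : Wl T S p = linH (uW T p) S := by
  unfold Wl linH uW
  rw [Fintype.sum_prod_type, Finset.sum_div]
  refine Finset.sum_congr rfl fun j _ => ?_
  rw [Finset.sum_div]
  refine Finset.sum_congr rfl fun i _ => ?_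
  split_ifs <;> ring

theorem Hv_eq_linH (T S : Fin n → Fin m → ℕ) (p : ℕ) : Hv T S p = linH (uH T p) S := by
  unfold Hv linH uH
  rw [Fintype.sum_prod_type]
  refine Finset.sum_congr rfl fun j _ => Finset.sum_congr rfl fun i _ => ?_
  split_ifs <;> simp

theorem Qt_eq (T : Fin n → Fin m → ℕ) :
    Qt T = ∑ q : Fin n × Fin m, (T q.1 q.2 : ℝ) * (1 + (T q.1 q.2 : ℝ)) / (totS T : ℝ) := by
  unfold Qt
  rw [Fintype.sum_prod_type, Finset.sum_div]
  refine Finset.sum_congr rfl fun j _ => ?_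
  rw [Finset.sum_div]

theorem Qt_nonneg (T : Fin n → Fin m → ℕ) : 0 ≤ Qt T := by
  unfold Qt
  positivity

theorem uW_nonneg (T : Fin n → Fin m → ℕ) (p : ℕ) (q : Fin n × Fin m) : 0 ≤ uW T p q := by
  unfold uW
  split_ifs <;> positivity

theorem uH_nonneg (T : Fin n → Fin m → ℕ) (p : ℕ) (q : Fin n × Fin m) : 0 ≤ uH T p q := by
  unfold uH
  split_ifs <;> simp

theorem Wl_nonneg (T S : Fin n → Fin m → ℕ) (p : ℕ) : 0 ≤ Wl T S p := by
  rw [Wl_eq_linH]
  unfold linH
  exact Finset.sum_nonneg fun q _ => mul_nonneg (uW_nonneg T p q) (by positivity)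

theorem Hv_nonneg (T S : Fin n → Fin m → ℕ) (p : ℕ) : 0 ≤ Hv T S p := by
  rw [Hv_eq_linH]
  unfold linH
  exact Finset.sum_nonneg fun q _ => mul_nonneg (uH_nonneg T p q) (by positivity)

/-- The moment of `Wl ^ 2`. -/
theorem sum_Wl_sq (T : Fin n → Fin m → ℕ) (p : ℕ) (hT : 0 < totS T) (hp1 : 1 ≤ p)
    (hp : p ≤ totS T) :
    ∑ S ∈ subLev T p, (cp T S : ℝ) * Wl T S p ^ 2
      ≤ (((totS T).choose p : ℕ) : ℝ) * (Qt T ^ 2 + Qt T) := by
  set N : ℝ := (totS T : ℝ) with hN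
  have hN0 : 0 < N := by
    rw [hN]
    exact_mod_cast hT
  have hp0 : (0 : ℝ) < (p : ℝ) := by exact_mod_cast hp1
  have hQ := Qt_eq T
  have h1 := quad_linH T p hT hp (uW T p) (uW_nonneg T p)
  simp only [Wl_eq_linH]
  rw [← hN] at h1
  have hC : (0 : ℝ) ≤ (((totS T).choose p : ℕ) : ℝ) := by positivity
  refine h1.trans (mul_le_mul_of_nonneg_left ?_ hC)
  have h2 : (p : ℝ) / N * linH (uW T p) T ≤ Qt T := by
    rw [hQ, ← hN]
    unfold linH
    rw [Finset.mul_sum]
    refine Finset.sum_le_sum fun q _ => ?_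
    unfold uW
    split_ifs with hq
    · apply le_of_eq
      field_simp
    · rw [zero_mul, mul_zero]
      positivity
  have h3 : 0 ≤ (p : ℝ) / N * linH (uW T p) T := by
    refine mul_nonneg (by positivity) ?_
    unfold linH
    exact Finset.sum_nonneg fun q _ => mul_nonneg (uW_nonneg T p q) (by positivity)
  have h4 : (p : ℝ) / N * ∑ q : Fin n × Fin m, uW T p q ^ 2 * (T q.1 q.2 : ℝ) ≤ Qt T := by
    rw [hQ, ← hN, Finset.mul_sum]
    refine Finset.sum_le_sum fun q _ => ?_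
    unfold uW
    split_ifs with hq
    · have hq0 : 1 + T q.1 q.2 ≤ p := by omega
      have hq' : 1 + (T q.1 q.2 : ℝ) ≤ (p : ℝ) := by exact_mod_cast hq0
      have hT0 : (0 : ℝ) ≤ (T q.1 q.2 : ℝ) := by positivity
      have h7 : (p : ℝ) / N * (((1 + (T q.1 q.2 : ℝ)) / (p : ℝ)) ^ 2 * (T q.1 q.2 : ℝ))
          = (T q.1 q.2 : ℝ) * (1 + (T q.1 q.2 : ℝ)) / N * ((1 + (T q.1 q.2 : ℝ)) / (p : ℝ)) := by
        field_simp
      rw [h7]
      have h8 : (1 + (T q.1 q.2 : ℝ)) / (p : ℝ) ≤ 1 := (div_le_one hp0).2 hq'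
      have h9 : 0 ≤ (T q.1 q.2 : ℝ) * (1 + (T q.1 q.2 : ℝ)) / N := by positivity
      calc _ ≤ (T q.1 q.2 : ℝ) * (1 + (T q.1 q.2 : ℝ)) / N * 1 :=
            mul_le_mul_of_nonneg_left h8 h9
        _ = _ := mul_one _
    · simp only [ne_eq, OfNat.ofNat_ne_zero, not_false_eq_true, zero_pow, zero_mul, mul_zero]
      positivity
  have h5 : ((p : ℝ) / N) ^ 2 * linH (uW T p) T ^ 2 = ((p : ℝ) / N * linH (uW T p) T) ^ 2 := by
    ring
  rw [h5]
  have h6 : ((p : ℝ) / N * linH (uW T p) T) ^ 2 ≤ Qt T ^ 2 := by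
    exact pow_le_pow_left₀ h3 h2 2
  linarith

/-- The moment of `Hv`. -/
theorem sum_Hv (T : Fin n → Fin m → ℕ) (p : ℕ) (hT : 0 < totS T) :
    ∑ S ∈ subLev T p, (cp T S : ℝ) * Hv T S p
      ≤ (((totS T).choose p : ℕ) : ℝ) * Qt T := by
  set N : ℝ := (totS T : ℝ) with hN
  have hN0 : 0 < N := by
    rw [hN]
    exact_mod_cast hT
  simp only [Hv_eq_linH]
  rw [mean_linH T p hT (uH T p), ← hN]
  have hC : (0 : ℝ) ≤ (((totS T).choose p : ℕ) : ℝ) := by positivity
  refine mul_le_mul_of_nonneg_left ?_ hC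
  rw [Qt_eq, ← hN]
  unfold linH
  rw [Finset.mul_sum]
  refine Finset.sum_le_sum fun q _ => ?_
  unfold uH
  split_ifs with hq
  · have hq' : (p : ℝ) ≤ (T q.1 q.2 : ℝ) := by exact_mod_cast hq
    have hT0 : (0 : ℝ) ≤ (T q.1 q.2 : ℝ) := by positivity
    rw [one_mul, div_mul_eq_mul_div]
    refine div_le_div_of_nonneg_right ?_ hN0.le
    nlinarith
  · rw [zero_mul, mul_zero]
    positivity

/-- The pointwise bound on the integrand. -/
theorem good_bound (T S : Fin n → Fin m → ℕ) (hT : 0 < totS T)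
    (hr : ∀ i, 32 * rowS T i ≤ totS T) (hc : ∀ j, 32 * colS T j ≤ totS T)
    (p : ℕ) (hp : 1 ≤ p) :
    (if Good T S p then 576 * Wl T S p ^ 2 + Hv T S p else (p : ℝ))
      ≤ 576 * Wl T S p ^ 2 + 3 * Hv T S p + 1024 / (p : ℝ) * devH T S p := by
  have hp0 : (0 : ℝ) < (p : ℝ) := by exact_mod_cast hp
  have hN0 : (0 : ℝ) < (totS T : ℝ) := by exact_mod_cast hT
  have hd := devH_nonneg T S p
  have hH := Hv_nonneg T S p
  have hd2 : 0 ≤ 1024 / (p : ℝ) * devH T S p := by positivity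
  split_ifs with hG
  · nlinarith
  · -- a large deviation term pays for `p`
    have key : ∀ x y : ℝ, (p : ℝ) / 16 < x → y ≤ (p : ℝ) / 32 → (x - y) ^ 2 ≤ devH T S p →
        (p : ℝ) ≤ 1024 / (p : ℝ) * devH T S p := by
      intro x y hx hy h
      have h1 : (p : ℝ) / 32 ≤ x - y := by linarith
      have h2 : ((p : ℝ) / 32) ^ 2 ≤ (x - y) ^ 2 := pow_le_pow_left₀ (by positivity) h1 2
      have h3 : ((p : ℝ) / 32) ^ 2 ≤ devH T S p := h2.trans h
      rw [div_mul_eq_mul_div, le_div_iff₀ hp0]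
      nlinarith
    have hm : ∀ z : ℕ, 32 * z ≤ totS T →
        (p : ℝ) / (totS T : ℝ) * (z : ℝ) ≤ (p : ℝ) / 32 := by
      intro z hz
      have hz' : 32 * (z : ℝ) ≤ (totS T : ℝ) := by exact_mod_cast hz
      rw [div_mul_eq_mul_div, div_le_div_iff₀ hN0 (by norm_num)]
      nlinarith
    have hcase : (p : ℝ) ≤ 2 * Hv T S p + 1024 / (p : ℝ) * devH T S p := by
      unfold Good at hG
      by_cases h1 : 2 * (∑ j, ∑ i, if p ≤ T j i then S j i else 0) ≤ p
      · by_cases h2 : ∀ i, 16 * rowS S i ≤ p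
        · have h3 : ¬ ∀ j, 16 * colS S j ≤ p := fun h3 => hG ⟨h1, h2, h3⟩
          push Not at h3
          obtain ⟨j, hj⟩ := h3
          have h4 := key (colS S j : ℝ) ((p : ℝ) / (totS T : ℝ) * (colS T j : ℝ))
            (by
              have : (p : ℝ) < 16 * (colS S j : ℝ) := by exact_mod_cast hj
              linarith)
            (hm _ (hc j))
            (by
              unfold devH
              have h5 : 0 ≤ ∑ i, ((rowS S i : ℝ) - (p : ℝ) / (totS T : ℝ) * (rowS T i : ℝ)) ^ 2 := by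
                positivity
              have h6 := Finset.single_le_sum
                (f := fun j => ((colS S j : ℝ) - (p : ℝ) / (totS T : ℝ) * (colS T j : ℝ)) ^ 2)
                (fun _ _ => sq_nonneg _) (mem_univ j)
              linarith)
          linarith
        · push Not at h2
          obtain ⟨i, hi⟩ := h2
          have h4 := key (rowS S i : ℝ) ((p : ℝ) / (totS T : ℝ) * (rowS T i : ℝ))
            (by
              have : (p : ℝ) < 16 * (rowS S i : ℝ) := by exact_mod_cast hi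
              linarith)
            (hm _ (hr i))
            (by
              unfold devH
              have h5 : 0 ≤ ∑ j, ((colS S j : ℝ) - (p : ℝ) / (totS T : ℝ) * (colS T j : ℝ)) ^ 2 := by
                positivity
              have h6 := Finset.single_le_sum
                (f := fun i => ((rowS S i : ℝ) - (p : ℝ) / (totS T : ℝ) * (rowS T i : ℝ)) ^ 2)
                (fun _ _ => sq_nonneg _) (mem_univ i)
              linarith)
          linarith
      · have h3 : (p : ℝ) < 2 * Hv T S p := by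
          push Not at h1
          have h4 : (p : ℝ) < 2 * ((∑ j, ∑ i, if p ≤ T j i then S j i else 0 : ℕ) : ℝ) := by
            exact_mod_cast h1
          have h5 : ((∑ j, ∑ i, if p ≤ T j i then S j i else 0 : ℕ) : ℝ) = Hv T S p := by
            unfold Hv
            push_cast
            refine Finset.sum_congr rfl fun j _ => Finset.sum_congr rfl fun i _ => ?_
            split_ifs <;> simp
          rw [h5] at h4
          exact h4
        linarith
    have hW : 0 ≤ 576 * Wl T S p ^ 2 := by positivity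
    linarith

/-- The expected value of the bound of `Gamma.lean` over a random sub-table. -/
theorem expected_good (T : Fin n → Fin m → ℕ) (hT : 0 < totS T)
    (hr : ∀ i, 32 * rowS T i ≤ totS T) (hc : ∀ j, 32 * colS T j ≤ totS T)
    (p : ℕ) (hp : 1 ≤ p) (hpN : p ≤ totS T) :
    ∑ S ∈ subLev T p, (cp T S : ℝ) *
        (if Good T S p then 576 * Wl T S p ^ 2 + Hv T S p else (p : ℝ))
      ≤ (((totS T).choose p : ℕ) : ℝ) * (576 * (Qt T ^ 2 + Qt T) + 3 * Qt T + 2048) := by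
  have hp0 : (0 : ℝ) < (p : ℝ) := by exact_mod_cast hp
  have h1 : ∑ S ∈ subLev T p, (cp T S : ℝ) *
        (if Good T S p then 576 * Wl T S p ^ 2 + Hv T S p else (p : ℝ))
      ≤ ∑ S ∈ subLev T p, (cp T S : ℝ) *
        (576 * Wl T S p ^ 2 + 3 * Hv T S p + 1024 / (p : ℝ) * devH T S p) :=
    Finset.sum_le_sum fun S _ =>
      mul_le_mul_of_nonneg_left (good_bound T S hT hr hc p hp) (by positivity)
  refine h1.trans ?_
  have h2 : ∑ S ∈ subLev T p, (cp T S : ℝ) *
        (576 * Wl T S p ^ 2 + 3 * Hv T S p + 1024 / (p : ℝ) * devH T S p)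
      = 576 * ∑ S ∈ subLev T p, (cp T S : ℝ) * Wl T S p ^ 2
        + 3 * ∑ S ∈ subLev T p, (cp T S : ℝ) * Hv T S p
        + 1024 / (p : ℝ) * ∑ S ∈ subLev T p, (cp T S : ℝ) * devH T S p := by
    rw [Finset.mul_sum, Finset.mul_sum, Finset.mul_sum, ← Finset.sum_add_distrib,
      ← Finset.sum_add_distrib]
    refine Finset.sum_congr rfl fun S _ => ?_
    ring
  rw [h2]
  have h3 := sum_Wl_sq T p hT hp hpN
  have h4 := sum_Hv T p hT
  have h5 := sum_devH T p hT hpN
  set C : ℝ := (((totS T).choose p : ℕ) : ℝ) with hC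
  have h6 : 1024 / (p : ℝ) * ∑ S ∈ subLev T p, (cp T S : ℝ) * devH T S p ≤ C * 2048 := by
    calc _ ≤ 1024 / (p : ℝ) * (C * (2 * (p : ℝ))) :=
          mul_le_mul_of_nonneg_left h5 (by positivity)
      _ = C * 2048 := by
        field_simp
        ring
  nlinarith

end Vale.Agent.Lib.P328.Sparse
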