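import Vale.Agent.Lib.P328.Sparse.Shift

/-!
# P328, sparse margins: the second moment statistic of a uniform table
-/

namespace Vale.Agent.Lib.P328.Sparse

open Finset MeasureTheory Vale.Agent.Lib.P328.Cap
open scoped ENNReal Nat

variable {m n : ℕ}

/-- The bound for one cell, against the partner columns `Pa`. -/
theorem col_bound (r : Fin m → ℕ) (c : Fin n → ℕ) (j : Fin n) (i : Fin m) (Pa : Finset (Fin n))
    (hPa : ∀ l ∈ Pa, l ≠ j ∧ c j ≤ c l) :
    ∑ T ∈ tabs r c, (T j i : ℝ) ^ 2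
      ≤ ∑ T ∈ tabs r c, (T j i : ℝ)
        + 2 * ((r i : ℝ) / ((max Pa.card 1 : ℕ) : ℝ)) ^ 2 * ((tabs r c).card : ℝ) := by
  set M : ℝ := ((tabs r c).card : ℝ) with hM
  set A := ∑ T ∈ tabs r c, (T j i : ℝ) ^ 2 with hA
  set B := ∑ T ∈ tabs r c, (T j i : ℝ) with hB
  have hB0 : 0 ≤ B := Finset.sum_nonneg fun T _ => Nat.cast_nonneg _
  have hM0 : 0 ≤ M := Nat.cast_nonneg _
  have hri : (0 : ℝ) ≤ (r i : ℝ) := Nat.cast_nonneg _
  rcases Nat.eq_zero_or_pos Pa.card with h0 | hpos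
  · rw [h0]
    have hle : A ≤ (r i : ℝ) ^ 2 * M := by
      rw [hA, hM, ← nsmul_eq_mul', ← Finset.sum_const]
      refine Finset.sum_le_sum fun T hT => ?_
      have h1 : (T j i : ℝ) ≤ (r i : ℝ) := by exact_mod_cast entry_le_row hT j i
      exact pow_le_pow_left₀ (Nat.cast_nonneg _) h1 2
    simp only [zero_le, sup_of_le_right, Nat.cast_one, div_one, max_eq_right]
    nlinarith [mul_nonneg (sq_nonneg (r i : ℝ)) hM0]
  · have hmax : max Pa.card 1 = Pa.card := max_eq_left hpos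
    rw [hmax]
    set a : ℝ := (Pa.card : ℝ) with ha
    have hapos : 0 < a := by
      rw [ha]
      exact_mod_cast hpos
    -- the sums over the partners
    have hrowsum : ∀ T ∈ tabs r c, (T j i : ℝ) + ∑ l ∈ Pa, (T l i : ℝ) ≤ (r i : ℝ) := by
      intro T hT
      have h1 := (mem_tabs.1 hT).2 i
      have hnot : j ∉ Pa := fun hj => (hPa j hj).1 rfl
      have h2 : T j i + ∑ l ∈ Pa, T l i ≤ r i := by
        rw [← h1, ← Finset.sum_insert (f := fun l => T l i) hnot]
        exact Finset.sum_le_sum_of_subset (Finset.subset_univ _)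
      exact_mod_cast h2
    have h1 : a * A ≤ 2 * (r i : ℝ) * B + a * B := by
      have h2 : ∑ l ∈ Pa, ∑ T ∈ tabs r c,
          ((T j i : ℝ) ^ 2 - 2 * (T j i : ℝ) * (T l i : ℝ) - (T j i : ℝ)) ≤ 0 :=
        Finset.sum_nonpos fun l hl => tab_sm r c j l (hPa l hl).1.symm (hPa l hl).2 i
      rw [Finset.sum_comm] at h2
      have h3 : ∀ T ∈ tabs r c, a * (T j i : ℝ) ^ 2 - 2 * (r i : ℝ) * (T j i : ℝ) - a * (T j i : ℝ)
          ≤ ∑ l ∈ Pa, ((T j i : ℝ) ^ 2 - 2 * (T j i : ℝ) * (T l i : ℝ) - (T j i : ℝ)) := by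
        intro T hT
        have h4 : ∑ l ∈ Pa, ((T j i : ℝ) ^ 2 - 2 * (T j i : ℝ) * (T l i : ℝ) - (T j i : ℝ))
            = a * (T j i : ℝ) ^ 2 - 2 * (T j i : ℝ) * ∑ l ∈ Pa, (T l i : ℝ) - a * (T j i : ℝ) := by
          rw [Finset.mul_sum, Finset.sum_sub_distrib, Finset.sum_sub_distrib]
          simp [ha]
        rw [h4]
        have h5 := hrowsum T hT
        have h6 : (0 : ℝ) ≤ (T j i : ℝ) := Nat.cast_nonneg _
        nlinarith
      have h7 := Finset.sum_le_sum h3
      have h8 : ∑ T ∈ tabs r c, (a * (T j i : ℝ) ^ 2 - 2 * (r i : ℝ) * (T j i : ℝ) - a * (T j i : ℝ))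
          = a * A - 2 * (r i : ℝ) * B - a * B := by
        rw [Finset.sum_sub_distrib, Finset.sum_sub_distrib, hA, hB, Finset.mul_sum, Finset.mul_sum,
          Finset.mul_sum]
      rw [h8] at h7
      linarith
    have h2 : a * B ≤ (r i : ℝ) * M := by
      have h3 : ∑ l ∈ Pa, ∑ T ∈ tabs r c, ((T j i : ℝ) - (T l i : ℝ)) ≤ 0 :=
        Finset.sum_nonpos fun l hl => tab_share r c j l (hPa l hl).1.symm (hPa l hl).2 i
      rw [Finset.sum_comm] at h3
      have h4 : ∀ T ∈ tabs r c, a * (T j i : ℝ) - (r i : ℝ)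
          ≤ ∑ l ∈ Pa, ((T j i : ℝ) - (T l i : ℝ)) := by
        intro T hT
        rw [Finset.sum_sub_distrib]
        simp only [Finset.sum_const, nsmul_eq_mul, ← ha]
        have h5 := hrowsum T hT
        have h6 : (0 : ℝ) ≤ (T j i : ℝ) := Nat.cast_nonneg _
        linarith
      have h7 := Finset.sum_le_sum h4
      rw [Finset.sum_sub_distrib, ← Finset.mul_sum, ← hB] at h7
      simp only [Finset.sum_const, nsmul_eq_mul] at h7
      rw [← hM] at h7
      nlinarith
    have h3 : A ≤ B + 2 * (r i : ℝ) * B / a := by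
      have h4 : A ≤ (2 * (r i : ℝ) * B + a * B) / a := by
        rw [le_div_iff₀ hapos]
        linarith
      refine h4.trans (le_of_eq ?_)
      field_simp
      ring
    have h4 : 2 * (r i : ℝ) * B / a ≤ 2 * ((r i : ℝ) / a) ^ 2 * M := by
      rw [div_le_iff₀ hapos]
      have h5 : 2 * ((r i : ℝ) / a) ^ 2 * M * a = 2 * (r i : ℝ) * ((r i : ℝ) * M) / a := by
        field_simp
      rw [h5, le_div_iff₀ hapos]
      nlinarith
    linarith

/-- Transposition of a table. -/
def swapT (T : Fin n → Fin m → ℕ) : Fin m → Fin n → ℕ := fun i j => T j i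

theorem swapT_mem {r : Fin m → ℕ} {c : Fin n → ℕ} {T : Fin n → Fin m → ℕ} (hT : T ∈ tabs r c) :
    swapT T ∈ tabs c r := by
  rw [mem_tabs] at hT ⊢
  exact ⟨hT.2, hT.1⟩

theorem sum_swap (r : Fin m → ℕ) (c : Fin n → ℕ) (f : (Fin m → Fin n → ℕ) → ℝ) :
    ∑ T ∈ tabs r c, f (swapT T) = ∑ U ∈ tabs c r, f U := by
  refine Finset.sum_nbij' swapT swapT (fun T hT => swapT_mem hT) (fun T hT => swapT_mem hT)
    (fun _ _ => rfl) (fun _ _ => rfl) (fun _ _ => rfl)

theorem card_swap (r : Fin m → ℕ) (c : Fin n → ℕ) : (tabs r c).card = (tabs c r).card := by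
  refine Finset.card_nbij' swapT swapT (fun T hT => swapT_mem hT) (fun T hT => swapT_mem hT)
    (fun _ _ => rfl) (fun _ _ => rfl)

/-- The bound for one cell, against the partner rows `Pa`. -/
theorem row_bound (r : Fin m → ℕ) (c : Fin n → ℕ) (j : Fin n) (i : Fin m) (Pa : Finset (Fin m))
    (hPa : ∀ l ∈ Pa, l ≠ i ∧ r i ≤ r l) :
    ∑ T ∈ tabs r c, (T j i : ℝ) ^ 2
      ≤ ∑ T ∈ tabs r c, (T j i : ℝ)
        + 2 * ((c j : ℝ) / ((max Pa.card 1 : ℕ) : ℝ)) ^ 2 * ((tabs r c).card : ℝ) := by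
  have h := col_bound c r i j Pa hPa
  have h1 := sum_swap r c (fun U => (U i j : ℝ) ^ 2)
  have h2 := sum_swap r c (fun U => (U i j : ℝ))
  simp only [swapT] at h1 h2
  rw [← h1, ← h2, ← card_swap] at h
  exact h

/-- Partners survive a change of one coordinate. -/
theorem card_partners {k : ℕ} (c c' : Fin k → ℕ) (j0 : Fin k) (hc : ∀ l, l ≠ j0 → c' l = c l)
    (hc0 : c' j0 ≤ c j0) (j : Fin k) :
    rk c j - 2 ≤ (univ.filter fun l => l ≠ j ∧ c' j ≤ c' l).card := by
  have h1 : (univ.filter fun b => c j ≤ c b)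
      ⊆ insert j (insert j0 (univ.filter fun l => l ≠ j ∧ c' j ≤ c' l)) := by
    intro l hl
    rw [mem_filter] at hl
    rw [mem_insert, mem_insert, mem_filter]
    by_cases h2 : l = j
    · exact Or.inl h2
    by_cases h3 : l = j0
    · exact Or.inr (Or.inl h3)
    refine Or.inr (Or.inr ⟨mem_univ l, h2, ?_⟩)
    rw [hc l h3]
    have h4 : c' j ≤ c j := by
      by_cases h5 : j = j0
      · rw [h5]
        exact hc0
      · rw [hc j h5]
    exact h4.trans hl.2
  have h2 := Finset.card_le_card h1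
  have h3 := Finset.card_insert_le j (insert j0 (univ.filter fun l => l ≠ j ∧ c' j ≤ c' l))
  have h4 := Finset.card_insert_le j0 (univ.filter fun l => l ≠ j ∧ c' j ≤ c' l)
  unfold rk
  omega

theorem div_sq_mono {x y : ℝ} {a b : ℕ} (hx : 0 ≤ x) (hxy : x ≤ y) (ha : 1 ≤ a) (hab : a ≤ b) :
    (x / (b : ℝ)) ^ 2 ≤ (y / (a : ℝ)) ^ 2 := by
  have ha' : (0 : ℝ) < (a : ℝ) := by exact_mod_cast ha
  have hb' : (a : ℝ) ≤ (b : ℝ) := by exact_mod_cast hab
  have h1 : x / (b : ℝ) ≤ y / (a : ℝ) := div_le_div₀ (hx.trans hxy) hxy ha' hb'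
  exact pow_le_pow_left₀ (div_nonneg hx (by linarith)) h1 2

/-- One cell, at margins obtained from `r`, `c` by removing `u` from one row `i0` and from one
column `j0`. -/
theorem cell_moment (r : Fin m → ℕ) (c : Fin n → ℕ) (i0 : Fin m) (j0 : Fin n) (u : ℕ)
    (j : Fin n) (i : Fin m) :
    ∑ T ∈ tabs (Function.update r i0 (r i0 - u)) (Function.update c j0 (c j0 - u)), (T j i : ℝ) ^ 2
      ≤ ∑ T ∈ tabs (Function.update r i0 (r i0 - u)) (Function.update c j0 (c j0 - u)), (T j i : ℝ)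
        + 2 * sig r c j i ^ 2 *
          ((tabs (Function.update r i0 (r i0 - u)) (Function.update c j0 (c j0 - u))).card : ℝ) := by
  set r' := Function.update r i0 (r i0 - u) with hr'
  set c' := Function.update c j0 (c j0 - u) with hc'
  have hrne : ∀ l, l ≠ i0 → r' l = r l := fun l hl => by
    rw [hr', Function.update_of_ne hl]
  have hcne : ∀ l, l ≠ j0 → c' l = c l := fun l hl => by
    rw [hc', Function.update_of_ne hl]
  have hr0 : r' i0 ≤ r i0 := by
    rw [hr', Function.update_self]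
    omega
  have hc0 : c' j0 ≤ c j0 := by
    rw [hc', Function.update_self]
    omega
  have hrle : ∀ l, r' l ≤ r l := fun l => by
    by_cases h : l = i0
    · rw [h]
      exact hr0
    · rw [hrne l h]
  have hcle : ∀ l, c' l ≤ c l := fun l => by
    by_cases h : l = j0
    · rw [h]
      exact hc0
    · rw [hcne l h]
  set M : ℝ := ((tabs r' c').card : ℝ) with hM
  have hM0 : 0 ≤ M := Nat.cast_nonneg _
  -- column form
  have hcol := col_bound r' c' j i (univ.filter fun l => l ≠ j ∧ c' j ≤ c' l)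
    (fun l hl => (mem_filter.1 hl).2)
  have hrow := row_bound r' c' j i (univ.filter fun l => l ≠ i ∧ r' i ≤ r' l)
    (fun l hl => (mem_filter.1 hl).2)
  have hc1 := card_partners c c' j0 hcne hc0 j
  have hr1 := card_partners r r' i0 hrne hr0 i
  have hcolsq : ((r' i : ℝ) / ((max (univ.filter fun l => l ≠ j ∧ c' j ≤ c' l).card 1 : ℕ) : ℝ)) ^ 2
      ≤ ((r i : ℝ) / ((max (rk c j - 2) 1 : ℕ) : ℝ)) ^ 2 := by
    refine div_sq_mono (Nat.cast_nonneg _) (by exact_mod_cast hrle i) (le_max_right _ _) ?_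
    exact max_le_max hc1 le_rfl
  have hrowsq : ((c' j : ℝ) / ((max (univ.filter fun l => l ≠ i ∧ r' i ≤ r' l).card 1 : ℕ) : ℝ)) ^ 2
      ≤ ((c j : ℝ) / ((max (rk r i - 2) 1 : ℕ) : ℝ)) ^ 2 := by
    refine div_sq_mono (Nat.cast_nonneg _) (by exact_mod_cast hcle j) (le_max_right _ _) ?_
    exact max_le_max hr1 le_rfl
  unfold sig
  rcases min_choice ((c j : ℝ) / ((max (rk r i - 2) 1 : ℕ) : ℝ))
    ((r i : ℝ) / ((max (rk c j - 2) 1 : ℕ) : ℝ)) with h | h
  · rw [h]
    refine hrow.trans ?_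
    gcongr
  · rw [h]
    refine hcol.trans ?_
    gcongr

theorem Sb_nonneg (r : Fin m → ℕ) (c : Fin n → ℕ) : 0 ≤ Sb r c :=
  Finset.sum_nonneg fun _ _ => Finset.sum_nonneg fun _ _ => sq_nonneg _

/-- The first moment of `∑ T ^ 2` at the reduced margins. -/
theorem moment_red (r : Fin m → ℕ) (c : Fin n → ℕ) (i0 : Fin m) (j0 : Fin n) (u : ℕ) :
    ∑ T ∈ tabs (Function.update r i0 (r i0 - u)) (Function.update c j0 (c j0 - u)), f2 T
      ≤ (((∑ j, c j : ℕ) : ℝ) + 2 * Sb r c) *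
        ((tabs (Function.update r i0 (r i0 - u)) (Function.update c j0 (c j0 - u))).card : ℝ) := by
  set r' := Function.update r i0 (r i0 - u) with hr'
  set c' := Function.update c j0 (c j0 - u) with hc'
  have h1 : ∑ T ∈ tabs r' c', f2 T = ∑ j, ∑ i, ∑ T ∈ tabs r' c', (T j i : ℝ) ^ 2 := by
    unfold f2
    rw [Finset.sum_comm]
    refine Finset.sum_congr rfl fun j _ => ?_
    rw [Finset.sum_comm]
  have h2 : ∑ j, ∑ i, ∑ T ∈ tabs r' c', (T j i : ℝ) ^ 2
      ≤ ∑ j, ∑ i, (∑ T ∈ tabs r' c', (T j i : ℝ)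
        + 2 * sig r c j i ^ 2 * ((tabs r' c').card : ℝ)) :=
    Finset.sum_le_sum fun j _ => Finset.sum_le_sum fun i _ => cell_moment r c i0 j0 u j i
  have h3 : ∑ j, ∑ i, ∑ T ∈ tabs r' c', (T j i : ℝ)
      ≤ ((∑ j, c j : ℕ) : ℝ) * ((tabs r' c').card : ℝ) := by
    have h4 : ∑ j, ∑ i, ∑ T ∈ tabs r' c', (T j i : ℝ) = ∑ j, ∑ T ∈ tabs r' c', (c' j : ℝ) := by
      refine Finset.sum_congr rfl fun j _ => ?_
      rw [Finset.sum_comm]
      refine Finset.sum_congr rfl fun T hT => ?_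
      rw [← (mem_tabs.1 hT).1 j]
      push_cast
      rfl
    rw [h4]
    simp only [Finset.sum_const, nsmul_eq_mul]
    rw [← Finset.mul_sum]
    have h5 : ∑ j, (c' j : ℝ) ≤ ((∑ j, c j : ℕ) : ℝ) := by
      have h6 : ∑ j, c' j ≤ ∑ j, c j := by
        refine Finset.sum_le_sum fun l _ => ?_
        by_cases h : l = j0
        · rw [h, hc', Function.update_self]
          omega
        · rw [hc', Function.update_of_ne h]
      exact_mod_cast h6
    rw [mul_comm]
    exact mul_le_mul_of_nonneg_right h5 (Nat.cast_nonneg _)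
  have h6 : ∑ j, ∑ i, (∑ T ∈ tabs r' c', (T j i : ℝ) + 2 * sig r c j i ^ 2 * ((tabs r' c').card : ℝ))
      = ∑ j, ∑ i, ∑ T ∈ tabs r' c', (T j i : ℝ) + 2 * Sb r c * ((tabs r' c').card : ℝ) := by
    simp only [Finset.sum_add_distrib]
    congr 1
    unfold Sb
    simp only [Finset.mul_sum, Finset.sum_mul]
  rw [h1]
  refine h2.trans ?_
  rw [h6]
  nlinarith

/-- Shifted table. -/
def shiftU (T : Fin n → Fin m → ℕ) (j : Fin n) (i : Fin m) (u : ℕ) : Fin n → Fin m → ℕ :=
  fun j' i' => T j' i' + if j' = j ∧ i' = i then u else 0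

/-- Unshifted table. -/
def unshiftU (T : Fin n → Fin m → ℕ) (j : Fin n) (i : Fin m) (u : ℕ) : Fin n → Fin m → ℕ :=
  fun j' i' => T j' i' - if j' = j ∧ i' = i then u else 0

theorem shiftU_mem {r : Fin m → ℕ} {c : Fin n → ℕ} {j : Fin n} {i : Fin m} {u : ℕ}
    (hi : u ≤ r i) (hj : u ≤ c j) {T : Fin n → Fin m → ℕ}
    (hT : T ∈ tabs (Function.update r i (r i - u)) (Function.update c j (c j - u))) :
    shiftU T j i u ∈ tabs r c := by
  rw [mem_tabs] at hT ⊢
  constructor
  · intro j'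
    have h1 := hT.1 j'
    unfold shiftU
    rw [Finset.sum_add_distrib, h1]
    by_cases h : j' = j
    · subst h
      simp
      omega
    · simp [h, Function.update_of_ne h]
  · intro i'
    have h1 := hT.2 i'
    unfold shiftU
    rw [Finset.sum_add_distrib, h1]
    by_cases h : i' = i
    · subst h
      simp
      omega
    · simp [h, Function.update_of_ne h]

theorem unshiftU_mem {r : Fin m → ℕ} {c : Fin n → ℕ} {j : Fin n} {i : Fin m} {u : ℕ}
    {T : Fin n → Fin m → ℕ} (hT : T ∈ tabs r c) (hu : u ≤ T j i) :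
    unshiftU T j i u ∈ tabs (Function.update r i (r i - u)) (Function.update c j (c j - u)) := by
  have hS : shiftU (unshiftU T j i u) j i u = T := by
    funext j' i'
    unfold shiftU unshiftU
    by_cases h : j' = j ∧ i' = i
    · obtain ⟨rfl, rfl⟩ := h
      simp
      omega
    · simp [h]
  have hT' := mem_tabs.1 hT
  rw [mem_tabs]
  constructor
  · intro j'
    have h1 := hT'.1 j'
    rw [← hS] at h1
    unfold shiftU at h1
    rw [Finset.sum_add_distrib] at h1
    by_cases h : j' = j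
    · subst h
      simp at h1
      rw [Function.update_self]
      omega
    · simp [h] at h1
      rw [Function.update_of_ne h, ← h1]
  · intro i'
    have h1 := hT'.2 i'
    rw [← hS] at h1
    unfold shiftU at h1
    rw [Finset.sum_add_distrib] at h1
    by_cases h : i' = i
    · subst h
      simp at h1
      rw [Function.update_self]
      omega
    · simp [h] at h1
      rw [Function.update_of_ne h, ← h1]

/-- The square statistic under a shift. -/
theorem f2_shiftU (T : Fin n → Fin m → ℕ) (j : Fin n) (i : Fin m) (u : ℕ) :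
    f2 (shiftU T j i u) = f2 T + 2 * (u : ℝ) * (T j i : ℝ) + (u : ℝ) ^ 2 := by
  unfold f2 shiftU
  have h1 : ∀ j' i', (((T j' i' + if j' = j ∧ i' = i then u else 0 : ℕ) : ℝ)) ^ 2
      = (T j' i' : ℝ) ^ 2 + if j' = j then (if i' = i then 2 * (u : ℝ) * (T j i : ℝ) + (u : ℝ) ^ 2 else 0) else 0 := by
    intro j' i'
    by_cases h : j' = j
    · subst h
      by_cases h2 : i' = i
      · subst h2
        simp
        ring
      · simp [h2]
    · simp [h]
  simp only [h1, Finset.sum_add_distrib]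
  simp
  ring

theorem entry_le_Dm {r : Fin m → ℕ} {c : Fin n → ℕ} {T : Fin n → Fin m → ℕ} (hT : T ∈ tabs r c)
    (j : Fin n) (i : Fin m) : T j i ≤ Dm r c := by
  unfold Dm
  refine le_min ((entry_le_row hT j i).trans ?_) ((entry_le_col hT j i).trans ?_)
  · exact Finset.le_sup (f := r) (mem_univ i)
  · exact Finset.le_sup (f := c) (mem_univ j)

/-- The moment bound at the level set of one cell. -/
theorem level_bound (r : Fin m → ℕ) (c : Fin n → ℕ) (j : Fin n) (i : Fin m) (u : ℕ) :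
    ∑ T ∈ (tabs r c).filter (fun T => u ≤ T j i), f2 T
      ≤ (((∑ j, c j : ℕ) : ℝ) + 2 * Sb r c + 3 * (Dm r c : ℝ) ^ 2)
        * (((tabs r c).filter (fun T => u ≤ T j i)).card : ℝ) := by
  by_cases hu : u ≤ r i ∧ u ≤ c j
  · set r' := Function.update r i (r i - u) with hr'
    set c' := Function.update c j (c j - u) with hc'
    have hb1 : ∑ T ∈ (tabs r c).filter (fun T => u ≤ T j i), f2 T
        = ∑ T ∈ tabs r' c', f2 (shiftU T j i u) := by
      refine Finset.sum_nbij' (fun T => unshiftU T j i u) (fun T => shiftU T j i u) ?_ ?_ ?_ ?_ ?_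
      · intro T hT
        rw [mem_filter] at hT
        exact unshiftU_mem hT.1 hT.2
      · intro T hT
        rw [mem_filter]
        refine ⟨shiftU_mem hu.1 hu.2 hT, ?_⟩
        unfold shiftU
        simp
      · intro T hT
        rw [mem_filter] at hT
        funext j' i'
        unfold shiftU unshiftU
        by_cases h : j' = j ∧ i' = i
        · obtain ⟨rfl, rfl⟩ := h
          have := hT.2
          simp
          omega
        · simp [h]
      · intro T _
        funext j' i'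
        unfold shiftU unshiftU
        by_cases h : j' = j ∧ i' = i
        · simp [h]
        · simp [h]
      · intro T hT
        rw [mem_filter] at hT
        congr 1
        funext j' i'
        unfold shiftU unshiftU
        by_cases h : j' = j ∧ i' = i
        · obtain ⟨rfl, rfl⟩ := h
          have := hT.2
          simp
          omega
        · simp [h]
    have hb2 : ((tabs r c).filter (fun T => u ≤ T j i)).card = (tabs r' c').card := by
      refine Finset.card_nbij' (fun T => unshiftU T j i u) (fun T => shiftU T j i u) ?_ ?_ ?_ ?_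
      · intro T hT
        have hT2 := mem_filter.1 (Finset.mem_coe.1 hT)
        exact unshiftU_mem hT2.1 hT2.2
      · intro T hT
        rw [Finset.mem_coe, mem_filter]
        refine ⟨shiftU_mem hu.1 hu.2 (Finset.mem_coe.1 hT), ?_⟩
        unfold shiftU
        simp
      · intro T hT
        have hT2 := mem_filter.1 (Finset.mem_coe.1 hT)
        funext j' i'
        unfold shiftU unshiftU
        by_cases h : j' = j ∧ i' = i
        · obtain ⟨rfl, rfl⟩ := h
          have := hT2.2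
          simp
          omega
        · simp [h]
      · intro T _
        funext j' i'
        unfold shiftU unshiftU
        by_cases h : j' = j ∧ i' = i
        · simp [h]
        · simp [h]
    rw [hb1, hb2]
    have hD : ∀ T ∈ tabs r' c', f2 (shiftU T j i u) ≤ f2 T + 3 * (Dm r c : ℝ) ^ 2 := by
      intro T hT
      rw [f2_shiftU]
      have hS := shiftU_mem hu.1 hu.2 hT
      have h1 := entry_le_Dm hS j i
      unfold shiftU at h1
      simp at h1
      have h2 : (u : ℝ) ≤ (Dm r c : ℝ) := by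
        exact_mod_cast (by omega : u ≤ Dm r c)
      have h3 : (T j i : ℝ) ≤ (Dm r c : ℝ) := by
        exact_mod_cast (by omega : T j i ≤ Dm r c)
      have h4 : (0 : ℝ) ≤ (u : ℝ) := Nat.cast_nonneg _
      have h5 : (0 : ℝ) ≤ (T j i : ℝ) := Nat.cast_nonneg _
      nlinarith
    have h1 := Finset.sum_le_sum hD
    rw [Finset.sum_add_distrib] at h1
    simp only [Finset.sum_const, nsmul_eq_mul] at h1
    have h2 := moment_red r c i j u
    rw [← hr', ← hc'] at h2
    nlinarith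
  · have hempty : (tabs r c).filter (fun T => u ≤ T j i) = ∅ := by
      rw [Finset.filter_eq_empty_iff]
      intro T hT hle
      exact hu ⟨hle.trans (entry_le_row hT j i), hle.trans (entry_le_col hT j i)⟩
    rw [hempty]
    simp

/-- A square as a sum of odd numbers over levels. -/
theorem sq_eq_sum_levels (x U : ℕ) (hx : x ≤ U) :
    (x : ℝ) ^ 2 = ∑ u ∈ Finset.Icc 1 U, if u ≤ x then 2 * (u : ℝ) - 1 else 0 := by
  induction U generalizing x with
  | zero =>
    have : x = 0 := by omega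
    simp [this]
  | succ U ih =>
    rw [Finset.sum_Icc_succ_top (by omega)]
    rcases Nat.eq_or_lt_of_le hx with h | h
    · subst h
      have h1 := ih U le_rfl
      have h2 : ∑ u ∈ Finset.Icc 1 U, (if u ≤ U + 1 then 2 * (u : ℝ) - 1 else 0)
          = ∑ u ∈ Finset.Icc 1 U, (if u ≤ U then 2 * (u : ℝ) - 1 else 0) := by
        refine Finset.sum_congr rfl fun u hu => ?_
        have := (Finset.mem_Icc.1 hu).2
        rw [if_pos (by omega), if_pos this]
      rw [h2, ← h1, if_pos le_rfl]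
      push_cast
      ring
    · rw [if_neg (by omega), add_zero]
      exact ih x (by omega)

/-- The first moment of `∑ T ^ 2`. -/
theorem moment_one (r : Fin m → ℕ) (c : Fin n → ℕ) :
    ∑ T ∈ tabs r c, f2 T ≤ (((∑ j, c j : ℕ) : ℝ) + 2 * Sb r c) * ((tabs r c).card : ℝ) := by
  rcases isEmpty_or_nonempty (Fin m) with hm | ⟨⟨i0⟩⟩
  · have h0 : ∀ T : Fin n → Fin m → ℕ, f2 T = 0 := fun T => by
      unfold f2
      simp
    simp only [h0, Finset.sum_const_zero]
    have := Sb_nonneg r c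
    positivity
  rcases isEmpty_or_nonempty (Fin n) with hn | ⟨⟨j0⟩⟩
  · have h0 : ∀ T : Fin n → Fin m → ℕ, f2 T = 0 := fun T => by
      unfold f2
      simp
    simp only [h0, Finset.sum_const_zero]
    have := Sb_nonneg r c
    positivity
  have h := moment_red r c i0 j0 0
  simpa using h

/-- The second moment of `∑ T ^ 2`. -/
theorem moment_two (r : Fin m → ℕ) (c : Fin n → ℕ) :
    ∑ T ∈ tabs r c, f2 T ^ 2
      ≤ (((∑ j, c j : ℕ) : ℝ) + 2 * Sb r c + 3 * (Dm r c : ℝ) ^ 2)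
        * (((∑ j, c j : ℕ) : ℝ) + 2 * Sb r c) * ((tabs r c).card : ℝ) := by
  set B := ((∑ j, c j : ℕ) : ℝ) + 2 * Sb r c + 3 * (Dm r c : ℝ) ^ 2 with hB
  have hB0 : 0 ≤ B := by
    have := Sb_nonneg r c
    positivity
  set U := Dm r c with hU
  -- one cell
  have hcell : ∀ j i, ∑ T ∈ tabs r c, f2 T * (T j i : ℝ) ^ 2 ≤ B * ∑ T ∈ tabs r c, (T j i : ℝ) ^ 2 := by
    intro j i
    have hlev : ∀ T ∈ tabs r c, (T j i : ℝ) ^ 2
        = ∑ u ∈ Finset.Icc 1 U, if u ≤ T j i then 2 * (u : ℝ) - 1 else 0 := fun T hT =>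
      sq_eq_sum_levels _ _ (entry_le_Dm hT j i)
    have e1 : ∑ T ∈ tabs r c, f2 T * (T j i : ℝ) ^ 2
        = ∑ u ∈ Finset.Icc 1 U, (2 * (u : ℝ) - 1) *
            ∑ T ∈ (tabs r c).filter (fun T => u ≤ T j i), f2 T := by
      have : ∑ T ∈ tabs r c, f2 T * (T j i : ℝ) ^ 2
          = ∑ T ∈ tabs r c, ∑ u ∈ Finset.Icc 1 U, f2 T * (if u ≤ T j i then 2 * (u : ℝ) - 1 else 0) := by
        refine Finset.sum_congr rfl fun T hT => ?_
        rw [hlev T hT, Finset.mul_sum]
      rw [this, Finset.sum_comm]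
      refine Finset.sum_congr rfl fun u _ => ?_
      rw [Finset.sum_filter, Finset.mul_sum]
      refine Finset.sum_congr rfl fun T _ => ?_
      by_cases h : u ≤ T j i
      · rw [if_pos h, if_pos h]
        ring
      · rw [if_neg h, if_neg h]
        ring
    have e2 : ∑ T ∈ tabs r c, (T j i : ℝ) ^ 2
        = ∑ u ∈ Finset.Icc 1 U, (2 * (u : ℝ) - 1) *
            (((tabs r c).filter (fun T => u ≤ T j i)).card : ℝ) := by
      have : ∑ T ∈ tabs r c, (T j i : ℝ) ^ 2
          = ∑ T ∈ tabs r c, ∑ u ∈ Finset.Icc 1 U, (if u ≤ T j i then 2 * (u : ℝ) - 1 else 0) :=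
        Finset.sum_congr rfl hlev
      rw [this, Finset.sum_comm]
      refine Finset.sum_congr rfl fun u _ => ?_
      rw [Finset.card_filter]
      push_cast
      rw [Finset.mul_sum]
      refine Finset.sum_congr rfl fun T _ => ?_
      by_cases h : u ≤ T j i
      · rw [if_pos h, if_pos h]
        ring
      · rw [if_neg h, if_neg h]
        ring
    rw [e1, e2, Finset.mul_sum]
    refine Finset.sum_le_sum fun u hu => ?_
    have hu1 : (1 : ℝ) ≤ (u : ℝ) := by exact_mod_cast (Finset.mem_Icc.1 hu).1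
    have h2 := level_bound r c j i u
    have h3 : (0 : ℝ) ≤ 2 * (u : ℝ) - 1 := by linarith
    calc _ ≤ (2 * (u : ℝ) - 1) * (B * (((tabs r c).filter (fun T => u ≤ T j i)).card : ℝ)) :=
          mul_le_mul_of_nonneg_left h2 h3
      _ = _ := by ring
  have e3 : ∑ T ∈ tabs r c, f2 T ^ 2 = ∑ j, ∑ i, ∑ T ∈ tabs r c, f2 T * (T j i : ℝ) ^ 2 := by
    have : ∑ T ∈ tabs r c, f2 T ^ 2 = ∑ T ∈ tabs r c, ∑ j, ∑ i, f2 T * (T j i : ℝ) ^ 2 := by
      refine Finset.sum_congr rfl fun T _ => ?_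
      rw [sq]
      conv_lhs => rw [show f2 T * f2 T = f2 T * ∑ j, ∑ i, (T j i : ℝ) ^ 2 from rfl]
      rw [Finset.mul_sum]
      refine Finset.sum_congr rfl fun j _ => ?_
      rw [Finset.mul_sum]
    rw [this, Finset.sum_comm]
    refine Finset.sum_congr rfl fun j _ => ?_
    rw [Finset.sum_comm]
  have e4 : ∑ T ∈ tabs r c, f2 T = ∑ j, ∑ i, ∑ T ∈ tabs r c, (T j i : ℝ) ^ 2 := by
    unfold f2
    rw [Finset.sum_comm]
    refine Finset.sum_congr rfl fun j _ => ?_
    rw [Finset.sum_comm]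
  rw [e3]
  calc _ ≤ ∑ j, ∑ i, B * ∑ T ∈ tabs r c, (T j i : ℝ) ^ 2 :=
        Finset.sum_le_sum fun j _ => Finset.sum_le_sum fun i _ => hcell j i
    _ = B * ∑ T ∈ tabs r c, f2 T := by
        rw [e4, Finset.mul_sum]
        refine Finset.sum_congr rfl fun j _ => ?_
        rw [Finset.mul_sum]
    _ ≤ B * ((((∑ j, c j : ℕ) : ℝ) + 2 * Sb r c) * ((tabs r c).card : ℝ)) :=
        mul_le_mul_of_nonneg_left (moment_one r c) hB0
    _ = _ := by ring

theorem totS_of_mem {r : Fin m → ℕ} {c : Fin n → ℕ} {T : Fin n → Fin m → ℕ} (hT : T ∈ tabs r c) :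
    totS T = ∑ j, c j := by
  unfold totS
  exact Finset.sum_congr rfl fun j _ => (mem_tabs.1 hT).1 j

/-- `Qt` on the tables. -/
theorem Qt_eq_tab {r : Fin m → ℕ} {c : Fin n → ℕ} {T : Fin n → Fin m → ℕ} (hT : T ∈ tabs r c)
    (hN : 0 < ∑ j, c j) : Qt T = 1 + f2 T / ((∑ j, c j : ℕ) : ℝ) := by
  have hN' : (0 : ℝ) < ((∑ j, c j : ℕ) : ℝ) := by exact_mod_cast hN
  unfold Qt
  rw [totS_of_mem hT]
  have h1 : ∑ j, ∑ i, (T j i : ℝ) * (1 + (T j i : ℝ)) = ((∑ j, c j : ℕ) : ℝ) + f2 T := by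
    unfold f2
    have h2 : ((∑ j, c j : ℕ) : ℝ) = ∑ j, ∑ i, (T j i : ℝ) := by
      rw [← totS_of_mem hT]
      unfold totS
      push_cast
      rfl
    rw [h2, ← Finset.sum_add_distrib]
    refine Finset.sum_congr rfl fun j _ => ?_
    rw [← Finset.sum_add_distrib]
    refine Finset.sum_congr rfl fun i _ => ?_
    ring
  rw [h1]
  field_simp

/-- The moments of the statistic `Qt`. -/
theorem sum_Qt (r : Fin m → ℕ) (c : Fin n → ℕ) (hsum : ∑ i, r i = ∑ j, c j) (hN : 0 < ∑ i, r i) :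
    ∑ T ∈ tabs r c, Qt T ≤ (2 + 2 * Kp r c) * ((tabs r c).card : ℝ) := by
  have hN1 : 0 < ∑ j, c j := by omega
  set N : ℝ := ((∑ j, c j : ℕ) : ℝ) with hNd
  have hN' : 0 < N := by
    rw [hNd]
    exact_mod_cast hN1
  have hSb := Sb_nonneg r c
  have hK : Sb r c / N ≤ Kp r c := by
    unfold Kp
    rw [hsum, ← hNd]
    apply div_le_div_of_nonneg_right _ hN'.le
    nlinarith [sq_nonneg (Dm r c : ℝ)]
  have h1 : ∑ T ∈ tabs r c, Qt T = ∑ T ∈ tabs r c, (1 + f2 T / N) :=
    Finset.sum_congr rfl fun T hT => Qt_eq_tab hT hN1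
  rw [h1, Finset.sum_add_distrib, ← Finset.sum_div]
  simp only [Finset.sum_const, nsmul_eq_mul, mul_one]
  have h2 := moment_one r c
  rw [← hNd] at h2
  have hM0 : (0 : ℝ) ≤ ((tabs r c).card : ℝ) := Nat.cast_nonneg _
  have h3 : (∑ T ∈ tabs r c, f2 T) / N ≤ (1 + 2 * (Sb r c / N)) * ((tabs r c).card : ℝ) := by
    rw [div_le_iff₀ hN']
    refine h2.trans (le_of_eq ?_)
    field_simp
  nlinarith

theorem sum_Qt_sq (r : Fin m → ℕ) (c : Fin n → ℕ) (hsum : ∑ i, r i = ∑ j, c j) (hN : 0 < ∑ i, r i) :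
    ∑ T ∈ tabs r c, Qt T ^ 2 ≤ 10 * (1 + Kp r c) ^ 2 * ((tabs r c).card : ℝ) := by
  have hN1 : 0 < ∑ j, c j := by omega
  set N : ℝ := ((∑ j, c j : ℕ) : ℝ) with hNd
  have hN' : 0 < N := by
    rw [hNd]
    exact_mod_cast hN1
  have hSb := Sb_nonneg r c
  set K := Kp r c with hKd
  have hKe : K = Sb r c / N + (Dm r c : ℝ) ^ 2 / N := by
    rw [hKd]
    unfold Kp
    rw [hsum, ← hNd]
    ring
  set s := Sb r c / N with hs
  set d := (Dm r c : ℝ) ^ 2 / N with hd
  have hs0 : 0 ≤ s := div_nonneg hSb hN'.le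
  have hd0 : 0 ≤ d := div_nonneg (sq_nonneg _) hN'.le
  have h1 : ∑ T ∈ tabs r c, Qt T ^ 2
      = ∑ T ∈ tabs r c, (1 + 2 * (f2 T / N) + f2 T ^ 2 / N ^ 2) := by
    refine Finset.sum_congr rfl fun T hT => ?_
    rw [Qt_eq_tab hT hN1, ← hNd]
    field_simp
    ring
  rw [h1, Finset.sum_add_distrib, Finset.sum_add_distrib, ← Finset.sum_div, ← Finset.mul_sum,
    ← Finset.sum_div]
  simp only [Finset.sum_const, nsmul_eq_mul, mul_one]
  have hM0 : (0 : ℝ) ≤ ((tabs r c).card : ℝ) := Nat.cast_nonneg _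
  have h2 : (∑ T ∈ tabs r c, f2 T) / N ≤ (1 + 2 * s) * ((tabs r c).card : ℝ) := by
    rw [div_le_iff₀ hN']
    refine (moment_one r c).trans (le_of_eq ?_)
    rw [← hNd, hs]
    field_simp
  have h3 : (∑ T ∈ tabs r c, f2 T ^ 2) / N ^ 2
      ≤ (1 + 2 * s + 3 * d) * (1 + 2 * s) * ((tabs r c).card : ℝ) := by
    rw [div_le_iff₀ (by positivity)]
    refine (moment_two r c).trans (le_of_eq ?_)
    rw [← hNd, hs, hd]
    field_simp
  rw [hKe]
  nlinarith [mul_nonneg hs0 hd0, mul_nonneg hs0 hs0, mul_nonneg hd0 hd0,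
    mul_nonneg (mul_nonneg hs0 hd0) hM0, mul_nonneg (mul_nonneg hs0 hs0) hM0,
    mul_nonneg (mul_nonneg hd0 hd0) hM0, mul_nonneg hs0 hM0, mul_nonneg hd0 hM0]

end Vale.Agent.Lib.P328.Sparse
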