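import Vale.Agent.Lib.P328.Sparse.Unroll
import Vale.Agent.Lib.P328.Sparse.Gamma
import Vale.Agent.Lib.P328.Sparse.Hyper
import Vale.Agent.Lib.P328.Sparse.Moment

/-!
# P328, sparse margins: the final bound
-/

namespace Vale.Agent.Lib.P328.Sparse

open Finset MeasureTheory Vale.Agent.Lib.P328.Cap
open scoped ENNReal Nat

variable {m n : ℕ}

/-- The right side of the pointwise bound for `F log K`. -/
noncomputable def Gf (r : Fin m → ℕ) (c : Fin n → ℕ) (t : Fin n → Fin m → ℝ) : ℝ :=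
  ∑ p ∈ Finset.Icc 1 (∑ i, r i),
    (2 / ((p : ℝ) * (((∑ i, r i).choose p : ℕ) : ℝ))) *
      ∑ T ∈ tabs r c, wt t T * ∑ S ∈ subLev T p, (cp T S : ℝ) * GGP (lightSet T p) S t

/-- The linearisation of the logarithm. -/
theorem pointwise {t : Fin n → Fin m → ℝ} (ht : ∀ j i, 0 < t j i) (r : Fin m → ℕ) (c : Fin n → ℕ)
    (hsum : ∑ i, r i = ∑ j, c j) (hM : 0 < ∑ i, r i) (a : ℝ) :
    (1 + a) * FF r c t
      ≤ Real.exp a * betaC c * capR r c t / (∏ i, (((r i)! : ℕ) : ℝ)) + Gf r c t := by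
  have hF := FF_pos ht r c hsum
  have hC := capR_pos ht r c hsum
  have hB := betaC_pos c
  have hFa : 0 < ∏ i, (((r i)! : ℕ) : ℝ) :=
    Finset.prod_pos fun i _ => by exact_mod_cast Nat.factorial_pos _
  set Fa := ∏ i, (((r i)! : ℕ) : ℝ) with hFad
  have hL : Real.exp (LK r c t) = Fa * FF r c t / (capR r c t * betaC c) := by
    unfold LK
    rw [Real.exp_sub, Real.exp_sub, Real.exp_log (mul_pos hFa hF), Real.exp_log hC,
      Real.exp_log hB]
    field_simp
  have h1 := Real.add_one_le_exp (a - LK r c t)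
  have h2 : FF r c t * Real.exp (a - LK r c t)
      = Real.exp a * betaC c * capR r c t / Fa := by
    rw [Real.exp_sub, hL]
    field_simp
  have h3 : FF r c t * (a - LK r c t + 1) ≤ FF r c t * Real.exp (a - LK r c t) :=
    mul_le_mul_of_nonneg_left h1 hF.le
  have h4 := FF_LK_le ht r c hsum hM
  change FF r c t * LK r c t ≤ Gf r c t at h4
  nlinarith

/-- Interchange of a finite sum with a constant factor and the integral. -/
theorem lint_sum {ι α : Type*} [MeasurableSpace α] {μ : Measure α} (s : Finset ι) (k : ι → ℝ≥0∞)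
    (f : ι → α → ℝ≥0∞) (hm : ∀ i ∈ s, Measurable (f i)) :
    ∫⁻ t, ∑ i ∈ s, k i * f i t ∂μ = ∑ i ∈ s, k i * ∫⁻ t, f i t ∂μ := by
  rw [lintegral_finsetSum s fun i hi => (hm i hi).const_mul (k i)]
  exact Finset.sum_congr rfl fun i hi => lintegral_const_mul _ (hm i hi)

/-- The integrand of a triple `(p, T, S)`. -/
noncomputable def ph (p : ℕ) (T S : Fin n → Fin m → ℕ) (t : Fin n → Fin m → ℝ) : ℝ≥0∞ :=
  wmat t * ENNReal.ofReal (wt t T) * ENNReal.ofReal (GGP (lightSet T p) S t)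

theorem measurable_ph (p : ℕ) (T S : Fin n → Fin m → ℕ) :
    Measurable (ph (m := m) (n := n) p T S) := by
  unfold ph
  exact (measurable_wmat.mul (measurable_wt T).ennreal_ofReal).mul
    (measurable_GGP _ S).ennreal_ofReal

/-- The bound of the integral for a triple. -/
theorem lint_ph (p : ℕ) (hp : 1 ≤ p) (T S : Fin n → Fin m → ℕ) (hS : S ∈ subLev T p) :
    ∫⁻ t, ph p T S t
      ≤ ENNReal.ofReal (if Good T S p then 576 * Wl T S p ^ 2 + Hv T S p else (p : ℝ)) := by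
  unfold ph
  split_ifs with hG
  · exact gamma_good T S p hS hp hG
  · have h := gamma_triv T S (lightSet T p)
    have h2 : totS S = p := (mem_filter.1 hS).2
    rw [h2] at h
    exact h

theorem bracket_nonneg (T S : Fin n → Fin m → ℕ) (p : ℕ) :
    0 ≤ (if Good T S p then 576 * Wl T S p ^ 2 + Hv T S p else (p : ℝ)) := by
  split_ifs with hG
  · have h : 0 ≤ Hv T S p := by
      unfold Hv
      refine Finset.sum_nonneg fun j _ => Finset.sum_nonneg fun i _ => ?_
      split_ifs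
      · positivity
      · exact le_rfl
    positivity
  · positivity

/-- The sub-tables at level `p` of one table. -/
theorem lint_S {r : Fin m → ℕ} {c : Fin n → ℕ} (hsum : ∑ i, r i = ∑ j, c j) (hM : 0 < ∑ i, r i)
    (hr : ∀ i, 32 * r i ≤ ∑ i, r i) (hc : ∀ j, 32 * c j ≤ ∑ i, r i)
    (p : ℕ) (hp : 1 ≤ p) (hpN : p ≤ ∑ i, r i) (T : Fin n → Fin m → ℕ) (hT : T ∈ tabs r c) :
    ∑ S ∈ subLev T p, ENNReal.ofReal (cp T S : ℝ) * ∫⁻ t, ph p T S t
      ≤ ENNReal.ofReal (((∑ i, r i).choose p : ℕ) *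
          (576 * (Qt T ^ 2 + Qt T) + 3 * Qt T + 2048)) := by
  have htot : totS T = ∑ i, r i := by rw [totS_of_mem hT, hsum]
  have h1 : ∑ S ∈ subLev T p, ENNReal.ofReal (cp T S : ℝ) * ∫⁻ t, ph p T S t
      ≤ ∑ S ∈ subLev T p, ENNReal.ofReal ((cp T S : ℝ) *
          (if Good T S p then 576 * Wl T S p ^ 2 + Hv T S p else (p : ℝ))) := by
    refine Finset.sum_le_sum fun S hS => ?_
    rw [ENNReal.ofReal_mul (Nat.cast_nonneg _)]
    exact mul_le_mul_right (lint_ph p hp T S hS) _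
  refine h1.trans ?_
  rw [← ENNReal.ofReal_sum_of_nonneg fun S _ =>
    mul_nonneg (Nat.cast_nonneg _) (bracket_nonneg T S p)]
  refine ENNReal.ofReal_le_ofReal ?_
  have hrow : ∀ i, rowS T i = r i := (mem_tabs.1 hT).2
  have hcol : ∀ j, colS T j = c j := (mem_tabs.1 hT).1
  have h2 := expected_good T (by omega) (fun i => by rw [hrow, htot]; exact hr i)
    (fun j => by rw [hcol, htot]; exact hc j) p hp (by omega)
  rw [htot] at h2
  exact h2

theorem Kp_nonneg (r : Fin m → ℕ) (c : Fin n → ℕ) : 0 ≤ Kp r c := by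
  unfold Kp
  have := Sb_nonneg r c
  positivity

/-- The sum over tables at level `p`. -/
theorem lint_T {r : Fin m → ℕ} {c : Fin n → ℕ} (hsum : ∑ i, r i = ∑ j, c j) (hM : 0 < ∑ i, r i)
    (hr : ∀ i, 32 * r i ≤ ∑ i, r i) (hc : ∀ j, 32 * c j ≤ ∑ i, r i)
    (p : ℕ) (hp : 1 ≤ p) (hpN : p ≤ ∑ i, r i) :
    ∑ T ∈ tabs r c, ∑ S ∈ subLev T p, ENNReal.ofReal (cp T S : ℝ) * ∫⁻ t, ph p T S t
      ≤ ENNReal.ofReal (((∑ i, r i).choose p : ℕ) *
          (8966 * (1 + Kp r c) ^ 2 * ((tabs r c).card : ℝ))) := by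
  have hQ0 : ∀ T ∈ tabs r c, 0 ≤ Qt T := fun T _ => by
    unfold Qt
    refine div_nonneg (Finset.sum_nonneg fun j _ => Finset.sum_nonneg fun i _ => ?_)
      (Nat.cast_nonneg _)
    positivity
  have h1 : ∑ T ∈ tabs r c, ∑ S ∈ subLev T p, ENNReal.ofReal (cp T S : ℝ) * ∫⁻ t, ph p T S t
      ≤ ∑ T ∈ tabs r c, ENNReal.ofReal (((∑ i, r i).choose p : ℕ) *
          (576 * (Qt T ^ 2 + Qt T) + 3 * Qt T + 2048)) :=
    Finset.sum_le_sum fun T hT => lint_S hsum hM hr hc p hp hpN T hT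
  refine h1.trans ?_
  rw [← ENNReal.ofReal_sum_of_nonneg fun T hT => mul_nonneg (Nat.cast_nonneg _) (by
    have := hQ0 T hT
    positivity)]
  refine ENNReal.ofReal_le_ofReal ?_
  rw [← Finset.mul_sum]
  refine mul_le_mul_of_nonneg_left ?_ (Nat.cast_nonneg _)
  have hs1 := sum_Qt r c hsum hM
  have hs2 := sum_Qt_sq r c hsum hM
  have hK := Kp_nonneg r c
  have hC : (0 : ℝ) ≤ ((tabs r c).card : ℝ) := Nat.cast_nonneg _
  have e : ∑ T ∈ tabs r c, (576 * (Qt T ^ 2 + Qt T) + 3 * Qt T + 2048)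
      = 576 * ∑ T ∈ tabs r c, Qt T ^ 2 + 579 * ∑ T ∈ tabs r c, Qt T
        + 2048 * ((tabs r c).card : ℝ) := by
    have e0 : 2048 * ((tabs r c).card : ℝ) = ∑ _T ∈ tabs r c, (2048 : ℝ) := by
      rw [Finset.sum_const, nsmul_eq_mul, mul_comm]
    rw [e0, Finset.mul_sum, Finset.mul_sum, ← Finset.sum_add_distrib, ← Finset.sum_add_distrib]
    refine Finset.sum_congr rfl fun T _ => ?_
    ring
  rw [e]
  have hc1 : (1 + Kp r c) * ((tabs r c).card : ℝ) ≤ (1 + Kp r c) ^ 2 * ((tabs r c).card : ℝ) := by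
    refine mul_le_mul_of_nonneg_right ?_ hC
    nlinarith
  have hc2 : ((tabs r c).card : ℝ) ≤ (1 + Kp r c) ^ 2 * ((tabs r c).card : ℝ) := by
    have : (1 : ℝ) ≤ (1 + Kp r c) ^ 2 := by nlinarith
    nlinarith
  nlinarith

/-- The integral of the partner sums. -/
theorem lint_Gf {r : Fin m → ℕ} {c : Fin n → ℕ} (hsum : ∑ i, r i = ∑ j, c j) (hM : 0 < ∑ i, r i)
    (hr : ∀ i, 32 * r i ≤ ∑ i, r i) (hc : ∀ j, 32 * c j ≤ ∑ i, r i) :
    ∫⁻ t, wmat t * ENNReal.ofReal (Gf r c t)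
      ≤ ENNReal.ofReal (18000 * (1 + Kp r c) ^ 2 * (1 + Real.log ((∑ i, r i : ℕ) : ℝ)) *
          ((tabs r c).card : ℝ)) := by
  set N := ∑ i, r i with hNd
  set K := Kp r c with hKd
  set Mc : ℝ := ((tabs r c).card : ℝ) with hMc
  have hK : 0 ≤ K := Kp_nonneg r c
  have hMc0 : 0 ≤ Mc := Nat.cast_nonneg _
  set coef : ℕ → ℝ := fun p => 2 / ((p : ℝ) * ((N.choose p : ℕ) : ℝ)) with hcoef
  have hcoef0 : ∀ p, 0 ≤ coef p := fun p => by
    simp only [hcoef]
    positivity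
  -- the pointwise comparison
  have hpt : ∀ t : Fin n → Fin m → ℝ, wmat t * ENNReal.ofReal (Gf r c t)
      ≤ ∑ p ∈ Finset.Icc 1 N, ENNReal.ofReal (coef p) *
          ∑ T ∈ tabs r c, ∑ S ∈ subLev T p, ENNReal.ofReal (cp T S : ℝ) * ph p T S t := by
    intro t
    by_cases hw : wmat t = 0
    · rw [hw, zero_mul]
      exact zero_le
    have ht := wmat_ne_zero_pos hw
    have hGG : ∀ (p : ℕ) (T S : Fin n → Fin m → ℕ), 0 ≤ GGP (lightSet T p) S t :=
      fun p T S => GGP_nonneg ht _ _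
    have hwt : ∀ T : Fin n → Fin m → ℕ, 0 ≤ wt t T := fun T => (wt_pos ht T).le
    have hin : ∀ (p : ℕ) (T : Fin n → Fin m → ℕ),
        0 ≤ ∑ S ∈ subLev T p, (cp T S : ℝ) * GGP (lightSet T p) S t := fun p T =>
      Finset.sum_nonneg fun S _ => mul_nonneg (Nat.cast_nonneg _) (hGG p T S)
    have hin2 : ∀ p : ℕ,
        0 ≤ ∑ T ∈ tabs r c, wt t T * ∑ S ∈ subLev T p, (cp T S : ℝ) * GGP (lightSet T p) S t :=
      fun p => Finset.sum_nonneg fun T _ => mul_nonneg (hwt T) (hin p T)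
    unfold Gf
    rw [ENNReal.ofReal_sum_of_nonneg fun p _ => mul_nonneg (hcoef0 p) (hin2 p), Finset.mul_sum]
    refine le_of_eq (Finset.sum_congr rfl fun p _ => ?_)
    rw [ENNReal.ofReal_mul (hcoef0 p), mul_left_comm]
    congr 1
    rw [ENNReal.ofReal_sum_of_nonneg fun T _ => mul_nonneg (hwt T) (hin p T), Finset.mul_sum]
    refine Finset.sum_congr rfl fun T _ => ?_
    rw [ENNReal.ofReal_mul (hwt T),
      ENNReal.ofReal_sum_of_nonneg fun S _ => mul_nonneg (Nat.cast_nonneg _) (hGG p T S),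
      Finset.mul_sum, Finset.mul_sum]
    refine Finset.sum_congr rfl fun S _ => ?_
    rw [ENNReal.ofReal_mul (Nat.cast_nonneg _)]
    unfold ph
    ring
  refine (lintegral_mono hpt).trans ?_
  -- interchange
  have hint : ∫⁻ t, ∑ p ∈ Finset.Icc 1 N, ENNReal.ofReal (coef p) *
        ∑ T ∈ tabs r c, ∑ S ∈ subLev T p, ENNReal.ofReal (cp T S : ℝ) * ph p T S t
      = ∑ p ∈ Finset.Icc 1 N, ENNReal.ofReal (coef p) *
        ∑ T ∈ tabs r c, ∑ S ∈ subLev T p, ENNReal.ofReal (cp T S : ℝ) * ∫⁻ t, ph p T S t := by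
    rw [lint_sum]
    · refine Finset.sum_congr rfl fun p _ => ?_
      congr 1
      rw [lintegral_finsetSum]
      · refine Finset.sum_congr rfl fun T _ => ?_
        exact lint_sum _ _ _ fun S _ => measurable_ph p T S
      · intro T _
        exact Finset.measurable_sum _ fun S _ => (measurable_ph p T S).const_mul _
    · intro p _
      exact Finset.measurable_sum _ fun T _ =>
        Finset.measurable_sum _ fun S _ => (measurable_ph p T S).const_mul _
  rw [hint]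
  -- sum over p
  have hpb : ∀ p ∈ Finset.Icc 1 N, ENNReal.ofReal (coef p) *
        ∑ T ∈ tabs r c, ∑ S ∈ subLev T p, ENNReal.ofReal (cp T S : ℝ) * ∫⁻ t, ph p T S t
      ≤ ENNReal.ofReal (17932 * (1 + K) ^ 2 * Mc * ((1 : ℝ) / (p : ℝ))) := by
    intro p hp
    obtain ⟨hp1, hp2⟩ := Finset.mem_Icc.1 hp
    have h := lint_T hsum hM hr hc p hp1 hp2
    refine (mul_le_mul_right h _).trans ?_
    rw [← ENNReal.ofReal_mul (hcoef0 p)]
    refine ENNReal.ofReal_le_ofReal (le_of_eq ?_)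
    simp only [hcoef]
    have hp0 : (p : ℝ) ≠ 0 := by
      have : 0 < p := hp1
      positivity
    have hch : ((N.choose p : ℕ) : ℝ) ≠ 0 := by
      have := Nat.choose_pos hp2
      positivity
    field_simp
    ring
  refine (Finset.sum_le_sum hpb).trans ?_
  rw [← ENNReal.ofReal_sum_of_nonneg fun p _ => by positivity, ← Finset.mul_sum]
  refine ENNReal.ofReal_le_ofReal ?_
  have hH : ∑ p ∈ Finset.Icc 1 N, (1 : ℝ) / (p : ℝ) ≤ 1 + Real.log (N : ℝ) := by
    have h := harmonic_le_one_add_log N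
    have e : ((harmonic N : ℚ) : ℝ) = ∑ p ∈ Finset.Icc 1 N, (1 : ℝ) / (p : ℝ) := by
      rw [harmonic_eq_sum_Icc]
      push_cast
      exact Finset.sum_congr rfl fun p _ => by rw [one_div]
    rw [e] at h
    exact h
  have hlog : 0 ≤ Real.log (N : ℝ) := Real.log_natCast_nonneg N
  have hS0 : 0 ≤ (1 + K) ^ 2 * Mc := by positivity
  calc 17932 * (1 + K) ^ 2 * Mc * ∑ p ∈ Finset.Icc 1 N, (1 : ℝ) / (p : ℝ)
      ≤ 17932 * (1 + K) ^ 2 * Mc * (1 + Real.log (N : ℝ)) :=
        mul_le_mul_of_nonneg_left hH (by positivity)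
    _ ≤ 18000 * (1 + K) ^ 2 * (1 + Real.log (N : ℝ)) * Mc := by
        have : 0 ≤ (1 + K) ^ 2 * Mc * (1 + Real.log (N : ℝ)) := by positivity
        nlinarith

/-- The expected value of `log K` under the law of density `wmat * F / #tables`. -/
theorem lint_FF_LK (r : Fin m → ℕ) (c : Fin n → ℕ) (hsum : ∑ i, r i = ∑ j, c j)
    (hN : 0 < ∑ i, r i) (hr : ∀ i, 32 * r i ≤ ∑ i, r i) (hc : ∀ j, 32 * c j ≤ ∑ i, r i) :
    ∫⁻ t, wmat t * ENNReal.ofReal (FF r c t * LK r c t)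
      ≤ ENNReal.ofReal (18000 * (1 + Kp r c) ^ 2 * (1 + Real.log ((∑ i, r i : ℕ) : ℝ)) *
          ((tabs r c).card : ℝ)) := by
  refine le_trans (lintegral_mono fun t => ?_) (lint_Gf hsum hN hr hc)
  by_cases hw : wmat t = 0
  · simp [hw]
  · exact mul_le_mul_right (ENNReal.ofReal_le_ofReal
      (FF_LK_le (wmat_ne_zero_pos hw) r c hsum hN)) _

/-- The bound of the number of tables by the expected capacity, with `Kp r c` in the exponent. -/
theorem card_tabs_le_sparse (r : Fin m → ℕ) (c : Fin n → ℕ) (hsum : ∑ i, r i = ∑ j, c j)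
    (hN : 0 < ∑ i, r i) (hr : ∀ i, 32 * r i ≤ ∑ i, r i) (hc : ∀ j, 32 * c j ≤ ∑ i, r i) :
    ((tabs r c).card : ℝ≥0∞)
      ≤ ENNReal.ofReal
          (Real.exp (18000 * (1 + Kp r c) ^ 2 * (1 + Real.log ((∑ i, r i : ℕ) : ℝ))) * betaC c)
        * Ihat r c := by
  set a : ℝ := 18000 * (1 + Kp r c) ^ 2 * (1 + Real.log ((∑ i, r i : ℕ) : ℝ)) with ha
  have hK := Kp_nonneg r c
  have hlog : 0 ≤ Real.log ((∑ i, r i : ℕ) : ℝ) := Real.log_natCast_nonneg _
  have ha0 : 0 ≤ a := by positivity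
  set Mc : ℝ≥0∞ := ((tabs r c).card : ℝ≥0∞) with hMc
  have hMcr : ENNReal.ofReal ((tabs r c).card : ℝ) = Mc := ENNReal.ofReal_natCast _
  set X : ℝ := Real.exp a * betaC c with hX
  have hX0 : 0 ≤ X := mul_nonneg (Real.exp_pos _).le (betaC_pos c).le
  set Fc : ℝ≥0∞ := ((∏ i, (r i)! : ℕ) : ℝ≥0∞) with hFc
  -- the integral of `F`
  have hLHS : ∫⁻ t, wmat t * ENNReal.ofReal (FF r c t) = Mc := by
    have h1 : ∀ t : Fin n → Fin m → ℝ, wmat t * ENNReal.ofReal (FF r c t)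
        = ∑ T ∈ tabs r c, wmat t * ENNReal.ofReal (wt t T) := by
      intro t
      by_cases hw : wmat t = 0
      · simp [hw]
      have ht := wmat_ne_zero_pos hw
      unfold FF
      rw [ENNReal.ofReal_sum_of_nonneg fun T _ => (wt_pos ht T).le, Finset.mul_sum]
    rw [lintegral_congr h1, lintegral_finsetSum]
    · rw [Finset.sum_congr rfl fun T _ => gamma_mass T]
      simp [hMc]
    · intro T _
      exact measurable_wmat.mul (measurable_wt T).ennreal_ofReal
  -- pointwise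
  have hpt : ∀ t : Fin n → Fin m → ℝ, ENNReal.ofReal (1 + a) * (wmat t * ENNReal.ofReal (FF r c t))
      ≤ (ENNReal.ofReal X * Fc⁻¹) * (wmat t * capa r c t) + wmat t * ENNReal.ofReal (Gf r c t) := by
    intro t
    by_cases hw : wmat t = 0
    · simp [hw]
    have ht := wmat_ne_zero_pos hw
    have hp := pointwise ht r c hsum hN a
    have hFa : 0 < ∏ i, (((r i)! : ℕ) : ℝ) :=
      Finset.prod_pos fun i _ => by exact_mod_cast Nat.factorial_pos _
    have h1 : ENNReal.ofReal ((1 + a) * FF r c t)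
        ≤ ENNReal.ofReal X * Fc⁻¹ * capa r c t + ENNReal.ofReal (Gf r c t) := by
      refine (ENNReal.ofReal_le_ofReal hp).trans ?_
      refine ENNReal.ofReal_add_le.trans ?_
      refine add_le_add (le_of_eq ?_) le_rfl
      have hFcr : ENNReal.ofReal (∏ i, (((r i)! : ℕ) : ℝ)) = Fc := by
        rw [hFc, ← ENNReal.ofReal_natCast]
        push_cast
        rfl
      have e1 : Real.exp a * betaC c * capR r c t / (∏ i, (((r i)! : ℕ) : ℝ))
          = X * ((∏ i, (((r i)! : ℕ) : ℝ)))⁻¹ * capR r c t := by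
        rw [hX]
        field_simp
      rw [e1, capa_eq_ofReal, ENNReal.ofReal_mul (mul_nonneg hX0 (inv_nonneg.2 hFa.le)),
        ENNReal.ofReal_mul hX0, ENNReal.ofReal_inv_of_pos hFa, hFcr]
    rw [ENNReal.ofReal_mul (by positivity)] at h1
    calc ENNReal.ofReal (1 + a) * (wmat t * ENNReal.ofReal (FF r c t))
        = wmat t * (ENNReal.ofReal (1 + a) * ENNReal.ofReal (FF r c t)) := by ring
      _ ≤ wmat t * (ENNReal.ofReal X * Fc⁻¹ * capa r c t + ENNReal.ofReal (Gf r c t)) :=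
          mul_le_mul_right h1 _
      _ = _ := by ring
  -- integrate
  have hint := lintegral_mono (μ := volume) hpt
  have hmeas : Measurable fun t : Fin n → Fin m → ℝ =>
      ENNReal.ofReal X * Fc⁻¹ * (wmat t * capa r c t) :=
    (measurable_wmat.mul (capa_measurable r c)).const_mul _
  rw [lintegral_const_mul' _ _ ENNReal.ofReal_ne_top, hLHS,
    lintegral_add_left hmeas,
    lintegral_const_mul' _ _ (ENNReal.mul_ne_top ENNReal.ofReal_ne_top
      (ENNReal.inv_ne_top.2 (by simp [hFc, Finset.prod_eq_zero_iff, Nat.factorial_ne_zero])))] at hint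
  have hG := lint_Gf hsum hN hr hc
  rw [← ha] at hG
  have hI : ENNReal.ofReal X * Fc⁻¹ * ∫⁻ t, wmat t * capa r c t = ENNReal.ofReal X * Ihat r c := by
    rw [Ihat_eq, div_eq_mul_inv]
    ring
  rw [hI] at hint
  have h3 : ENNReal.ofReal (1 + a) * Mc = Mc + ENNReal.ofReal a * Mc := by
    rw [ENNReal.ofReal_add zero_le_one ha0, ENNReal.ofReal_one, add_mul, one_mul]
  have h4 : ENNReal.ofReal (a * ((tabs r c).card : ℝ)) = ENNReal.ofReal a * Mc := by
    rw [ENNReal.ofReal_mul ha0, hMcr]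
  rw [h4] at hG
  rw [h3] at hint
  have h5 : Mc + ENNReal.ofReal a * Mc ≤ ENNReal.ofReal X * Ihat r c + ENNReal.ofReal a * Mc :=
    hint.trans (add_le_add le_rfl hG)
  have hfin : ENNReal.ofReal a * Mc ≠ ⊤ :=
    ENNReal.mul_ne_top ENNReal.ofReal_ne_top (ENNReal.natCast_ne_top _)
  exact (ENNReal.add_le_add_iff_right hfin).1 h5

end Vale.Agent.Lib.P328.Sparse
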