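import Vale.Agent.Lib.P328.Sparse.Chain
import Vale.Agent.Lib.P328.Sparse.Flux

/-!
# P328, sparse margins: unrolling the chain inequality over the removed part
-/

namespace Vale.Agent.Lib.P328.Sparse

open Finset MeasureTheory Vale.Agent.Lib.P328.Cap
open scoped ENNReal Nat

variable {m n : ℕ}

theorem entry_le_rowS (Y : Fin n → Fin m → ℕ) (j : Fin n) (i : Fin m) : Y j i ≤ rowS Y i :=
  Finset.single_le_sum (f := fun z => Y z i) (fun _ _ => Nat.zero_le _) (mem_univ j)

theorem entry_le_colS (Y : Fin n → Fin m → ℕ) (j : Fin n) (i : Fin m) : Y j i ≤ colS Y j :=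
  Finset.single_le_sum (f := fun z => Y j z) (fun _ _ => Nat.zero_le _) (mem_univ i)

theorem mem_Ylev {r : Fin m → ℕ} {c : Fin n → ℕ} {q : ℕ} {Y : Fin n → Fin m → ℕ} :
    Y ∈ Ylev r c q ↔ (∀ i, rowS Y i ≤ r i) ∧ (∀ j, colS Y j ≤ c j) ∧ totS Y = q := by
  unfold Ylev
  rw [mem_filter]
  constructor
  · exact fun h => h.2
  · intro h
    refine ⟨?_, h⟩
    rw [Fintype.mem_piFinset]
    intro j
    rw [Fintype.mem_piFinset]
    intro i
    rw [mem_range]
    have := entry_le_rowS Y j i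
    have := h.1 i
    omega

theorem totS_eq_sum_rowS (Y : Fin n → Fin m → ℕ) : totS Y = ∑ i, rowS Y i := by
  unfold totS rowS
  exact Finset.sum_comm

theorem totS_eq_sum_colS (Y : Fin n → Fin m → ℕ) : totS Y = ∑ j, colS Y j := rfl

theorem sum_resR {r : Fin m → ℕ} {Y : Fin n → Fin m → ℕ} (h : ∀ i, rowS Y i ≤ r i) :
    ∑ i, resR r Y i + totS Y = ∑ i, r i := by
  rw [totS_eq_sum_rowS, ← Finset.sum_add_distrib]
  refine Finset.sum_congr rfl fun i _ => ?_
  unfold resR
  have := h i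
  omega

theorem sum_resC {c : Fin n → ℕ} {Y : Fin n → Fin m → ℕ} (h : ∀ j, colS Y j ≤ c j) :
    ∑ j, resC c Y j + totS Y = ∑ j, c j := by
  rw [totS_eq_sum_colS, ← Finset.sum_add_distrib]
  refine Finset.sum_congr rfl fun j _ => ?_
  unfold resC
  have := h j
  omega

theorem res_hsum {r : Fin m → ℕ} {c : Fin n → ℕ} (hsum : ∑ i, r i = ∑ j, c j)
    {q : ℕ} {Y : Fin n → Fin m → ℕ} (hY : Y ∈ Ylev r c q) :
    ∑ i, resR r Y i = ∑ j, resC c Y j := by
  obtain ⟨h1, h2, _⟩ := mem_Ylev.1 hY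
  have h3 := sum_resR h1
  have h4 := sum_resC h2
  omega

theorem rowS_bump (Y : Fin n → Fin m → ℕ) (j : Fin n) (i i' : Fin m) :
    rowS (bump Y j i) i' = rowS Y i' + if i' = i then 1 else 0 :=
  sum_bump_row Y j i i'

theorem colS_bump (Y : Fin n → Fin m → ℕ) (j j' : Fin n) (i : Fin m) :
    colS (bump Y j i) j' = colS Y j' + if j' = j then 1 else 0 :=
  sum_bump_col Y j i j'

theorem totS_bump (Y : Fin n → Fin m → ℕ) (j : Fin n) (i : Fin m) :
    totS (bump Y j i) = totS Y + 1 := by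
  rw [totS_eq_sum_rowS, totS_eq_sum_rowS]
  simp only [rowS_bump, Finset.sum_add_distrib]
  simp

theorem resR_bump (r : Fin m → ℕ) (Y : Fin n → Fin m → ℕ) (j : Fin n) (i : Fin m) :
    resR r (bump Y j i) = dec (resR r Y) i := by
  funext i'
  rw [dec_apply]
  unfold resR
  rw [rowS_bump]
  omega

theorem resC_bump (c : Fin n → ℕ) (Y : Fin n → Fin m → ℕ) (j : Fin n) (i : Fin m) :
    resC c (bump Y j i) = dec (resC c Y) j := by
  funext j'
  rw [dec_apply]
  unfold resC
  rw [colS_bump]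
  omega

theorem bump_mem_Ylev {r : Fin m → ℕ} {c : Fin n → ℕ} {q : ℕ} {Y : Fin n → Fin m → ℕ}
    (hY : Y ∈ Ylev r c q) {j : Fin n} {i : Fin m} (hi : 1 ≤ resR r Y i) (hj : 1 ≤ resC c Y j) :
    bump Y j i ∈ Ylev r c (q + 1) := by
  obtain ⟨h1, h2, h3⟩ := mem_Ylev.1 hY
  unfold resR at hi
  unfold resC at hj
  refine mem_Ylev.2 ⟨fun i' => ?_, fun j' => ?_, ?_⟩
  · rw [rowS_bump]
    by_cases h : i' = i
    · subst h
      simp
      omega
    · simp [h, h1 i']
  · rw [colS_bump]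
    by_cases h : j' = j
    · subst h
      simp
      omega
    · simp [h, h2 j']
  · rw [totS_bump, h3]

/-- Removing a unit from a table of `Ylev`. -/
theorem unb_props {r : Fin m → ℕ} {c : Fin n → ℕ} {q : ℕ} {Y : Fin n → Fin m → ℕ}
    (hY : Y ∈ Ylev r c (q + 1)) {j : Fin n} {i : Fin m} (h : 1 ≤ Y j i) :
    unb Y j i ∈ Ylev r c q ∧ 1 ≤ resR r (unb Y j i) i ∧ 1 ≤ resC c (unb Y j i) j := by
  obtain ⟨h1, h2, h3⟩ := mem_Ylev.1 hY
  have hb := bump_unb h
  have hrow : ∀ i', rowS Y i' = rowS (unb Y j i) i' + if i' = i then 1 else 0 := by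
    intro i'
    rw [← rowS_bump, hb]
  have hcol : ∀ j', colS Y j' = colS (unb Y j i) j' + if j' = j then 1 else 0 := by
    intro j'
    rw [← colS_bump, hb]
  have htot : totS Y = totS (unb Y j i) + 1 := by
    rw [← totS_bump _ j i, hb]
  refine ⟨mem_Ylev.2 ⟨fun i' => ?_, fun j' => ?_, ?_⟩, ?_, ?_⟩
  · have := hrow i'
    have := h1 i'
    omega
  · have := hcol j'
    have := h2 j'
    omega
  · omega
  · have h5 := hrow i
    have h6 := h1 i
    unfold resR
    simp at h5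
    omega
  · have h5 := hcol j
    have h6 := h2 j
    unfold resC
    simp at h5
    omega

/-- Shifting one unit from the remaining part to the removed part. -/
theorem Ylev_shift (t : Fin n → Fin m → ℝ) (r : Fin m → ℕ) (c : Fin n → ℕ)
    (q : ℕ) (j : Fin n) (i : Fin m) (G : (Fin m → ℕ) → (Fin n → ℕ) → ℝ) :
    ∑ Y ∈ Ylev r c q, wt t Y * (if 1 ≤ resR r Y i ∧ 1 ≤ resC c Y j then
        t j i * G (dec (resR r Y) i) (dec (resC c Y) j) else 0)
      = ∑ Y ∈ Ylev r c (q + 1), (Y j i : ℝ) * (wt t Y * G (resR r Y) (resC c Y)) := by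
  have h0 : ∑ Y ∈ Ylev r c q, wt t Y * (if 1 ≤ resR r Y i ∧ 1 ≤ resC c Y j then
        t j i * G (dec (resR r Y) i) (dec (resC c Y) j) else 0)
      = ∑ Y ∈ (Ylev r c q).filter (fun Y => 1 ≤ resR r Y i ∧ 1 ≤ resC c Y j),
        wt t Y * (t j i * G (dec (resR r Y) i) (dec (resC c Y) j)) := by
    rw [Finset.sum_filter]
    refine Finset.sum_congr rfl fun Y _ => ?_
    split_ifs <;> simp
  have h1 : ∑ Y ∈ Ylev r c (q + 1), (Y j i : ℝ) * (wt t Y * G (resR r Y) (resC c Y))
      = ∑ Y ∈ (Ylev r c (q + 1)).filter (fun Y => 1 ≤ Y j i),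
        (Y j i : ℝ) * (wt t Y * G (resR r Y) (resC c Y)) := by
    rw [Finset.sum_filter_of_ne]
    intro Y _ hY
    by_contra hlt
    apply hY
    have : Y j i = 0 := by omega
    simp [this]
  rw [h0, h1]
  refine Finset.sum_nbij' (fun Y => bump Y j i) (fun Y => unb Y j i) ?_ ?_ ?_ ?_ ?_
  · intro Y hY
    rw [mem_filter] at hY ⊢
    refine ⟨bump_mem_Ylev hY.1 hY.2.1 hY.2.2, ?_⟩
    rw [bump_apply]
    simp
  · intro Y hY
    rw [mem_filter] at hY ⊢
    obtain ⟨h2, h3, h4⟩ := unb_props hY.1 hY.2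
    exact ⟨h2, h3, h4⟩
  · intro Y _
    exact unb_bump Y j i
  · intro Y hY
    rw [mem_filter] at hY
    exact bump_unb hY.2
  · intro Y _
    rw [resR_bump, resC_bump, wt_bump]
    have h2 : ((bump Y j i j i : ℕ) : ℝ) = (Y j i : ℝ) + 1 := by
      rw [bump_apply]
      simp
    rw [h2]
    have h3 : (0 : ℝ) < (Y j i : ℝ) + 1 := by positivity
    field_simp

/-- The sum of the chain levels. -/
noncomputable def UU (r : Fin m → ℕ) (c : Fin n → ℕ) (t : Fin n → Fin m → ℝ) (q : ℕ) : ℝ :=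
  ∑ Y ∈ Ylev r c q, wt t Y * (FF (resR r Y) (resC c Y) t * LK (resR r Y) (resC c Y) t)

/-- The sum of the defects. -/
noncomputable def AA (r : Fin m → ℕ) (c : Fin n → ℕ) (t : Fin n → Fin m → ℝ) (q : ℕ) : ℝ :=
  ∑ Y ∈ Ylev r c q, wt t Y * (FF (resR r Y) (resC c Y) t * DD (resR r Y) (resC c Y) t)

/-- The recurrence of the chain levels. -/
theorem UU_step {t : Fin n → Fin m → ℝ} (ht : ∀ j i, 0 < t j i) (r : Fin m → ℕ) (c : Fin n → ℕ)
    (hsum : ∑ i, r i = ∑ j, c j) (q : ℕ) (hq : q < ∑ i, r i) :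
    (((∑ i, r i) - q : ℕ) : ℝ) * UU r c t q ≤ ((q : ℝ) + 1) * UU r c t (q + 1) + AA r c t q := by
  set G : (Fin m → ℕ) → (Fin n → ℕ) → ℝ := fun r' c' => FF r' c' t * LK r' c' t with hG
  have hstep : ∀ Y ∈ Ylev r c q,
      wt t Y * ((((∑ i, r i) - q : ℕ) : ℝ) * G (resR r Y) (resC c Y))
        ≤ wt t Y * ((∑ j, ∑ i, if 1 ≤ resR r Y i ∧ 1 ≤ resC c Y j then
            t j i * G (dec (resR r Y) i) (dec (resC c Y) j) else 0)
          + FF (resR r Y) (resC c Y) t * DD (resR r Y) (resC c Y) t) := by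
    intro Y hY
    refine mul_le_mul_of_nonneg_left ?_ (wt_pos ht Y).le
    obtain ⟨h1, _, h3⟩ := mem_Ylev.1 hY
    have h4 := sum_resR h1
    have h5 : ∑ i, resR r Y i = (∑ i, r i) - q := by omega
    have h6 := LK_step ht (resR r Y) (resC c Y) (res_hsum hsum hY) (by omega)
    rw [h5] at h6
    exact h6
  have h1 : (((∑ i, r i) - q : ℕ) : ℝ) * UU r c t q
      = ∑ Y ∈ Ylev r c q, wt t Y * (((∑ i, r i) - q : ℕ) * G (resR r Y) (resC c Y)) := by
    unfold UU
    rw [Finset.mul_sum]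
    exact Finset.sum_congr rfl fun Y _ => by ring
  rw [h1]
  refine (Finset.sum_le_sum hstep).trans (le_of_eq ?_)
  simp only [mul_add, Finset.sum_add_distrib]
  congr 1
  have h2 : ∑ Y ∈ Ylev r c q, wt t Y * ∑ j, ∑ i, (if 1 ≤ resR r Y i ∧ 1 ≤ resC c Y j then
        t j i * G (dec (resR r Y) i) (dec (resC c Y) j) else 0)
      = ∑ j, ∑ i, ∑ Y ∈ Ylev r c q, wt t Y * (if 1 ≤ resR r Y i ∧ 1 ≤ resC c Y j then
        t j i * G (dec (resR r Y) i) (dec (resC c Y) j) else 0) := by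
    simp only [Finset.mul_sum]
    rw [Finset.sum_comm]
    exact Finset.sum_congr rfl fun j _ => Finset.sum_comm
  rw [h2]
  simp only [Ylev_shift t r c q]
  have h3 : ∑ Y ∈ Ylev r c (q + 1), (∑ j, ∑ i, (Y j i : ℝ)) * (wt t Y * G (resR r Y) (resC c Y))
      = ∑ j, ∑ i, ∑ Y ∈ Ylev r c (q + 1), (Y j i : ℝ) * (wt t Y * G (resR r Y) (resC c Y)) := by
    simp only [Finset.sum_mul]
    rw [Finset.sum_comm]
    exact Finset.sum_congr rfl fun j _ => Finset.sum_comm
  rw [← h3]
  unfold UU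
  rw [Finset.mul_sum]
  refine Finset.sum_congr rfl fun Y hY => ?_
  obtain ⟨_, _, h4⟩ := mem_Ylev.1 hY
  have h5 : (∑ j, ∑ i, (Y j i : ℝ)) = (q : ℝ) + 1 := by
    have h6 : ((totS Y : ℕ) : ℝ) = ∑ j, ∑ i, (Y j i : ℝ) := by
      unfold totS
      push_cast
      rfl
    rw [← h6, h4]
    push_cast
    rfl
  rw [h5]

theorem Ylev_zero (r : Fin m → ℕ) (c : Fin n → ℕ) : Ylev r c 0 = {fun _ _ => 0} := by
  ext Y
  rw [mem_Ylev, mem_singleton]
  constructor
  · rintro ⟨_, _, h⟩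
    funext j i
    have h1 : Y j i ≤ colS Y j := entry_le_colS Y j i
    have h2 : colS Y j ≤ totS Y :=
      Finset.single_le_sum (f := fun z => colS Y z) (fun _ _ => Nat.zero_le _) (mem_univ j)
    omega
  · rintro rfl
    refine ⟨fun i => ?_, fun j => ?_, ?_⟩
    · simp [rowS]
    · simp [colS]
    · simp [totS]

theorem wt_zero (t : Fin n → Fin m → ℝ) : wt t (fun _ _ => 0) = 1 := by
  unfold wt
  simp

theorem UU_zero (r : Fin m → ℕ) (c : Fin n → ℕ) (t : Fin n → Fin m → ℝ) :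
    UU r c t 0 = FF r c t * LK r c t := by
  unfold UU
  rw [Ylev_zero, Finset.sum_singleton, wt_zero, one_mul]
  have h1 : resR r (fun _ _ => 0 : Fin n → Fin m → ℕ) = r := by
    funext i
    simp [resR, rowS]
  have h2 : resC c (fun _ _ => 0 : Fin n → Fin m → ℕ) = c := by
    funext j
    simp [resC, colS]
  rw [h1, h2]

theorem UU_top {t : Fin n → Fin m → ℝ} (ht : ∀ j i, 0 < t j i) (r : Fin m → ℕ) (c : Fin n → ℕ)
    (hsum : ∑ i, r i = ∑ j, c j) : UU r c t (∑ i, r i) = 0 := by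
  unfold UU
  refine Finset.sum_eq_zero fun Y hY => ?_
  obtain ⟨h1, h2, h3⟩ := mem_Ylev.1 hY
  have h4 := sum_resR h1
  have h5 := sum_resC h2
  have h6 : ∑ i, resR r Y i = 0 := by omega
  have h7 : ∑ j, resC c Y j = 0 := by omega
  have h8 : ∀ i, resR r Y i = 0 := fun i => by
    have := Finset.single_le_sum (f := resR r Y) (fun _ _ => Nat.zero_le _) (mem_univ i)
    omega
  have h9 : ∀ j, resC c Y j = 0 := fun j => by
    have := Finset.single_le_sum (f := resC c Y) (fun _ _ => Nat.zero_le _) (mem_univ j)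
    omega
  rw [LK_zero ht _ _ h8 h9]
  simp

/-- The chain inequality telescoped over the total `q` of the removed part. -/
theorem unroll {t : Fin n → Fin m → ℝ} (ht : ∀ j i, 0 < t j i) (r : Fin m → ℕ) (c : Fin n → ℕ)
    (hsum : ∑ i, r i = ∑ j, c j) (_hM : 0 < ∑ i, r i) :
    FF r c t * LK r c t ≤ ∑ q ∈ range (∑ i, r i),
      (1 / ((((∑ i, r i) - q : ℕ) : ℝ) * (((∑ i, r i).choose q : ℕ) : ℝ))) *
        ∑ Y ∈ Ylev r c q, wt t Y * (FF (resR r Y) (resC c Y) t * DD (resR r Y) (resC c Y) t) := by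
  set N := ∑ i, r i with hN
  have hstep : ∀ q, q < N → UU r c t q / ((N.choose q : ℕ) : ℝ)
      ≤ UU r c t (q + 1) / ((N.choose (q + 1) : ℕ) : ℝ)
        + (1 / (((N - q : ℕ) : ℝ) * ((N.choose q : ℕ) : ℝ))) * AA r c t q := by
    intro q hq
    have h1 := UU_step ht r c hsum q hq
    rw [← hN] at h1
    have h2 : (0 : ℝ) < ((N - q : ℕ) : ℝ) := by
      have : 0 < N - q := by omega
      exact_mod_cast this
    have h3 : (0 : ℝ) < ((N.choose q : ℕ) : ℝ) := by
      have := Nat.choose_pos hq.le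
      exact_mod_cast this
    have h4 : (0 : ℝ) < ((N.choose (q + 1) : ℕ) : ℝ) := by
      have := Nat.choose_pos (show q + 1 ≤ N by omega)
      exact_mod_cast this
    have h5 : ((N.choose q : ℕ) : ℝ) * ((N - q : ℕ) : ℝ)
        = ((N.choose (q + 1) : ℕ) : ℝ) * ((q : ℝ) + 1) := by
      have := Nat.choose_succ_right_eq N q
      have h6 : (((N.choose (q + 1) * (q + 1) : ℕ)) : ℝ) = ((N.choose q * (N - q) : ℕ) : ℝ) := by
        rw [this]
      push_cast at h6
      linarith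
    -- multiply out
    have h7 : UU r c t (q + 1) / ((N.choose (q + 1) : ℕ) : ℝ)
        = ((q : ℝ) + 1) * UU r c t (q + 1) / (((N - q : ℕ) : ℝ) * ((N.choose q : ℕ) : ℝ)) := by
      rw [mul_comm ((N - q : ℕ) : ℝ), h5]
      have : (0 : ℝ) < (q : ℝ) + 1 := by positivity
      field_simp
    have h8 : UU r c t q / ((N.choose q : ℕ) : ℝ)
        = (((N - q : ℕ) : ℝ) * UU r c t q) / (((N - q : ℕ) : ℝ) * ((N.choose q : ℕ) : ℝ)) := by
      field_simp
    have h9 : (1 / (((N - q : ℕ) : ℝ) * ((N.choose q : ℕ) : ℝ))) * AA r c t q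
        = AA r c t q / (((N - q : ℕ) : ℝ) * ((N.choose q : ℕ) : ℝ)) := by
      ring
    rw [h7, h8, h9, ← add_div]
    exact div_le_div_of_nonneg_right h1 (mul_pos h2 h3).le
  have htel : ∀ k, k ≤ N → UU r c t 0 ≤ UU r c t k / ((N.choose k : ℕ) : ℝ)
      + ∑ q ∈ range k, (1 / (((N - q : ℕ) : ℝ) * ((N.choose q : ℕ) : ℝ))) * AA r c t q := by
    intro k
    induction k with
    | zero =>
      intro _
      simp
    | succ k ih =>
      intro hk
      have h1 := ih (by omega)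
      have h2 := hstep k (by omega)
      rw [Finset.sum_range_succ]
      linarith
  have h1 := htel N le_rfl
  rw [UU_top ht r c hsum, zero_div, zero_add, UU_zero] at h1
  exact h1

theorem rowS_add (Y S : Fin n → Fin m → ℕ) (i : Fin m) :
    rowS (fun j i => Y j i + S j i) i = rowS Y i + rowS S i := by
  unfold rowS
  exact Finset.sum_add_distrib

theorem colS_add (Y S : Fin n → Fin m → ℕ) (j : Fin n) :
    colS (fun j i => Y j i + S j i) j = colS Y j + colS S j := by
  unfold colS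
  exact Finset.sum_add_distrib

theorem totS_add (Y S : Fin n → Fin m → ℕ) :
    totS (fun j i => Y j i + S j i) = totS Y + totS S := by
  rw [totS_eq_sum_colS, totS_eq_sum_colS, totS_eq_sum_colS, ← Finset.sum_add_distrib]
  exact Finset.sum_congr rfl fun j _ => colS_add Y S j

theorem mem_subLev {T S : Fin n → Fin m → ℕ} {p : ℕ} :
    S ∈ subLev T p ↔ (∀ j i, S j i ≤ T j i) ∧ totS S = p := by
  unfold subLev boxT
  rw [mem_filter, Fintype.mem_piFinset]
  simp only [Fintype.mem_piFinset, mem_range, Nat.lt_succ_iff]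

/-- The weights of the two parts of a table. -/
theorem wt_mul_wt (t : Fin n → Fin m → ℝ) (Y S : Fin n → Fin m → ℕ) :
    wt t Y * wt t S = wt t (fun j i => Y j i + S j i) * (cp (fun j i => Y j i + S j i) S : ℝ) := by
  unfold wt cp
  push_cast
  simp only [← Finset.prod_mul_distrib]
  refine Finset.prod_congr rfl fun j _ => Finset.prod_congr rfl fun i _ => ?_
  have h1 := Nat.add_choose_mul_factorial_mul_factorial (Y j i) (S j i)
  have h2 : (((Y j i + S j i).choose (S j i) : ℕ) : ℝ) * ((Y j i)! : ℝ) * ((S j i)! : ℝ)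
      = ((Y j i + S j i)! : ℝ) := by exact_mod_cast h1
  have h3 : (0 : ℝ) < ((Y j i)! : ℝ) := by exact_mod_cast Nat.factorial_pos _
  have h4 : (0 : ℝ) < ((S j i)! : ℝ) := by exact_mod_cast Nat.factorial_pos _
  have h5 : (0 : ℝ) < ((Y j i + S j i)! : ℝ) := by exact_mod_cast Nat.factorial_pos _
  rw [pow_add]
  rw [← h2]
  have h6 : (0 : ℝ) < (((Y j i + S j i).choose (S j i) : ℕ) : ℝ) := by
    have := Nat.choose_pos (Nat.le_add_left (S j i) (Y j i))
    exact_mod_cast this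
  field_simp

/-- Reindexing the pair (removed part, remaining part). -/
theorem reindex (t : Fin n → Fin m → ℝ) (_ht : ∀ j i, 0 < t j i) (r : Fin m → ℕ) (c : Fin n → ℕ)
    (hsum : ∑ i, r i = ∑ j, c j) (q : ℕ) (hq : q ≤ ∑ i, r i)
    (G : (Fin n → Fin m → ℕ) → (Fin n → Fin m → ℕ) → ℝ) :
    ∑ Y ∈ Ylev r c q, wt t Y * ∑ S ∈ tabs (resR r Y) (resC c Y),
        wt t S * G (fun j i => Y j i + S j i) S
      = ∑ T ∈ tabs r c, wt t T * ∑ S ∈ subLev T ((∑ i, r i) - q), (cp T S : ℝ) * G T S := by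
  simp only [Finset.mul_sum]
  rw [Finset.sum_sigma', Finset.sum_sigma']
  refine Finset.sum_nbij' (fun x => ⟨fun j i => x.1 j i + x.2 j i, x.2⟩)
    (fun x => ⟨fun j i => x.1 j i - x.2 j i, x.2⟩) ?_ ?_ ?_ ?_ ?_
  · rintro ⟨Y, S⟩ hx
    rw [mem_sigma] at hx ⊢
    dsimp only at hx ⊢
    obtain ⟨hY, hS⟩ := hx
    obtain ⟨h1, h2, h3⟩ := mem_Ylev.1 hY
    obtain ⟨h4, h5⟩ := mem_tabs.1 hS
    have h6 := sum_resC h2
    have h7 : totS S = ∑ j, resC c Y j := by
      rw [totS_eq_sum_colS]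
      exact Finset.sum_congr rfl fun j _ => h4 j
    refine ⟨mem_tabs.2 ⟨fun j => ?_, fun i => ?_⟩, mem_subLev.2 ⟨fun j i => ?_, ?_⟩⟩
    · have h8 := colS_add Y S j
      have h9 := h4 j
      have h10 := h2 j
      have h11 : colS S j = resC c Y j := h9
      unfold resC at h11
      show colS (fun j i => Y j i + S j i) j = c j
      omega
    · have h8 := rowS_add Y S i
      have h9 := h5 i
      have h10 := h1 i
      have h11 : rowS S i = resR r Y i := h9
      unfold resR at h11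
      show rowS (fun j i => Y j i + S j i) i = r i
      omega
    · exact Nat.le_add_left _ _
    · show totS S = _
      omega
  · rintro ⟨T, S⟩ hx
    rw [mem_sigma] at hx ⊢
    dsimp only at hx ⊢
    obtain ⟨hT, hS⟩ := hx
    obtain ⟨h1, h2⟩ := mem_tabs.1 hT
    obtain ⟨h3, h4⟩ := mem_subLev.1 hS
    have hadd : (fun j i => (T j i - S j i) + S j i) = T := by
      funext j i
      have := h3 j i
      omega
    have hrow : ∀ i, rowS (fun j i => T j i - S j i) i + rowS S i = r i := by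
      intro i
      rw [← rowS_add, hadd]
      exact h2 i
    have hcol : ∀ j, colS (fun j i => T j i - S j i) j + colS S j = c j := by
      intro j
      rw [← colS_add, hadd]
      exact h1 j
    have htot : totS (fun j i => T j i - S j i) + totS S = ∑ i, r i := by
      rw [← totS_add, hadd, totS_eq_sum_rowS]
      exact Finset.sum_congr rfl fun i _ => h2 i
    refine ⟨mem_Ylev.2 ⟨fun i => ?_, fun j => ?_, ?_⟩, mem_tabs.2 ⟨fun j => ?_, fun i => ?_⟩⟩
    · have := hrow i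
      omega
    · have := hcol j
      omega
    · omega
    · have := hcol j
      show colS S j = resC c (fun j i => T j i - S j i) j
      unfold resC
      omega
    · have := hrow i
      show rowS S i = resR r (fun j i => T j i - S j i) i
      unfold resR
      omega
  · rintro ⟨Y, S⟩ _
    simp
  · rintro ⟨T, S⟩ hx
    rw [mem_sigma] at hx
    dsimp only at hx
    obtain ⟨_, hS⟩ := hx
    obtain ⟨h3, _⟩ := mem_subLev.1 hS
    have hadd : (fun j i => (T j i - S j i) + S j i) = T := by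
      funext j i
      have := h3 j i
      omega
    simp [hadd]
  · rintro ⟨Y, S⟩ _
    show wt t Y * (wt t S * G (fun j i => Y j i + S j i) S)
      = wt t (fun j i => Y j i + S j i) * ((cp (fun j i => Y j i + S j i) S : ℝ)
        * G (fun j i => Y j i + S j i) S)
    rw [← mul_assoc, wt_mul_wt, mul_assoc]

/-- The pointwise bound for `F log K`, over `p`, the total of the remaining part. -/
theorem FF_LK_le {t : Fin n → Fin m → ℝ} (ht : ∀ j i, 0 < t j i) (r : Fin m → ℕ) (c : Fin n → ℕ)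
    (hsum : ∑ i, r i = ∑ j, c j) (hM : 0 < ∑ i, r i) :
    FF r c t * LK r c t ≤ ∑ p ∈ Finset.Icc 1 (∑ i, r i),
      (2 / ((p : ℝ) * (((∑ i, r i).choose p : ℕ) : ℝ))) *
        ∑ T ∈ tabs r c, wt t T * ∑ S ∈ subLev T p, (cp T S : ℝ) * GGP (lightSet T p) S t := by
  refine (unroll ht r c hsum hM).trans ?_
  set N := ∑ i, r i with hN
  have h1 : ∑ p ∈ Finset.Icc 1 N,
      (2 / ((p : ℝ) * ((N.choose p : ℕ) : ℝ))) *
        ∑ T ∈ tabs r c, wt t T * ∑ S ∈ subLev T p, (cp T S : ℝ) * GGP (lightSet T p) S t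
      = ∑ q ∈ range N, (2 / (((N - q : ℕ) : ℝ) * ((N.choose q : ℕ) : ℝ))) *
        ∑ T ∈ tabs r c, wt t T * ∑ S ∈ subLev T (N - q), (cp T S : ℝ)
          * GGP (lightSet T (N - q)) S t := by
    symm
    refine Finset.sum_nbij' (fun q => N - q) (fun p => N - p) ?_ ?_ ?_ ?_ ?_
    · intro q hq
      rw [mem_range] at hq
      rw [mem_Icc]
      omega
    · intro p hp
      rw [mem_Icc] at hp
      rw [mem_range]
      omega
    · intro q hq
      rw [mem_range] at hq
      omega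
    · intro p hp
      rw [mem_Icc] at hp
      omega
    · intro q hq
      rw [mem_range] at hq
      rw [Nat.choose_symm hq.le]
  rw [h1]
  refine Finset.sum_le_sum fun q hq => ?_
  rw [mem_range] at hq
  have h2 : (0 : ℝ) < ((N - q : ℕ) : ℝ) := by
    have : 0 < N - q := by omega
    exact_mod_cast this
  have h3 : (0 : ℝ) < ((N.choose q : ℕ) : ℝ) := by
    have := Nat.choose_pos hq.le
    exact_mod_cast this
  have h4 := reindex t ht r c hsum q hq.le (fun T S => GGP (lightSet T (N - q)) S t)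
  rw [← hN] at h4
  rw [← h4]
  have h5 : ∑ Y ∈ Ylev r c q, wt t Y * (FF (resR r Y) (resC c Y) t * DD (resR r Y) (resC c Y) t)
      ≤ 2 * ∑ Y ∈ Ylev r c q, wt t Y * ∑ S ∈ tabs (resR r Y) (resC c Y),
        wt t S * GGP (lightSet (fun j i => Y j i + S j i) (N - q)) S t := by
    rw [Finset.mul_sum]
    refine Finset.sum_le_sum fun Y hY => ?_
    have h6 := cauchy_flux ht (resR r Y) (resC c Y) (res_hsum hsum hY)
      (fun S => lightSet (fun j i => Y j i + S j i) (N - q))
    have h7 := mul_le_mul_of_nonneg_left h6 (wt_pos ht Y).le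
    refine h7.trans (le_of_eq ?_)
    ring
  have h6 : (2 / (((N - q : ℕ) : ℝ) * ((N.choose q : ℕ) : ℝ))) *
      ∑ Y ∈ Ylev r c q, wt t Y * ∑ S ∈ tabs (resR r Y) (resC c Y),
        wt t S * GGP (lightSet (fun j i => Y j i + S j i) (N - q)) S t
      = (1 / (((N - q : ℕ) : ℝ) * ((N.choose q : ℕ) : ℝ))) *
      (2 * ∑ Y ∈ Ylev r c q, wt t Y * ∑ S ∈ tabs (resR r Y) (resC c Y),
        wt t S * GGP (lightSet (fun j i => Y j i + S j i) (N - q)) S t) := by
    ring
  rw [h6]
  exact mul_le_mul_of_nonneg_left h5 (by positivity)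

end Vale.Agent.Lib.P328.Sparse
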